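import Vale.Agent.P267.H469.Laws

/-! P267 / H469: `∂` on `(1,1)`-forms, conjugation, `d ∘ d = 0`, smoothness of the exterior
derivative, for the definitions of H399.Defs. -/

set_option linter.unusedSectionVars false

open scoped Manifold ContDiff ComplexConjugate Topology
open MeasureTheory Set

noncomputable section

namespace Vale.Agent.P267.H469

open Vale.Agent.P267.FL

variable {X : Type*} [TopologicalSpace X] [ChartedSpace C2 X] [IsManifold 𝓘(ℂ, C2) ω X]
variable {V : Type*} [NormedAddCommGroup V] [NormedSpace ℂ V]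

/-- `∂` of a `(1,1)`-form, a `K`-valued `(0,1)`-form -/
def del11 (g : X → Matrix (Fin 2) (Fin 2) ℂ) (x : X) (j : Fin 2) : ℂ :=
  dz 0 (fun z => loc11 (chartAt C2 x) g z 1 j) (chartAt C2 x x) -
    dz 1 (fun z => loc11 (chartAt C2 x) g z 0 j) (chartAt C2 x x)

theorem d21_eq (F : TwoF X) : F.d21 = fun x j => dbar0 1 F.f20 x j + del11 F.f11 x j := rfl

theorem loc11_near {e e' : Ch X} (he : e ∈ atlas C2 X) (he' : e' ∈ atlas C2 X) {w : C2}
    (hw : w ∈ ov e e') (g : X → Matrix (Fin 2) (Fin 2) ℂ) (i j : Fin 2) :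
    (fun v => loc11 e g v i j) =ᶠ[𝓝 w]
      fun v => ∑ p, ∑ q, (J e e' p i v * conj (J e e' q j v)) •
        (fun u => loc11 e' g u p q) (tr e e' v) := by
  filter_upwards [ov_nhds hw] with v hv
  exact loc11_tr he he' hv g i j

theorem del11_law {g : X → Matrix (Fin 2) (Fin 2) ℂ} (hg : Reg11 1 g) {e : Ch X}
    (he : e ∈ atlas C2 X) {w : C2} (hw : w ∈ e.target) (j : Fin 2) :
    loc1 1 e (del11 g) w j =
      dz 0 (fun v => loc11 e g v 1 j) w - dz 1 (fun v => loc11 e g v 0 j) w := by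
  set e' := chartAt C2 (e.symm w) with he'd
  have he' : e' ∈ atlas C2 X := chart_mem_atlas C2 _
  have hov : w ∈ ov e e' := mem_ov_chartAt hw
  have hG : ∀ p q, DifferentiableAt ℝ (fun u => loc11 e' g u p q) (tr e e' w) := fun p q =>
    diffAt_of (hg e' he' p q) (tr_mem hov)
  have hc : ∀ p i q, DifferentiableAt ℝ (fun v => J e e' p i v * conj (J e e' q j v)) w :=
    fun p i q => (J_diffR he he' hov p i).mul (conj_diff (J_diffR he he' hov q j))
  have hdc : ∀ p i q k, dz k (fun v => J e e' p i v * conj (J e e' q j v)) w =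
      dz k (J e e' p i) w * conj (J e e' q j w) := by
    intro p i q k
    have := dz_smul (c := J e e' p i) (f := fun v => conj (J e e' q j v)) k
      (J_diffR he he' hov p i) (conj_diff (J_diffR he he' hov q j))
    simp only [smul_eq_mul] at this
    rw [this, dz_conj_J he he' hov, mul_zero, add_zero]
  have key : ∀ k i, dz k (fun v => loc11 e g v i j) w = ∑ p, ∑ q,
      ((dz k (J e e' p i) w * conj (J e e' q j w)) • loc11 e' g (tr e e' w) p q +
        (J e e' p i w * conj (J e e' q j w)) •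
        ∑ r, J e e' r k w • dz r (fun u => loc11 e' g u p q) (tr e e' w)) := by
    intro k i
    have hs : ∀ p q, DifferentiableAt ℝ (fun v => (J e e' p i v * conj (J e e' q j v)) •
        (fun u => loc11 e' g u p q) (tr e e' v)) w := fun p q =>
      diff_smul_comp he he' hov (hc p i q) (hG p q)
    rw [dz_congr (loc11_near he he' hov g i j), dz_sum k _ (fun p _ => by
      exact DifferentiableAt.fun_sum (fun q _ => hs p q))]
    refine Finset.sum_congr rfl fun p _ => ?_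
    rw [dz_sum k _ (fun q _ => hs p q)]
    refine Finset.sum_congr rfl fun q _ => ?_
    rw [dz_hol_smul_comp he he' hov (hc p i q) (hG p q), hdc]
  rw [key, key]
  unfold loc1 del11
  rw [← he'd]
  unfold jac
  rw [← he'd, jacM_eq_JM hw]
  have htr : e' (e.symm w) = tr e e' w := rfl
  rw [htr, zpow_one, Matrix.det_fin_two]
  simp only [JM_apply, Fin.sum_univ_two, smul_eq_mul]
  rw [dz_J_symm he he' hov 0 1 0, dz_J_symm he he' hov 1 1 0]
  ring

/-! ### regularity -/

theorem r0mono {m n : WithTop ℕ∞} {κ : ℤ} {s : X → V} (h : Reg0 n κ s) (hmn : m ≤ n) :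
    Reg0 m κ s := fun e he => (h e he).of_le hmn
theorem r1mono {m n : WithTop ℕ∞} {κ : ℤ} {s : X → Fin 2 → V} (h : Reg1 n κ s) (hmn : m ≤ n) :
    Reg1 m κ s := fun e he => (h e he).of_le hmn
theorem r2mono {m n : WithTop ℕ∞} {κ : ℤ} {s : X → V} (h : Reg2 n κ s) (hmn : m ≤ n) :
    Reg2 m κ s := fun e he => (h e he).of_le hmn
theorem r10mono {m n : WithTop ℕ∞} {s : X → Fin 2 → V} (h : Reg10 n s) (hmn : m ≤ n) :
    Reg10 m s := fun e he => (h e he).of_le hmn
theorem r11mono {m n : WithTop ℕ∞} {s : X → Matrix (Fin 2) (Fin 2) V} (h : Reg11 n s)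
    (hmn : m ≤ n) : Reg11 m s := fun e he i j => (h e he i j).of_le hmn

theorem one_le_infty : (1 : WithTop ℕ∞) ≤ ∞ := by
  exact_mod_cast le_top

theorem two_le_infty : (2 : WithTop ℕ∞) ≤ ∞ := by
  have h : ((2 : ℕ∞) : WithTop ℕ∞) ≤ ((⊤ : ℕ∞) : WithTop ℕ∞) := by
    rw [WithTop.coe_le_coe]; exact le_top
  exact h

theorem infty_add_one : (∞ : WithTop ℕ∞) + 1 ≤ ∞ := by
  simp

theorem r0comp {s : X → V} {n : WithTop ℕ∞} (hs : Reg0 n 0 s) {e : Ch X} (he : e ∈ atlas C2 X) :
    ContDiffOn ℝ n (fun v => s (e.symm v)) e.target := by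
  have := hs e he
  unfold loc0 at this
  simp only [zpow_zero, one_smul] at this
  exact this

theorem reg_del0 {s : X → V} (hs : Reg0 ∞ 0 s) : Reg10 ∞ (del0 s) := by
  intro e he
  rw [contDiffOn_pi]
  intro i
  exact (dz_contDiffOn e.open_target (r0comp hs he) infty_add_one i).congr fun w hw =>
    del0_law (r0mono hs one_le_infty) he hw i

theorem reg_dbar0 {κ : ℤ} {s : X → V} (hs : Reg0 ∞ κ s) : Reg1 ∞ κ (dbar0 κ s) := by
  intro e he
  rw [contDiffOn_pi]
  intro i
  exact (dzb_contDiffOn e.open_target (hs e he) infty_add_one i).congr fun w hw =>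
    dbar0_law (r0mono hs one_le_infty) he hw i

theorem reg_dbar1 {κ : ℤ} {a : X → Fin 2 → V} (ha : Reg1 ∞ κ a) : Reg2 ∞ κ (dbar1 κ a) := by
  intro e he
  have h : ∀ i, ContDiffOn ℝ ∞ (fun v => loc1 κ e a v i) e.target :=
    fun i => (contDiffOn_pi.1 (ha e he)) i
  exact ((dzb_contDiffOn e.open_target (h 1) infty_add_one 0).sub
    (dzb_contDiffOn e.open_target (h 0) infty_add_one 1)).congr fun w hw =>
    dbar1_law (r1mono ha one_le_infty) he hw

theorem reg_del10 {c : X → Fin 2 → ℂ} (hc : Reg10 ∞ c) : Reg0 ∞ 1 (del10 c) := by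
  intro e he
  have h : ∀ i, ContDiffOn ℝ ∞ (fun v => loc10 e c v i) e.target :=
    fun i => (contDiffOn_pi.1 (hc e he)) i
  exact ((dz_contDiffOn e.open_target (h 1) infty_add_one 0).sub
    (dz_contDiffOn e.open_target (h 0) infty_add_one 1)).congr fun w hw =>
    del10_law (r10mono hc one_le_infty) he hw

theorem reg_del1 {a : X → Fin 2 → V} (ha : Reg1 ∞ 0 a) : Reg11 ∞ (del1 a) := by
  intro e he i j
  exact (dz_contDiffOn e.open_target ((contDiffOn_pi.1 (ha e he)) j) infty_add_one i).congr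
    fun w hw => del1_law (r1mono ha one_le_infty) he hw i j

theorem reg_dbar10 {c : X → Fin 2 → V} (hc : Reg10 ∞ c) : Reg11 ∞ (dbar10 c) := by
  intro e he i j
  exact (dzb_contDiffOn e.open_target ((contDiffOn_pi.1 (hc e he)) i) infty_add_one j).neg.congr
    fun w hw => dbar10_law (r10mono hc one_le_infty) he hw i j

theorem reg_del11 {g : X → Matrix (Fin 2) (Fin 2) ℂ} (hg : Reg11 ∞ g) : Reg1 ∞ 1 (del11 g) := by
  intro e he
  rw [contDiffOn_pi]
  intro j
  exact ((dz_contDiffOn e.open_target (hg e he 1 j) infty_add_one 0).sub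
    (dz_contDiffOn e.open_target (hg e he 0 j) infty_add_one 1)).congr fun w hw =>
    del11_law (r11mono hg one_le_infty) he hw j

/-! ### linearity of components -/

section lin

variable (e : Ch X) (z : C2) (c : ℂ)

theorem loc0_add (κ : ℤ) (s t : X → V) : loc0 κ e (s + t) z = loc0 κ e s z + loc0 κ e t z := by
  unfold loc0; rw [Pi.add_apply, smul_add]
theorem loc0_smul (κ : ℤ) (s : X → V) : loc0 κ e (c • s) z = c • loc0 κ e s z := by
  unfold loc0; rw [Pi.smul_apply, smul_comm]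
theorem loc2_add (κ : ℤ) (s t : X → V) : loc2 κ e (s + t) z = loc2 κ e s z + loc2 κ e t z := by
  unfold loc2; rw [Pi.add_apply]; module
theorem loc2_smul (κ : ℤ) (s : X → V) : loc2 κ e (c • s) z = c • loc2 κ e s z := by
  unfold loc2; rw [Pi.smul_apply]; module
theorem loc1_add (κ : ℤ) (a b : X → Fin 2 → V) (i : Fin 2) :
    loc1 κ e (a + b) z i = loc1 κ e a z i + loc1 κ e b z i := by
  unfold loc1; simp only [Pi.add_apply, Fin.sum_univ_two]; module
theorem loc1_smul (κ : ℤ) (a : X → Fin 2 → V) (i : Fin 2) :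
    loc1 κ e (c • a) z i = c • loc1 κ e a z i := by
  unfold loc1; simp only [Pi.smul_apply, Fin.sum_univ_two]; module
theorem loc10_add (a b : X → Fin 2 → V) (i : Fin 2) :
    loc10 e (a + b) z i = loc10 e a z i + loc10 e b z i := by
  unfold loc10; simp only [Pi.add_apply, Fin.sum_univ_two]; module
theorem loc10_smul (a : X → Fin 2 → V) (i : Fin 2) :
    loc10 e (c • a) z i = c • loc10 e a z i := by
  unfold loc10; simp only [Pi.smul_apply, Fin.sum_univ_two]; module
theorem loc11_add (a b : X → Matrix (Fin 2) (Fin 2) V) (i j : Fin 2) :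
    loc11 e (a + b) z i j = loc11 e a z i j + loc11 e b z i j := by
  unfold loc11; simp only [Matrix.of_apply, Pi.add_apply, Matrix.add_apply, Fin.sum_univ_two]
  module
theorem loc11_smul (a : X → Matrix (Fin 2) (Fin 2) V) (i j : Fin 2) :
    loc11 e (c • a) z i j = c • loc11 e a z i j := by
  unfold loc11; simp only [Matrix.of_apply, Pi.smul_apply, Matrix.smul_apply, Fin.sum_univ_two]
  module

end lin

/-! ### conjugation -/

/-- conjugate of a `(1,0)`-form or of a `(0,1)`-form -/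
def cj1 (c : X → Fin 2 → ℂ) : X → Fin 2 → ℂ := fun x i => conj (c x i)
/-- conjugate of a function, of a `(2,0)`-form, of a `(0,2)`-form -/
def cj0 (s : X → ℂ) : X → ℂ := fun x => conj (s x)
/-- conjugate of a `(1,1)`-form -/
def cj11 (g : X → Matrix (Fin 2) (Fin 2) ℂ) : X → Matrix (Fin 2) (Fin 2) ℂ :=
  fun x => Matrix.of fun i j => - conj (g x j i)

theorem cj1_cj1 (c : X → Fin 2 → ℂ) : cj1 (cj1 c) = c := by
  funext x i; simp [cj1]
theorem cj0_cj0 (s : X → ℂ) : cj0 (cj0 s) = s := by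
  funext x; simp [cj0]
theorem cj11_cj11 (g : X → Matrix (Fin 2) (Fin 2) ℂ) : cj11 (cj11 g) = g := by
  funext x; ext i j; simp [cj11]

theorem loc1_cj1 (e : Ch X) (c : X → Fin 2 → ℂ) (z : C2) (i : Fin 2) :
    loc1 0 e (cj1 c) z i = conj (loc10 e c z i) := by
  unfold loc1 loc10 cj1
  simp only [zpow_zero, one_smul, map_sum, smul_eq_mul, map_mul, one_mul]

theorem loc10_cj1 (e : Ch X) (c : X → Fin 2 → ℂ) (z : C2) (i : Fin 2) :
    loc10 e (cj1 c) z i = conj (loc1 0 e c z i) := by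
  unfold loc1 loc10 cj1
  simp only [zpow_zero, one_smul, map_sum, smul_eq_mul, map_mul, Complex.conj_conj, map_one,
    one_mul]

theorem loc0_cj0 (e : Ch X) (s : X → ℂ) (z : C2) :
    loc0 0 e (cj0 s) z = conj (loc0 0 e s z) := by
  unfold loc0 cj0
  simp only [zpow_zero, one_smul]

theorem loc2_cj0 (e : Ch X) (s : X → ℂ) (z : C2) :
    loc2 0 e (cj0 s) z = conj (loc0 1 e s z) := by
  unfold loc2 loc0 cj0
  simp only [zpow_zero, zpow_one, smul_eq_mul, map_mul, one_mul]

theorem loc0_cj0' (e : Ch X) (s : X → ℂ) (z : C2) :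
    loc0 1 e (cj0 s) z = conj (loc2 0 e s z) := by
  unfold loc2 loc0 cj0
  simp only [zpow_zero, zpow_one, smul_eq_mul, map_mul, Complex.conj_conj, map_one, one_mul]

theorem loc21_cj0 (e : Ch X) (s : X → ℂ) (z : C2) :
    loc2 1 e (cj0 s) z = conj (loc2 1 e s z) := by
  unfold loc2 cj0
  simp only [zpow_one, smul_eq_mul, map_mul, Complex.conj_conj]
  ring

theorem loc11_cj11 (e : Ch X) (g : X → Matrix (Fin 2) (Fin 2) ℂ) (z : C2) (i j : Fin 2) :
    loc11 e (cj11 g) z i j = - conj (loc11 e g z j i) := by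
  unfold loc11 cj11
  simp only [Matrix.of_apply, Fin.sum_univ_two, smul_eq_mul, map_add, map_mul, Complex.conj_conj]
  ring

theorem conj_contDiffOn {f : C2 → ℂ} {U : Set C2} {n : WithTop ℕ∞} (hf : ContDiffOn ℝ n f U) :
    ContDiffOn ℝ n (fun z => conj (f z)) U :=
  Complex.conjCLE.contDiff.comp_contDiffOn hf

theorem r10cj {n : WithTop ℕ∞} {c : X → Fin 2 → ℂ} (h : Reg10 n c) : Reg1 n 0 (cj1 c) := by
  intro e he
  rw [contDiffOn_pi]
  intro i
  exact (conj_contDiffOn ((contDiffOn_pi.1 (h e he)) i)).congr fun z _ => loc1_cj1 e c z i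

theorem r1cj {n : WithTop ℕ∞} {c : X → Fin 2 → ℂ} (h : Reg1 n 0 c) : Reg10 n (cj1 c) := by
  intro e he
  rw [contDiffOn_pi]
  intro i
  exact (conj_contDiffOn ((contDiffOn_pi.1 (h e he)) i)).congr fun z _ => loc10_cj1 e c z i

theorem r0cj {n : WithTop ℕ∞} {c : X → ℂ} (h : Reg0 n 0 c) : Reg0 n 0 (cj0 c) :=
  fun e he => (conj_contDiffOn (h e he)).congr fun z _ => loc0_cj0 e c z

theorem r0cj' {n : WithTop ℕ∞} {c : X → ℂ} (h : Reg0 n 1 c) : Reg2 n 0 (cj0 c) :=
  fun e he => (conj_contDiffOn (h e he)).congr fun z _ => loc2_cj0 e c z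

theorem r2cj {n : WithTop ℕ∞} {c : X → ℂ} (h : Reg2 n 0 c) : Reg0 n 1 (cj0 c) :=
  fun e he => (conj_contDiffOn (h e he)).congr fun z _ => loc0_cj0' e c z

theorem r11cj {n : WithTop ℕ∞} {g : X → Matrix (Fin 2) (Fin 2) ℂ} (h : Reg11 n g) :
    Reg11 n (cj11 g) :=
  fun e he i j => (conj_contDiffOn (h e he j i)).neg.congr fun z _ => loc11_cj11 e g z i j

theorem del0_cj (s : X → ℂ) : del0 (cj0 s) = cj1 (dbar0 0 s) := by
  funext x i
  unfold del0 cj1 dbar0
  have : loc0 0 (chartAt C2 x) s = fun z => s ((chartAt C2 x).symm z) := by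
    funext z; simp [loc0]
  rw [this, ← dz_conj]
  rfl

theorem dbar0_cj (s : X → ℂ) : dbar0 0 (cj0 s) = cj1 (del0 s) := by
  have h := del0_cj (cj0 s)
  rw [cj0_cj0] at h
  rw [h, cj1_cj1]

theorem del10_cj (a : X → Fin 2 → ℂ) : del10 (cj1 a) = cj0 (dbar1 0 a) := by
  funext x
  unfold del10 cj0 dbar1
  simp only [loc10_cj1]
  rw [dz_conj, dz_conj, map_sub]

theorem dbar1_cj (a : X → Fin 2 → ℂ) : dbar1 0 (cj1 a) = cj0 (del10 a) := by
  have h := del10_cj (cj1 a)
  rw [cj1_cj1] at h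
  rw [h, cj0_cj0]

theorem del1_cj (c : X → Fin 2 → ℂ) : del1 (cj1 c) = cj11 (dbar10 c) := by
  funext x
  ext i j
  unfold del1 cj11 dbar10
  simp only [loc1_cj1, Matrix.of_apply]
  rw [dz_conj, map_neg, neg_neg]

theorem dbar10_cj (c : X → Fin 2 → ℂ) : dbar10 (cj1 c) = cj11 (del1 c) := by
  have h := del1_cj (cj1 c)
  rw [cj1_cj1] at h
  rw [h, cj11_cj11]

/-- conjugate of a two-form -/
def cjF (F : TwoF X) : TwoF X := ⟨cj0 F.f02, cj11 F.f11, cj0 F.f20⟩

theorem d21_cj (F : TwoF X) : (cjF F).d21 = cj1 F.d12 := by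
  funext x j
  unfold TwoF.d21 cjF cj1 TwoF.d12 dbar0
  simp only [loc11_cj11]
  have h : loc0 1 (chartAt C2 x) (cj0 F.f02) = fun z => conj (loc2 0 (chartAt C2 x) F.f02 z) := by
    funext z; exact loc0_cj0' _ _ _
  rw [h, dzb_conj, dz_neg, dz_neg, dz_conj, dz_conj, map_sub, map_sub]
  ring

theorem cjF_cjF (F : TwoF X) : cjF (cjF F) = F := by
  unfold cjF
  rw [cj0_cj0, cj0_cj0, cj11_cj11]

theorem d12_cj (F : TwoF X) : (cjF F).d12 = cj1 F.d21 := by
  have h := d21_cj (cjF F)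
  rw [cjF_cjF] at h
  rw [h, cj1_cj1]

/-! ### `d ∘ d = 0` -/

theorem cda {f : C2 → V} {e : Ch X} (hf : ContDiffOn ℝ ∞ f e.target) {w : C2} (hw : w ∈ e.target) :
    ContDiffAt ℝ 2 f w := (hf.contDiffAt (e.open_target.mem_nhds hw)).of_le two_le_infty

theorem chart_mem (x : X) : chartAt C2 x x ∈ (chartAt C2 x).target :=
  (chartAt C2 x).map_source (mem_chart_source C2 x)

theorem near_target (x : X) : (chartAt C2 x).target ∈ 𝓝 (chartAt C2 x x) :=
  (chartAt C2 x).open_target.mem_nhds (chart_mem x)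

theorem dbar1_dbar0 {κ : ℤ} {s : X → V} (hs : Reg0 ∞ κ s) : dbar1 κ (dbar0 κ s) = 0 := by
  funext x
  have he := chart_mem_atlas C2 x
  have h : ∀ i, (fun z => loc1 κ (chartAt C2 x) (dbar0 κ s) z i) =ᶠ[𝓝 (chartAt C2 x x)]
      dzb i (loc0 κ (chartAt C2 x) s) := by
    intro i
    filter_upwards [near_target x] with z hz
    exact dbar0_law (r0mono hs one_le_infty) he hz i
  unfold dbar1
  rw [dzb_congr (h 1), dzb_congr (h 0), dzb_dzb_comm (cda (hs _ he) (chart_mem x)), sub_self]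
  rfl

theorem del10_del0 {s : X → ℂ} (hs : Reg0 ∞ 0 s) : del10 (del0 s) = 0 := by
  have h := del0_cj (cj0 s)
  rw [cj0_cj0] at h
  rw [h, del10_cj, dbar1_dbar0 (r0cj hs)]
  funext x; simp [cj0]

theorem del1_dbar0 {s : X → V} (hs : Reg0 ∞ 0 s) : del1 (dbar0 0 s) + dbar10 (del0 s) = 0 := by
  funext x
  have he := chart_mem_atlas C2 x
  ext i j
  have h1 : (fun z => loc1 0 (chartAt C2 x) (dbar0 0 s) z j) =ᶠ[𝓝 (chartAt C2 x x)]
      dzb j (fun z => s ((chartAt C2 x).symm z)) := by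
    filter_upwards [near_target x] with z hz
    rw [dbar0_law (r0mono hs one_le_infty) he hz j]
    congr 1
    funext z; simp [loc0]
  have h2 : (fun z => loc10 (chartAt C2 x) (del0 s) z i) =ᶠ[𝓝 (chartAt C2 x x)]
      dz i (fun z => s ((chartAt C2 x).symm z)) := by
    filter_upwards [near_target x] with z hz
    exact del0_law (r0mono hs one_le_infty) he hz i
  rw [Pi.add_apply, Matrix.add_apply]
  unfold del1 dbar10
  rw [Matrix.of_apply, Matrix.of_apply, dz_congr h1, dzb_congr h2,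
    dz_dzb_comm (cda (r0comp hs he) (chart_mem x)), add_neg_cancel]
  rfl

theorem dbar1_zero {κ : ℤ} : dbar1 κ (0 : X → Fin 2 → V) = 0 := by
  funext x
  have h : ∀ i, (fun z => loc1 κ (chartAt C2 x) (0 : X → Fin 2 → V) z i) = fun _ => 0 := by
    intro i; funext z; simp [loc1]
  unfold dbar1
  rw [h, h, dzb_const, dzb_const, sub_zero]
  rfl

/-- `∂ ∂ = 0` on `(0,1)`-forms -/
theorem del11_del1 {a : X → Fin 2 → ℂ} (ha : Reg1 ∞ 0 a) : del11 (del1 a) = 0 := by
  funext x j
  have he := chart_mem_atlas C2 x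
  have h : ∀ i, (fun z => loc11 (chartAt C2 x) (del1 a) z i j) =ᶠ[𝓝 (chartAt C2 x x)]
      dz i (fun z => loc1 0 (chartAt C2 x) a z j) := by
    intro i
    filter_upwards [near_target x] with z hz
    exact del1_law (r1mono ha one_le_infty) he hz i j
  unfold del11
  rw [dz_congr (h 1), dz_congr (h 0),
    dz_dz_comm (cda ((contDiffOn_pi.1 (ha _ he)) j) (chart_mem x)), sub_self]
  rfl

/-- `∂̄ ∂ + ∂ ∂̄ = 0` on `(1,0)`-forms -/
theorem dbar0_del10 {c : X → Fin 2 → ℂ} (hc : Reg10 ∞ c) :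
    dbar0 1 (del10 c) + del11 (dbar10 c) = 0 := by
  funext x j
  have he := chart_mem_atlas C2 x
  have hd : ∀ i, ContDiffOn ℝ ∞ (fun z => loc10 (chartAt C2 x) c z i) (chartAt C2 x).target :=
    fun i => (contDiffOn_pi.1 (hc _ he)) i
  have h1 : loc0 1 (chartAt C2 x) (del10 c) =ᶠ[𝓝 (chartAt C2 x x)]
      fun z => dz 0 (fun v => loc10 (chartAt C2 x) c v 1) z -
        dz 1 (fun v => loc10 (chartAt C2 x) c v 0) z := by
    filter_upwards [near_target x] with z hz
    exact del10_law (r10mono hc one_le_infty) he hz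
  have h2 : ∀ i, (fun z => loc11 (chartAt C2 x) (dbar10 c) z i j) =ᶠ[𝓝 (chartAt C2 x x)]
      fun z => - dzb j (fun v => loc10 (chartAt C2 x) c v i) z := by
    intro i
    filter_upwards [near_target x] with z hz
    exact dbar10_law (r10mono hc one_le_infty) he hz i j
  rw [Pi.add_apply, Pi.add_apply]
  unfold dbar0 del11
  rw [dzb_congr h1, dz_congr (h2 1), dz_congr (h2 0), dz_neg, dz_neg,
    dzb_sub _ (dz_diff (cda (hd 1) (chart_mem x)) 0) (dz_diff (cda (hd 0) (chart_mem x)) 1),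
    dz_dzb_comm (cda (hd 1) (chart_mem x)), dz_dzb_comm (cda (hd 0) (chart_mem x))]
  simp

end Vale.Agent.P267.H469
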