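import Vale.Agent.P267.H469.Calc

/-! P267 / H469: `h^{1,0} = 0`, `h^{0,1} = 1`, `b_2 = h^{1,1}` for the abstract calculus. -/

namespace Vale.Agent.P267.H469

noncomputable section

open scoped ComplexConjugate

variable {Ω0 Ω1 Ω2 Ω3 : Type*} [AddCommGroup Ω0] [Module ℂ Ω0] [AddCommGroup Ω1]
    [Module ℂ Ω1] [AddCommGroup Ω2] [Module ℂ Ω2] [AddCommGroup Ω3] [Module ℂ Ω3]

namespace Calc

variable (C : Calc Ω0 Ω1 Ω2 Ω3)

/-- `H¹_dR(X;ℂ)` -/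
abbrev H1 : Type _ := (LinearMap.ker C.d1) ⧸ (LinearMap.range C.d0).comap (LinearMap.ker C.d1).subtype
/-- `H²_dR(X;ℂ)` -/
abbrev H2 : Type _ := C.Z2 ⧸ C.B2.comap C.Z2.subtype
/-- `∂̄`-closed `(0,1)`-forms -/
def Z01 : Submodule ℂ Ω1 :=
  LinearMap.ker (C.p01 - LinearMap.id) ⊓ LinearMap.ker (C.p02.comp C.d1)
/-- `∂̄`-exact `(0,1)`-forms -/
def B01 : Submodule ℂ Ω1 := LinearMap.range (C.p01.comp C.d0)
/-- holomorphic one-forms -/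
def Z10 : Submodule ℂ Ω1 :=
  LinearMap.ker (C.p10 - LinearMap.id) ⊓ LinearMap.ker (C.p11.comp C.d1)
/-- `H^{0,1}` -/
abbrev H01 : Type _ := C.Z01 ⧸ C.B01.comap C.Z01.subtype
/-- `H^{1,1}` -/
abbrev H11 : Type _ := C.Z11 ⧸ C.B11.comap C.Z11.subtype

theorem mem_Z01 {a : Ω1} : a ∈ C.Z01 ↔ C.is01 a ∧ C.p02 (C.d1 a) = 0 := by
  unfold Z01 is01
  rw [Submodule.mem_inf, LinearMap.mem_ker, LinearMap.mem_ker, LinearMap.sub_apply,
    LinearMap.id_apply, sub_eq_zero]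
  rfl

theorem mem_Z10 {a : Ω1} : a ∈ C.Z10 ↔ C.is10 a ∧ C.p11 (C.d1 a) = 0 := by
  unfold Z10 is10
  rw [Submodule.mem_inf, LinearMap.mem_ker, LinearMap.mem_ker, LinearMap.sub_apply,
    LinearMap.id_apply, sub_eq_zero]
  rfl

variable {C}

/-- if `b_1 = 1` every closed one-form is a multiple of `θ` up to exact forms -/
theorem b1le_of_finrank (A : C.Gaud) (h : Module.finrank ℂ C.H1 = 1) : C.B1le A.θ := by
  set x : LinearMap.ker C.d1 := ⟨A.θ, A.closed⟩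
  have hne : (Submodule.Quotient.mk x : C.H1) ≠ 0 := by
    intro h0
    rw [Submodule.Quotient.mk_eq_zero] at h0
    obtain ⟨u, hu⟩ := h0
    apply A.θ_not_exact u
    have hu' : C.d0 u = A.θ := hu
    rw [hu']
  intro a ha
  obtain ⟨t, ht⟩ := (finrank_eq_one_iff_of_nonzero' _ hne).1 h
    (Submodule.Quotient.mk (⟨a, ha⟩ : LinearMap.ker C.d1))
  rw [← Submodule.Quotient.mk_smul, Submodule.Quotient.eq] at ht
  obtain ⟨u, hu⟩ := ht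
  have hu' : C.d0 u = t • A.θ - a := hu
  refine ⟨t, -u, ?_⟩
  rw [map_neg, hu']; abel

theorem Z10_eq_bot (A : C.Gaud) (h : Module.finrank ℂ C.H1 = 1) : C.Z10 = ⊥ := by
  rw [Submodule.eq_bot_iff]
  intro w hw
  obtain ⟨h1, h2⟩ := C.mem_Z10.1 hw
  exact C.hol1_eq_zero (b1le_of_finrank A h) h1 h2

/-- in the absence of holomorphic one-forms: description of the `∂̄`-closed `(0,1)`-forms -/
theorem dbar_closed' (A : C.Gaud) (h0 : C.Z10 = ⊥) {a : Ω1} (ha : C.is01 a)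
    (h2 : C.p02 (C.d1 a) = 0) : ∃ (t : ℂ) (u : Ω0), a = t • C.p01 A.θ + C.p01 (C.d0 u) := by
  obtain ⟨t, w, u, hw, hwc, h⟩ := A.dbar_closed ha h2
  have hw0 : w = 0 := by
    have h3 : C.c1 w ∈ C.Z10 := by
      rw [mem_Z10]
      refine ⟨?_, by rw [C.d1c, hwc, map_zero, map_zero]⟩
      unfold is10 is01 at *
      rw [← C.c1_p01, hw]
    rw [h0, Submodule.mem_bot] at h3
    have h4 := congrArg C.c1 h3
    rwa [C.c1c1, map_zero] at h4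
  exact ⟨t, u, by rw [h, hw0, add_zero]⟩

/-- `h^{0,1} = 1` -/
theorem finrank_H01 (A : C.Gaud) (h0 : C.Z10 = ⊥) : Module.finrank ℂ C.H01 = 1 := by
  set x : C.Z01 := ⟨C.p01 A.θ, C.mem_Z01.2 ⟨C.p01_idem _, A.is11_dθ.p02_eq⟩⟩
  have hne : (Submodule.Quotient.mk x : C.H01) ≠ 0 := by
    intro h1
    rw [Submodule.Quotient.mk_eq_zero] at h1
    obtain ⟨u, hu⟩ := h1
    exact A.θ_not_exact u hu.symm
  rw [finrank_eq_one_iff_of_nonzero' _ hne]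
  intro y
  obtain ⟨⟨a, ha⟩, rfl⟩ := Submodule.Quotient.mk_surjective _ y
  obtain ⟨h1, h2⟩ := C.mem_Z01.1 ha
  obtain ⟨t, u, h3⟩ := dbar_closed' A h0 h1 h2
  refine ⟨t, ?_⟩
  rw [← Submodule.Quotient.mk_smul, Submodule.Quotient.eq]
  refine ⟨-u, ?_⟩
  change C.p01 (C.d0 (-u)) = t • C.p01 A.θ - a
  rw [h3, map_neg, map_neg]; abel

/-- closed `(1,1)`-forms -/
def W (C : Calc Ω0 Ω1 Ω2 Ω3) : Submodule ℂ Ω2 := C.Z2 ⊓ LinearMap.ker (C.p11 - LinearMap.id)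

theorem mem_W {b : Ω2} : b ∈ C.W ↔ C.d2 b = 0 ∧ C.is11 b := by
  unfold W Z2 is11
  rw [Submodule.mem_inf, LinearMap.mem_ker, LinearMap.mem_ker, LinearMap.sub_apply,
    LinearMap.id_apply, sub_eq_zero]

theorem W_le_Z2 : C.W ≤ C.Z2 := inf_le_left

theorem W_le_Z11 : C.W ≤ C.Z11 := by
  intro b hb
  obtain ⟨h1, h2⟩ := mem_W.1 hb
  rw [mem_Z11]
  exact ⟨h2, by rw [h1, map_zero]⟩

/-- key computation: `d (a^{0,1}) = - d (ζ^{1,0})` -/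
theorem d1_dbar_closed (A : C.Gaud) (h0 : C.Z10 = ⊥) {a : Ω1} (ha : C.is01 a)
    (h2 : C.p02 (C.d1 a) = 0) : ∃ ζ : Ω1, C.d1 a = - C.d1 (C.p10 ζ) := by
  obtain ⟨t, u, h⟩ := dbar_closed' A h0 ha h2
  refine ⟨t • A.θ + C.d0 u, ?_⟩
  rw [eq_neg_iff_add_eq_zero, ← map_add]
  have h3 : a = C.p01 (t • A.θ + C.d0 u) := by rw [map_add, map_smul]; exact h
  rw [h3, add_comm, C.p1_add, map_add, map_smul, A.closed, C.d1d0, smul_zero, add_zero]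

theorem exact_iff (A : C.Gaud) (h0 : C.Z10 = ⊥) (h20 : C.H20) {b : Ω2} (hb : b ∈ C.W) :
    b ∈ C.B2 ↔ b ∈ C.B11 := by
  obtain ⟨hc, h11⟩ := mem_W.1 hb
  constructor
  · rintro ⟨η, rfl⟩
    have h2 : C.p02 (C.d1 (C.p01 η)) = 0 := by
      have h3 := h11.p02_eq
      rw [← C.p1_add η, map_add, map_add, C.integ, zero_add] at h3
      exact h3
    obtain ⟨ζ, hζ⟩ := d1_dbar_closed A h0 (C.p01_idem η) h2
    refine ⟨η - ζ, ?_⟩
    have h4 : C.d1 η = C.d1 (C.p10 (η - ζ)) := by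
      conv_lhs => rw [← C.p1_add η]
      rw [map_add, hζ, map_sub, map_sub]; abel
    change C.p11 (C.d1 (C.p10 (η - ζ))) = C.d1 η
    rw [← h4, h11]
  · rintro ⟨ξ, hξ⟩
    have hξ' : C.p11 (C.d1 (C.p10 ξ)) = b := hξ
    have h3 := C.p2_add (C.d1 (C.p10 ξ))
    rw [C.integ, add_zero, hξ'] at h3
    have h4 : C.p20 (C.d1 (C.p10 ξ)) = 0 := by
      apply h20 _ (C.p20_idem _)
      have h5 := congrArg C.d2 h3
      rw [map_add, hc, add_zero, C.d2d1] at h5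
      exact h5
    rw [h4, zero_add] at h3
    exact ⟨C.p10 ξ, h3.symm⟩

theorem surj_Z2 (h02 : C.H02) (b : Ω2) (hb : b ∈ C.Z2) : ∃ b' ∈ C.W, b - b' ∈ C.B2 := by
  obtain ⟨a, h1, -⟩ := C.exists_11 h02 b
  refine ⟨b - C.d1 a, mem_W.2 ⟨?_, h1⟩, a, by abel⟩
  have hb' : C.d2 b = 0 := hb
  rw [map_sub, hb', C.d2d1, sub_zero]

theorem surj_Z11 (A : C.Gaud) (h0 : C.Z10 = ⊥) (h02 : C.H02) (hs : C.SD21) (b : Ω2)
    (hb : b ∈ C.Z11) : ∃ b' ∈ C.W, b - b' ∈ C.B11 := by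
  obtain ⟨h1, h2⟩ := C.mem_Z11.1 hb
  obtain ⟨η, hη, hη2⟩ := hs b h1 h2 (by
    intro a ha ha2
    obtain ⟨ζ, hζ⟩ := d1_dbar_closed A h0 ha ha2
    rw [← C.stokes, hζ, map_neg, LinearMap.neg_apply, C.stokes, C.I13_p10, h2, map_zero,
      neg_zero])
  obtain ⟨a, ha, ha2⟩ := h02 (C.c2 η) (by rw [← C.c2_p20, hη])
  have ha' : C.is10 (C.c1 a) := by
    unfold is10 is01 at *
    rw [← C.c1_p01, ha]
  have e1 : C.p20 (C.d1 (C.c1 a)) = η := by rw [C.d1c, ← C.c2_p02, ha2, C.c2c2]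
  have e2 := C.p2_add (C.d1 (C.c1 a))
  have e3 : C.p02 (C.d1 (C.c1 a)) = 0 := by rw [← ha', C.integ]
  rw [e1, e3, add_zero] at e2
  refine ⟨b + C.p11 (C.d1 (C.c1 a)), mem_W.2 ⟨?_, h1.add (C.p11_idem _)⟩, -(C.c1 a), ?_⟩
  · have e4 : b + C.p11 (C.d1 (C.c1 a)) = b - η + C.d1 (C.c1 a) := by
      have e5 : C.p11 (C.d1 (C.c1 a)) = C.d1 (C.c1 a) - η := by
        rw [eq_sub_iff_add_eq, add_comm]; exact e2
      rw [e5]; abel
    rw [e4, map_add, map_sub, hη2, C.d2d1, sub_self, zero_add]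
  · change C.p11 (C.d1 (C.p10 (-(C.c1 a)))) = _
    rw [map_neg, ha', map_neg, map_neg]; abel

/-- the class of a closed `(1,1)`-form in `H²_dR` -/
def toH2 (C : Calc Ω0 Ω1 Ω2 Ω3) : C.W →ₗ[ℂ] C.H2 :=
  (Submodule.mkQ _).comp (Submodule.inclusion W_le_Z2)
/-- the class of a closed `(1,1)`-form in `H^{1,1}` -/
def toH11 (C : Calc Ω0 Ω1 Ω2 Ω3) : C.W →ₗ[ℂ] C.H11 :=
  (Submodule.mkQ _).comp (Submodule.inclusion W_le_Z11)

theorem ker_eq (A : C.Gaud) (h0 : C.Z10 = ⊥) (h20 : C.H20) :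
    LinearMap.ker C.toH2 = LinearMap.ker C.toH11 := by
  ext ⟨b, hb⟩
  rw [LinearMap.mem_ker, LinearMap.mem_ker]
  unfold toH2 toH11
  rw [LinearMap.comp_apply, LinearMap.comp_apply, Submodule.mkQ_apply, Submodule.mkQ_apply,
    Submodule.Quotient.mk_eq_zero, Submodule.Quotient.mk_eq_zero]
  exact exact_iff A h0 h20 hb

theorem toH2_surj (h02 : C.H02) : Function.Surjective C.toH2 := by
  intro y
  obtain ⟨⟨b, hb⟩, rfl⟩ := Submodule.Quotient.mk_surjective _ y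
  obtain ⟨b', hb', h⟩ := surj_Z2 h02 b hb
  refine ⟨⟨b', hb'⟩, ?_⟩
  unfold toH2
  rw [LinearMap.comp_apply, Submodule.mkQ_apply, eq_comm, Submodule.Quotient.eq]
  exact h

theorem toH11_surj (A : C.Gaud) (h0 : C.Z10 = ⊥) (h02 : C.H02) (hs : C.SD21) :
    Function.Surjective C.toH11 := by
  intro y
  obtain ⟨⟨b, hb⟩, rfl⟩ := Submodule.Quotient.mk_surjective _ y
  obtain ⟨b', hb', h⟩ := surj_Z11 A h0 h02 hs b hb
  refine ⟨⟨b', hb'⟩, ?_⟩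
  unfold toH11
  rw [LinearMap.comp_apply, Submodule.mkQ_apply, eq_comm, Submodule.Quotient.eq]
  exact h

/-- `H²_dR(X;ℂ) ≃ H^{1,1}`; in particular `b_2 = h^{1,1}` -/
def H2equivH11 (A : C.Gaud) (h0 : C.Z10 = ⊥) (h20 : C.H20) (h02 : C.H02) (hs : C.SD21) :
    C.H2 ≃ₗ[ℂ] C.H11 :=
  ((C.toH2.quotKerEquivOfSurjective (toH2_surj h02)).symm.trans
    (Submodule.quotEquivOfEq _ _ (ker_eq A h0 h20))).trans
    (C.toH11.quotKerEquivOfSurjective (toH11_surj A h0 h02 hs))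

theorem b2_eq_h11 (A : C.Gaud) (h0 : C.Z10 = ⊥) (h20 : C.H20) (h02 : C.H02) (hs : C.SD21) :
    Module.finrank ℂ C.H2 = Module.finrank ℂ C.H11 :=
  LinearEquiv.finrank_eq (H2equivH11 A h0 h20 h02 hs)

end Calc

end

end Vale.Agent.P267.H469
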