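import Mathlib

/-! P267 / H469: abstract calculus of forms on a compact complex surface and the closed-surface
facts (H1)-(H4) of package CLASS7-HODGE. Everything is deduced from Stokes, positivity on
`(2,0)`-forms, negativity on primitive `(1,1)`-forms and the scalar (Gauduchon) input. -/

namespace Vale.Agent.P267.H469

noncomputable section

open scoped ComplexConjugate

/-- The calculus of (smooth, complex valued) forms on a compact connected complex surface.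
`Ω k` = `k`-forms, `tr` = trace of the `(1,1)`-part with respect to a fixed Hermitian metric,
`I22 a b = ∫ a ∧ b`, `I13 a b = ∫ a ∧ b`. -/
structure Calc (Ω0 Ω1 Ω2 Ω3 : Type*) [AddCommGroup Ω0] [Module ℂ Ω0] [AddCommGroup Ω1]
    [Module ℂ Ω1] [AddCommGroup Ω2] [Module ℂ Ω2] [AddCommGroup Ω3] [Module ℂ Ω3] where
  /-- exterior derivative of functions -/
  d0 : Ω0 →ₗ[ℂ] Ω1
  /-- exterior derivative of one-forms -/
  d1 : Ω1 →ₗ[ℂ] Ω2
  /-- exterior derivative of two-forms -/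
  d2 : Ω2 →ₗ[ℂ] Ω3
  d1d0 : ∀ u, d1 (d0 u) = 0
  d2d1 : ∀ a, d2 (d1 a) = 0
  /-- the constant function `1` -/
  one : Ω0
  d0one : d0 one = 0
  /-- conjugation -/
  c0 : Ω0 →ₛₗ[starRingEnd ℂ] Ω0
  /-- conjugation -/
  c1 : Ω1 →ₛₗ[starRingEnd ℂ] Ω1
  /-- conjugation -/
  c2 : Ω2 →ₛₗ[starRingEnd ℂ] Ω2
  c0c0 : ∀ u, c0 (c0 u) = u
  c1c1 : ∀ a, c1 (c1 a) = a
  c2c2 : ∀ b, c2 (c2 b) = b
  c0one : c0 one = one
  d0c : ∀ u, d0 (c0 u) = c1 (d0 u)
  d1c : ∀ a, d1 (c1 a) = c2 (d1 a)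
  /-- the `(1,0)`-part -/
  p10 : Ω1 →ₗ[ℂ] Ω1
  /-- the `(0,1)`-part -/
  p01 : Ω1 →ₗ[ℂ] Ω1
  p1_add : ∀ a, p10 a + p01 a = a
  p10_p01 : ∀ a, p10 (p01 a) = 0
  p01_p10 : ∀ a, p01 (p10 a) = 0
  c1_p10 : ∀ a, c1 (p10 a) = p01 (c1 a)
  /-- the `(2,0)`-part -/
  p20 : Ω2 →ₗ[ℂ] Ω2
  /-- the `(1,1)`-part -/
  p11 : Ω2 →ₗ[ℂ] Ω2
  /-- the `(0,2)`-part -/
  p02 : Ω2 →ₗ[ℂ] Ω2
  p2_add : ∀ b, p20 b + p11 b + p02 b = b
  p20_p11 : ∀ b, p20 (p11 b) = 0
  p20_p02 : ∀ b, p20 (p02 b) = 0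
  p11_p20 : ∀ b, p11 (p20 b) = 0
  p11_p02 : ∀ b, p11 (p02 b) = 0
  p02_p20 : ∀ b, p02 (p20 b) = 0
  p02_p11 : ∀ b, p02 (p11 b) = 0
  c2_p20 : ∀ b, c2 (p20 b) = p02 (c2 b)
  c2_p11 : ∀ b, c2 (p11 b) = p11 (c2 b)
  /-- integrability of the complex structure -/
  integ : ∀ a, p02 (d1 (p10 a)) = 0
  /-- `∫ a ∧ b` for two-forms -/
  I22 : Ω2 →ₗ[ℂ] Ω2 →ₗ[ℂ] ℂ
  /-- `∫ a ∧ b` for a one-form and a three-form -/
  I13 : Ω1 →ₗ[ℂ] Ω3 →ₗ[ℂ] ℂ
  I22_symm : ∀ a b, I22 a b = I22 b a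
  I22_conj : ∀ a b, I22 (c2 a) (c2 b) = conj (I22 a b)
  I22_p20 : ∀ a b, I22 (p20 a) b = I22 (p20 a) (p02 b)
  I22_p11 : ∀ a b, I22 (p11 a) b = I22 (p11 a) (p11 b)
  stokes : ∀ a b, I22 (d1 a) b = I13 a (d2 b)
  /-- positivity on `(2,0)`-forms -/
  pos20 : ∀ b, p20 b = b → (I22 b (c2 b)).re ≤ 0 → b = 0
  /-- trace of the `(1,1)`-part -/
  tr : Ω2 →ₗ[ℂ] Ω0
  tr_p11 : ∀ b, tr (p11 b) = tr b
  tr_conj : ∀ b, tr (c2 b) = - c0 (tr b)
  /-- `∫ b ∧ conj b = - |b|²` on primitive `(1,1)`-forms -/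
  neg11 : ∀ b, p11 b = b → tr b = 0 → (I22 b (c2 b)).re ≤ 0
  neg11' : ∀ b, p11 b = b → tr b = 0 → 0 ≤ (I22 b (c2 b)).re → b = 0
  /-- functions with `∂∂̄ u = 0` are constant -/
  ddc_const : ∀ u, d1 (p01 (d0 u)) = 0 → ∃ c : ℂ, u = c • one
  /-- `1` is not zero -/
  one_ne : one ≠ 0
  /-- the `(2,1)`-part of a three-form -/
  q21 : Ω3 →ₗ[ℂ] Ω3
  /-- the `(1,2)`-part of a three-form -/
  q12 : Ω3 →ₗ[ℂ] Ω3
  q3_add : ∀ b, q21 b + q12 b = b
  q12_d2_p20 : ∀ b, q12 (d2 (p20 b)) = 0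
  q21_d2_p02 : ∀ b, q21 (d2 (p02 b)) = 0
  I13_p10 : ∀ a b, I13 (p10 a) b = I13 (p10 a) (q12 b)

variable {Ω0 Ω1 Ω2 Ω3 : Type*} [AddCommGroup Ω0] [Module ℂ Ω0] [AddCommGroup Ω1]
    [Module ℂ Ω1] [AddCommGroup Ω2] [Module ℂ Ω2] [AddCommGroup Ω3] [Module ℂ Ω3]

namespace Calc

variable (C : Calc Ω0 Ω1 Ω2 Ω3)

theorem p10_idem (a : Ω1) : C.p10 (C.p10 a) = C.p10 a := by
  have h := C.p1_add (C.p10 a)
  rw [C.p01_p10, add_zero] at h
  exact h

theorem p01_idem (a : Ω1) : C.p01 (C.p01 a) = C.p01 a := by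
  have h := C.p1_add (C.p01 a)
  rw [C.p10_p01, zero_add] at h
  exact h

theorem c1_p01 (a : Ω1) : C.c1 (C.p01 a) = C.p10 (C.c1 a) := by
  have h := C.c1_p10 (C.c1 a)
  rw [C.c1c1] at h
  rw [← h, C.c1c1]

theorem p20_idem (b : Ω2) : C.p20 (C.p20 b) = C.p20 b := by
  have h := C.p2_add (C.p20 b)
  rw [C.p11_p20, C.p02_p20, add_zero, add_zero] at h
  exact h

theorem p11_idem (b : Ω2) : C.p11 (C.p11 b) = C.p11 b := by
  have h := C.p2_add (C.p11 b)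
  rw [C.p20_p11, C.p02_p11, add_zero, zero_add] at h
  exact h

theorem p02_idem (b : Ω2) : C.p02 (C.p02 b) = C.p02 b := by
  have h := C.p2_add (C.p02 b)
  rw [C.p20_p02, C.p11_p02, zero_add, zero_add] at h
  exact h

theorem c2_p02 (b : Ω2) : C.c2 (C.p02 b) = C.p20 (C.c2 b) := by
  have h := C.c2_p20 (C.c2 b)
  rw [C.c2c2] at h
  rw [← h, C.c2c2]

/-- integrability, conjugate form -/
theorem integ' (a : Ω1) : C.p20 (C.d1 (C.p01 a)) = 0 := by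
  have h := C.integ (C.c1 a)
  rw [← C.c1_p01, C.d1c, ← C.c2_p20] at h
  have h2 := congrArg C.c2 h
  rwa [C.c2c2, map_zero] at h2

theorem tr_p20 (b : Ω2) : C.tr (C.p20 b) = 0 := by
  rw [← C.tr_p11, C.p11_p20, map_zero]

theorem tr_p02 (b : Ω2) : C.tr (C.p02 b) = 0 := by
  rw [← C.tr_p11, C.p11_p02, map_zero]

/-- `(1,0)`-forms -/
def is10 (a : Ω1) : Prop := C.p10 a = a
/-- `(0,1)`-forms -/
def is01 (a : Ω1) : Prop := C.p01 a = a
/-- `(1,1)`-forms -/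
def is11 (b : Ω2) : Prop := C.p11 b = b

variable {C}

theorem is10.p01_eq {a : Ω1} (h : C.is10 a) : C.p01 a = 0 := by
  rw [← h, C.p01_p10]

theorem is01.p10_eq {a : Ω1} (h : C.is01 a) : C.p10 a = 0 := by
  rw [← h, C.p10_p01]

theorem is11.p20_eq {b : Ω2} (h : C.is11 b) : C.p20 b = 0 := by
  rw [← h, C.p20_p11]

theorem is11.p02_eq {b : Ω2} (h : C.is11 b) : C.p02 b = 0 := by
  rw [← h, C.p02_p11]

theorem is11_iff {b : Ω2} : C.is11 b ↔ C.p20 b = 0 ∧ C.p02 b = 0 := by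
  constructor
  · intro h; exact ⟨h.p20_eq, h.p02_eq⟩
  · rintro ⟨h1, h2⟩
    have h := C.p2_add b
    rw [h1, h2, zero_add, add_zero] at h
    exact h

theorem is11.sub {a b : Ω2} (ha : C.is11 a) (hb : C.is11 b) : C.is11 (a - b) := by
  unfold is11 at *
  rw [map_sub, ha, hb]

theorem is11.add {a b : Ω2} (ha : C.is11 a) (hb : C.is11 b) : C.is11 (a + b) := by
  unfold is11 at *
  rw [map_add, ha, hb]

theorem is11.smul {a : Ω2} (c : ℂ) (ha : C.is11 a) : C.is11 (c • a) := by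
  unfold is11 at *
  rw [map_smul, ha]

variable (C)

/-- `∂∂̄ u` is of type `(1,1)` -/
theorem is11_ddc (u : Ω0) : C.is11 (C.d1 (C.p01 (C.d0 u))) := by
  rw [is11_iff]
  refine ⟨C.integ' _, ?_⟩
  have h : C.d1 (C.p10 (C.d0 u)) + C.d1 (C.p01 (C.d0 u)) = 0 := by
    rw [← map_add, C.p1_add, C.d1d0]
  have h2 : C.d1 (C.p01 (C.d0 u)) = - C.d1 (C.p10 (C.d0 u)) := by
    rw [eq_neg_iff_add_eq_zero, add_comm]; exact h
  rw [h2, map_neg, C.integ, neg_zero]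

/-- exact forms are orthogonal to closed forms -/
theorem I22_exact (a : Ω1) {b : Ω2} (hb : C.d2 b = 0) : C.I22 (C.d1 a) b = 0 := by
  rw [C.stokes, hb, map_zero]

/-- the Hermitian form on closed forms does not change if an exact form is subtracted -/
theorem I22_herm (a : Ω1) {F : Ω2} (hc : C.d2 F = 0) :
    C.I22 (F - C.d1 a) (C.c2 (F - C.d1 a)) = C.I22 F (C.c2 F) := by
  have hc' : C.d2 (F - C.d1 a) = 0 := by rw [map_sub, hc, C.d2d1, sub_zero]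
  have hcc : ∀ b, C.I22 (C.d1 b) (C.c2 F) = 0 := by
    intro b
    have h := C.I22_conj (C.c2 (C.d1 b)) F
    rw [C.c2c2] at h
    rw [h, ← C.d1c, C.I22_exact _ hc, map_zero]
  have e1 : C.I22 (F - C.d1 a) (C.c2 (C.d1 a)) = 0 := by
    rw [C.I22_symm, ← C.d1c, C.I22_exact _ hc']
  have e2 : C.I22 (F - C.d1 a) (C.c2 F) = C.I22 F (C.c2 F) := by
    rw [map_sub, LinearMap.sub_apply, hcc, sub_zero]
  rw [map_sub C.c2, map_sub, e1, e2, sub_zero]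

/-- conjugate of a closed form coming from d1 -/
theorem d2_c2_d1 (a : Ω1) : C.d2 (C.c2 (C.d1 a)) = 0 := by
  rw [← C.d1c, C.d2d1]

/-- (H1): holomorphic one-forms are closed -/
theorem hol1_closed {w : Ω1} (hw : C.is10 w) (h : C.p11 (C.d1 w) = 0) : C.d1 w = 0 := by
  have h02 : C.p02 (C.d1 w) = 0 := by rw [← hw, C.integ]
  have h20 : C.p20 (C.d1 w) = C.d1 w := by
    have h1 := C.p2_add (C.d1 w)
    rw [h, h02, add_zero, add_zero] at h1
    exact h1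
  apply C.pos20 _ h20
  rw [C.I22_exact w (C.d2_c2_d1 w)]
  simp

/-- a `(0,1)`-form with `∂̄ a = 0` and primitive `∂ a` is closed -/
theorem d1_eq_zero_of_prim {a : Ω1} (ha : C.is01 a) (h2 : C.p02 (C.d1 a) = 0)
    (ht : C.tr (C.d1 a) = 0) : C.d1 a = 0 := by
  have h20 : C.p20 (C.d1 a) = 0 := by rw [← ha, C.integ']
  have h11 : C.is11 (C.d1 a) := is11_iff.2 ⟨h20, h2⟩
  apply C.neg11' _ h11 ht
  rw [C.I22_exact a (C.d2_c2_d1 a)]
  simp

/-- the scalar input: `G` = the Gauduchon functional, `θ` = a closed real one-form (`df` on the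
cyclic cover) with `tr (∂ θ^{0,1}) = const ≠ 0`. -/
structure Gaud where
  /-- the functional -/
  G : Ω0 →ₗ[ℂ] ℂ
  G_one : G C.one ≠ 0
  G_ddc : ∀ u, G (C.tr (C.d1 (C.p01 (C.d0 u)))) = 0
  G_surj : ∀ g, G g = 0 → ∃ u, C.tr (C.d1 (C.p01 (C.d0 u))) = g
  /-- the closed one-form -/
  θ : Ω1
  closed : C.d1 θ = 0
  real : C.c1 θ = θ
  /-- the trace -/
  c : ℂ
  c_ne : c ≠ 0
  tr_eq : C.tr (C.d1 (C.p01 θ)) = c • C.one

variable {C}

namespace Gaud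

variable (A : C.Gaud)

theorem is11_dθ : C.is11 (C.d1 (C.p01 A.θ)) := by
  rw [is11_iff]
  refine ⟨C.integ' _, ?_⟩
  have h : C.d1 (C.p10 A.θ) + C.d1 (C.p01 A.θ) = 0 := by
    rw [← map_add, C.p1_add, A.closed]
  have h2 : C.d1 (C.p01 A.θ) = - C.d1 (C.p10 A.θ) := by
    rw [eq_neg_iff_add_eq_zero, add_comm]; exact h
  rw [h2, map_neg, C.integ, neg_zero]

/-- `θ^{0,1}` is not `∂̄`-exact -/
theorem θ_not_exact (u : Ω0) : C.p01 A.θ ≠ C.p01 (C.d0 u) := by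
  intro h
  have h1 := A.G_ddc u
  rw [← h, A.tr_eq, map_smul, smul_eq_mul, mul_eq_zero] at h1
  rcases h1 with h1 | h1
  · exact A.c_ne h1
  · exact A.G_one h1

/-- (H2b): the kernel of the Gauduchon functional on `H^{0,1}` consists of the classes of
closed (antiholomorphic) forms. -/
theorem kerG {a : Ω1} (ha : C.is01 a) (h2 : C.p02 (C.d1 a) = 0) (hG : A.G (C.tr (C.d1 a)) = 0) :
    ∃ (w : Ω1) (u : Ω0), C.is01 w ∧ C.d1 w = 0 ∧ a = w + C.p01 (C.d0 u) := by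
  obtain ⟨u, hu⟩ := A.G_surj _ hG
  refine ⟨a - C.p01 (C.d0 u), u, ?_, ?_, by abel⟩
  · unfold is01 at *
    rw [map_sub, ha, C.p01_idem]
  · apply C.d1_eq_zero_of_prim
    · unfold is01 at *
      rw [map_sub, ha, C.p01_idem]
    · rw [map_sub, map_sub, h2, (C.is11_ddc u).p02_eq, sub_zero]
    · rw [map_sub, map_sub, hu, sub_self]

/-- `h^{0,1} ≤ 1 + h^{1,0}` -/
theorem dbar_closed {a : Ω1} (ha : C.is01 a) (h2 : C.p02 (C.d1 a) = 0) :
    ∃ (t : ℂ) (w : Ω1) (u : Ω0), C.is01 w ∧ C.d1 w = 0 ∧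
      a = t • C.p01 A.θ + w + C.p01 (C.d0 u) := by
  set t : ℂ := A.G (C.tr (C.d1 a)) / (A.c * A.G C.one) with ht
  have hθ : C.is01 (C.p01 A.θ) := C.p01_idem _
  obtain ⟨w, u, hw, hw2, h⟩ := A.kerG (a := a - t • C.p01 A.θ) (by
      unfold is01 at *
      rw [map_sub, map_smul, ha, hθ]) (by
      rw [map_sub, map_sub, map_smul, map_smul, h2, A.is11_dθ.p02_eq, smul_zero, sub_zero]) (by
      rw [map_sub, map_sub, map_smul, map_smul, A.tr_eq, map_sub, map_smul, map_smul, smul_eq_mul,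
        smul_eq_mul, ht, div_mul_cancel₀ _ (mul_ne_zero A.c_ne A.G_one), sub_self])
  refine ⟨t, w, u, hw, hw2, ?_⟩
  rw [add_assoc, ← h]; abel

include A in
/-- negativity: every closed `(1,1)`-form is primitive up to an exact form -/
theorem exists_prim {F : Ω2} (hF : C.is11 F) : ∃ a : Ω1, C.is11 (F - C.d1 a) ∧
    C.tr (F - C.d1 a) = 0 := by
  set t : ℂ := A.G (C.tr F) / (A.c * A.G C.one) with ht
  obtain ⟨u, hu⟩ := A.G_surj (C.tr (F - t • C.d1 (C.p01 A.θ))) (by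
    rw [map_sub, map_smul, A.tr_eq, map_sub, map_smul, map_smul, smul_eq_mul, smul_eq_mul, ht,
      div_mul_cancel₀ _ (mul_ne_zero A.c_ne A.G_one), sub_self])
  refine ⟨t • C.p01 A.θ + C.p01 (C.d0 u), ?_, ?_⟩
  · rw [map_add, map_smul]
    exact hF.sub ((A.is11_dθ.smul t).add (C.is11_ddc u))
  · rw [map_add, map_smul, ← sub_sub, map_sub, hu, sub_self]

include A in
/-- (H4) for `(1,1)`-forms -/
theorem negdef11 {F : Ω2} (hF : C.is11 F) (hc : C.d2 F = 0) :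
    (C.I22 F (C.c2 F)).re ≤ 0 ∧ (0 ≤ (C.I22 F (C.c2 F)).re → ∃ a, F = C.d1 a) := by
  obtain ⟨a, h1, h2⟩ := A.exists_prim hF
  have key := C.I22_herm a hc
  constructor
  · rw [← key]; exact C.neg11 _ h1 h2
  · intro h
    rw [← key] at h
    exact ⟨a, sub_eq_zero.1 (C.neg11' _ h1 h2 h)⟩

end Gaud

variable (C)

/-- `b_1 ≤ 1` -/
def B1le (θ : Ω1) : Prop := ∀ a, C.d1 a = 0 → ∃ (t : ℂ) (u : Ω0), a = t • θ + C.d0 u

/-- a closed `(0,1)`-form which is exact vanishes; a closed `(1,0)`-form which is exact vanishes -/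
theorem hol_exact {w : Ω1} (hw : C.is10 w) {u : Ω0} (h : w = C.d0 u) : w = 0 := by
  have h1 : C.p01 (C.d0 u) = 0 := by rw [← h]; exact hw.p01_eq
  obtain ⟨c, hc⟩ := C.ddc_const u (by rw [h1, map_zero])
  rw [h, hc, map_smul, C.d0one, smul_zero]

theorem antihol_exact {w : Ω1} (hw : C.is01 w) (hc : C.d1 w = 0) {u : Ω0} (h : w = C.d0 u) :
    w = 0 := by
  obtain ⟨c, hc⟩ := C.ddc_const u (by
    have h2 : C.p01 (C.d0 u) = w := by rw [← h]; exact hw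
    rw [h2, hc])
  rw [h, hc, map_smul, C.d0one, smul_zero]

/-- (H2a): `b_1 = 1` implies that there is no holomorphic one-form -/
theorem hol1_eq_zero {θ : Ω1} (hb : C.B1le θ) {w : Ω1} (hw : C.is10 w)
    (h11 : C.p11 (C.d1 w) = 0) : w = 0 := by
  have hwc : C.d1 w = 0 := C.hol1_closed hw h11
  have hw' : C.is01 (C.c1 w) := by
    unfold is01 is10 at *
    rw [← C.c1_p10, hw]
  have hwc' : C.d1 (C.c1 w) = 0 := by rw [C.d1c, hwc, map_zero]
  obtain ⟨t, u, h1⟩ := hb w hwc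
  obtain ⟨s, v, h2⟩ := hb (C.c1 w) hwc'
  by_contra hne
  have hs : s ≠ 0 := by
    rintro rfl
    rw [zero_smul, zero_add] at h2
    have h3 := C.antihol_exact hw' hwc' h2
    apply hne
    have h4 := congrArg C.c1 h3
    rwa [C.c1c1, map_zero] at h4
  have h3 : C.p01 (C.d0 (s • u - t • v)) = - t • C.c1 w := by
    have h4 : C.d0 (s • u - t • v) = s • w - t • C.c1 w := by
      rw [h2, h1]
      simp only [map_sub, map_smul, smul_add, smul_smul]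
      rw [mul_comm t s]; abel
    rw [h4, map_sub, map_smul, map_smul, hw.p01_eq, smul_zero, zero_sub, hw', neg_smul]
  obtain ⟨c, hc⟩ := C.ddc_const (s • u - t • v) (by rw [h3, map_smul, hwc', smul_zero])
  have h5 : s • w = t • C.c1 w := by
    have h4 : C.d0 (s • u - t • v) = s • w - t • C.c1 w := by
      rw [h2, h1]
      simp only [map_sub, map_smul, smul_add, smul_smul]
      rw [mul_comm t s]; abel
    rw [hc, map_smul, C.d0one, smul_zero] at h4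
    exact (sub_eq_zero.1 h4.symm)
  have h6 := congrArg C.p10 h5
  rw [map_smul, map_smul, hw, hw'.p10_eq, smul_zero] at h6
  exact hne ((smul_eq_zero.1 h6).resolve_left hs)

/-- vanishing of `H^{0,2}` -/
def H02 : Prop := ∀ b, C.p02 b = b → ∃ a, C.is01 a ∧ C.p02 (C.d1 a) = b

/-- (H3): every two-form is of type `(1,1)` up to an exact form; real version included -/
theorem exists_11 (h : C.H02) (F : Ω2) : ∃ a, C.is11 (F - C.d1 a) ∧
    (C.c2 F = F → C.c1 a = a) := by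
  obtain ⟨a, ha, h1⟩ := h (C.p02 F) (C.p02_idem F)
  obtain ⟨b, hb, h2⟩ := h (C.p02 (C.c2 F)) (C.p02_idem _)
  have hb' : C.is10 (C.c1 b) := by
    unfold is10 is01 at *
    rw [← C.c1_p01, hb]
  by_cases hr : C.c2 F = F
  · refine ⟨a + C.c1 a, ?_, fun _ => by rw [map_add, C.c1c1, add_comm]⟩
    have ha' : C.is10 (C.c1 a) := by
      unfold is10 is01 at *
      rw [← C.c1_p01, ha]
    have e02 : C.p02 (F - C.d1 (a + C.c1 a)) = 0 := by
      rw [map_sub, map_add, map_add, h1, ← ha', C.integ, add_zero, sub_self]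
    rw [is11_iff]
    refine ⟨?_, e02⟩
    have e : C.c2 (F - C.d1 (a + C.c1 a)) = F - C.d1 (a + C.c1 a) := by
      rw [map_sub, hr, ← C.d1c, map_add, C.c1c1, add_comm]
    rw [← e, ← C.c2_p02, e02, map_zero]
  · refine ⟨a + C.c1 b, ?_, fun h' => absurd h' hr⟩
    rw [is11_iff]
    constructor
    · have e1 : C.p20 (C.d1 a) = 0 := by rw [← ha, C.integ']
      have e2 : C.p20 (C.d1 (C.c1 b)) = C.p20 F := by
        rw [C.d1c, ← C.c2_p02, h2, C.c2_p02, C.c2c2]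
      rw [map_sub, map_add, map_add, e1, e2, zero_add, sub_self]
    · rw [map_sub, map_add, map_add, h1, ← hb', C.integ, add_zero, sub_self]

/-- (H4): the intersection form is negative definite on `H²_dR` -/
theorem negdef (A : C.Gaud) (h : C.H02) {F : Ω2} (hc : C.d2 F = 0) :
    (C.I22 F (C.c2 F)).re ≤ 0 ∧ (0 ≤ (C.I22 F (C.c2 F)).re → ∃ a, F = C.d1 a) := by
  obtain ⟨a, h1, -⟩ := C.exists_11 h F
  have hc' : C.d2 (F - C.d1 a) = 0 := by rw [map_sub, hc, C.d2d1, sub_zero]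
  have key := C.I22_herm a hc
  obtain ⟨h3, h4⟩ := A.negdef11 h1 hc'
  rw [key] at h3 h4
  refine ⟨h3, fun h5 => ?_⟩
  obtain ⟨b, hb⟩ := h4 h5
  refine ⟨a + b, ?_⟩
  rw [map_add, ← hb]; abel

/-! ### `b_2 = h^{1,1}` -/

/-- closed two-forms -/
def Z2 : Submodule ℂ Ω2 := LinearMap.ker C.d2
/-- exact two-forms -/
def B2 : Submodule ℂ Ω2 := LinearMap.range C.d1
/-- `∂̄`-closed `(1,1)`-forms -/
def Z11 : Submodule ℂ Ω2 :=
  LinearMap.ker (C.p11 - LinearMap.id) ⊓ LinearMap.ker (C.q12.comp C.d2)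
/-- `∂̄`-exact `(1,1)`-forms -/
def B11 : Submodule ℂ Ω2 := LinearMap.range (C.p11.comp (C.d1.comp C.p10))

theorem mem_Z11 {b : Ω2} : b ∈ C.Z11 ↔ C.is11 b ∧ C.q12 (C.d2 b) = 0 := by
  unfold Z11 is11
  rw [Submodule.mem_inf, LinearMap.mem_ker, LinearMap.mem_ker, LinearMap.sub_apply,
    LinearMap.id_apply, sub_eq_zero]
  rfl

/-- the part of Serre duality which is used -/
def SD21 : Prop := ∀ b, C.is11 b → C.q12 (C.d2 b) = 0 →
  (∀ a, C.is01 a → C.p02 (C.d1 a) = 0 → C.I13 a (C.d2 b) = 0) → ∃ η, C.p20 η = η ∧ C.d2 η = C.d2 b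

/-- vanishing of holomorphic two-forms -/
def H20 : Prop := ∀ b, C.p20 b = b → C.d2 b = 0 → b = 0

end Calc

end

end Vale.Agent.P267.H469
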