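import Vale.Agent.P267.H469.Inst

/-! P267 / H469: pointwise negativity of primitive `(1,1)`-forms on a surface. -/

set_option linter.unusedSectionVars false

open scoped Manifold ContDiff ComplexConjugate ComplexOrder Matrix

namespace Vale.Agent.P267.H469

open Vale.Agent.P267.FL

theorem nsq_add (x y : ℂ) : Complex.normSq (x + y) + Complex.normSq (x - y) =
    2 * (Complex.normSq x + Complex.normSq y) := by
  simp only [Complex.normSq_apply, Complex.add_re, Complex.add_im, Complex.sub_re, Complex.sub_im]
  ring

theorem nsq_add' (a d : ℝ) (p s : ℂ) : Complex.normSq (d * p + a * s) =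
    Complex.normSq (d * p - a * s) + 4 * (a * d) * (p * conj s).re := by
  simp only [Complex.normSq_apply, Complex.add_re, Complex.add_im, Complex.sub_re, Complex.sub_im,
    Complex.mul_re, Complex.mul_im, Complex.conj_re, Complex.conj_im, Complex.ofReal_re,
    Complex.ofReal_im]
  ring

/-- `g ∧ conj g ≤ 0` for a primitive `(1,1)`-form `g` -/
theorem neg_aux (a d : ℝ) (b : ℂ) (had : 0 < a * d - Complex.normSq b) (ha : 0 < a) (hd : 0 < d)
    (p q r s : ℂ) (ht : (d : ℂ) * p - b * r - conj b * q + a * s = 0) :
    2 * (p * conj s).re - Complex.normSq q - Complex.normSq r ≤ 0 ∧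
      (0 ≤ 2 * (p * conj s).re - Complex.normSq q - Complex.normSq r → p = 0 ∧ q = 0 ∧ r = 0 ∧
        s = 0) := by
  have e : (d : ℂ) * p + a * s = b * r + conj b * q := by linear_combination ht
  have h1 : Complex.normSq (d * p + a * s) ≤
      2 * Complex.normSq b * (Complex.normSq q + Complex.normSq r) := by
    rw [e]
    have h := nsq_add (b * r) (conj b * q)
    have h' := Complex.normSq_nonneg (b * r - conj b * q)
    rw [Complex.normSq_mul, Complex.normSq_mul, Complex.normSq_conj] at h
    nlinarith
  have h2 := nsq_add' a d p s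
  have h3 := Complex.normSq_nonneg (d * p - a * s)
  have hq := Complex.normSq_nonneg q
  have hr := Complex.normSq_nonneg r
  have hadp : 0 < a * d := mul_pos ha hd
  have key : (a * d) * (2 * (p * conj s).re - Complex.normSq q - Complex.normSq r) ≤
      -(a * d - Complex.normSq b) * (Complex.normSq q + Complex.normSq r) := by nlinarith
  have hneg : -(a * d - Complex.normSq b) * (Complex.normSq q + Complex.normSq r) ≤ 0 := by
    have := mul_nonneg had.le (add_nonneg hq hr)
    linarith
  refine ⟨?_, fun h => ?_⟩
  · by_contra hc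
    push Not at hc
    have := mul_pos hadp hc
    linarith
  · have h4 : 0 ≤ (a * d) * (2 * (p * conj s).re - Complex.normSq q - Complex.normSq r) :=
      mul_nonneg hadp.le h
    have h5 : (a * d - Complex.normSq b) * (Complex.normSq q + Complex.normSq r) ≤ 0 := by
      linarith
    have h6 : Complex.normSq q + Complex.normSq r = 0 := by
      rcases (add_nonneg hq hr).lt_or_eq with h7 | h7
      · have := mul_pos had h7
        linarith
      · exact h7.symm
    have hq0 : q = 0 := Complex.normSq_eq_zero.1 (by linarith)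
    have hr0 : r = 0 := Complex.normSq_eq_zero.1 (by linarith)
    subst hq0 hr0
    simp only [mul_zero, sub_zero] at ht
    have ha' : (a : ℂ) ≠ 0 := Complex.ofReal_ne_zero.2 ha.ne'
    have hs : s = ((-(d / a) : ℝ) : ℂ) * p := by
      push_cast
      field_simp
      linear_combination ht
    have h7 : (p * conj s).re = -(d / a) * Complex.normSq p := by
      rw [hs, map_mul, Complex.conj_ofReal]
      simp only [Complex.normSq_apply, Complex.mul_re, Complex.mul_im, Complex.conj_re,
        Complex.conj_im, Complex.ofReal_re, Complex.ofReal_im]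
      ring
    have h8 : Complex.normSq p = 0 := by
      rw [h7] at h
      simp only [map_zero, sub_zero] at h
      have h9 : 0 < d / a := div_pos hd ha
      have h10 := Complex.normSq_nonneg p
      nlinarith
    have hp0 : p = 0 := Complex.normSq_eq_zero.1 h8
    exact ⟨hp0, rfl, rfl, by rw [hs, hp0, mul_zero]⟩

variable {X : Type*}

/-- the `(1,1)`-part of a two-form only -/
def of11 (g : X → Matrix (Fin 2) (Fin 2) ℂ) : TwoF X := ⟨0, g, 0⟩

/-- pointwise negativity -/
theorem neg_pt {h g : Matrix (Fin 2) (Fin 2) ℂ} (hh : h.PosDef) (ht : (h⁻¹ * g).trace = 0) :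
    2 * (g 0 0 * conj (g 1 1)).re - Complex.normSq (g 0 1) - Complex.normSq (g 1 0) ≤ 0 ∧
      (0 ≤ 2 * (g 0 0 * conj (g 1 1)).re - Complex.normSq (g 0 1) - Complex.normSq (g 1 0) →
        g = 0) := by
  have hherm := hh.1
  have h00 : (h 0 0).im = 0 := by
    have := congrFun (congrFun hherm 0) 0
    rw [Matrix.conjTranspose_apply] at this
    exact Complex.conj_eq_iff_im.1 this
  have h11 : (h 1 1).im = 0 := by
    have := congrFun (congrFun hherm 1) 1
    rw [Matrix.conjTranspose_apply] at this
    exact Complex.conj_eq_iff_im.1 this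
  have h10 : h 1 0 = conj (h 0 1) := by
    have := congrFun (congrFun hherm 1) 0
    rw [Matrix.conjTranspose_apply] at this
    exact this.symm
  have e00 : h 0 0 = ((h 0 0).re : ℂ) := Complex.ext rfl (by simp [h00])
  have e11 : h 1 1 = ((h 1 1).re : ℂ) := Complex.ext rfl (by simp [h11])
  have hdiag : ∀ i, 0 < (h i i).re := fun i => (Complex.lt_def.1 (hh.diag_pos (i := i))).1
  have hdet : 0 < h.det := hh.det_pos
  have hdet' : 0 < (h 0 0).re * (h 1 1).re - Complex.normSq (h 0 1) := by
    have h1 := (Complex.lt_def.1 hdet).1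
    rw [Matrix.det_fin_two, h10, Complex.sub_re, Complex.mul_re, h00, h11, Complex.mul_conj] at h1
    simpa using h1
  have hne : h.det ≠ 0 := hdet.ne'
  have ht' : ((h 1 1).re : ℂ) * g 0 0 - h 0 1 * g 1 0 - conj (h 0 1) * g 0 1 +
      ((h 0 0).re : ℂ) * g 1 1 = 0 := by
    rw [Matrix.inv_def, Ring.inverse_eq_inv', Matrix.smul_mul, Matrix.trace_smul,
      smul_eq_mul, mul_eq_zero] at ht
    have h1 := ht.resolve_left (inv_ne_zero hne)
    rw [Matrix.adjugate_fin_two, Matrix.trace_fin_two, Matrix.mul_apply, Matrix.mul_apply,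
      Fin.sum_univ_two, Fin.sum_univ_two] at h1
    simp only [Matrix.of_apply, Matrix.cons_val', Matrix.cons_val_zero, Matrix.cons_val_one,
      Matrix.cons_val_fin_one, Matrix.empty_val'] at h1
    rw [← e00, ← e11, ← h10]
    linear_combination h1
  obtain ⟨h1, h2⟩ := neg_aux _ _ (h 0 1) hdet' (hdiag 0) (hdiag 1) _ _ _ _ ht'
  refine ⟨h1, fun h3 => ?_⟩
  obtain ⟨k1, k2, k3, k4⟩ := h2 h3
  ext i j
  fin_cases i <;> fin_cases j <;> simp [k1, k2, k3, k4]

end Vale.Agent.P267.H469
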