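import Vale.Agent.P267.H399.Calc
import Vale.Agent.P267.H469.Neg

/-! P267 / H469: the trace of a `(1,1)`-form with respect to a Hermitian metric. -/

set_option linter.unusedSectionVars false

open scoped Manifold ContDiff ComplexConjugate Topology ComplexOrder Matrix
open Set

noncomputable section

namespace Vale.Agent.P267.H469

open Vale.Agent.P267.FL

/-- formula for the trace -/
theorem trinv (h g : Matrix (Fin 2) (Fin 2) ℂ) : (h⁻¹ * g).trace =
    (h.det)⁻¹ * (h 1 1 * g 0 0 - h 0 1 * g 1 0 - h 1 0 * g 0 1 + h 0 0 * g 1 1) := by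
  rw [Matrix.inv_def, Ring.inverse_eq_inv', Matrix.smul_mul, Matrix.trace_smul,
    smul_eq_mul, Matrix.adjugate_fin_two, Matrix.trace_fin_two, Matrix.mul_apply, Matrix.mul_apply,
    Fin.sum_univ_two, Fin.sum_univ_two]
  simp only [Matrix.of_apply, Matrix.cons_val', Matrix.cons_val_zero, Matrix.cons_val_one,
    Matrix.cons_val_fin_one, Matrix.empty_val']
  ring

variable {X : Type*} [TopologicalSpace X] [ChartedSpace C2 X]

/-- components of a `(1,1)`-form in a chart as a matrix product -/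
theorem loc11_mat (e : Ch X) (g : X → Matrix (Fin 2) (Fin 2) ℂ) (z : C2) :
    loc11 e g z = (jac e (e.symm z))ᵀ * g (e.symm z) * (jac e (e.symm z)).map conj := by
  ext i j
  simp only [loc11, Matrix.of_apply, Matrix.mul_apply, Matrix.transpose_apply, Matrix.map_apply,
    Fin.sum_univ_two, smul_eq_mul]
  ring

theorem trh_add (h f g : X → Matrix (Fin 2) (Fin 2) ℂ) : trh h (f + g) = trh h f + trh h g := by
  funext x
  simp only [trh, Pi.add_apply, mul_add, Matrix.trace_add]

theorem trh_smul (h g : X → Matrix (Fin 2) (Fin 2) ℂ) (c : ℂ) : trh h (c • g) = c • trh h g := by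
  funext x
  simp only [trh, Pi.smul_apply, Matrix.mul_smul, Matrix.trace_smul]

theorem herm_entries {h : Matrix (Fin 2) (Fin 2) ℂ} (hh : h.IsHermitian) (i j : Fin 2) :
    conj (h i j) = h j i := by
  have := congrFun (congrFun hh j) i
  rw [Matrix.conjTranspose_apply] at this
  exact this

theorem trh_cj {h : X → Matrix (Fin 2) (Fin 2) ℂ} (hh : ∀ x, (h x).IsHermitian)
    (g : X → Matrix (Fin 2) (Fin 2) ℂ) : trh h (cj11 g) = - cj0 (trh h g) := by
  funext x
  have e := herm_entries (hh x)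
  simp only [trh, trinv, Pi.neg_apply, cj0, cj11, Matrix.of_apply, map_mul, map_add, map_sub,
    map_inv₀, e, Matrix.det_fin_two]
  ring

variable [IsManifold 𝓘(ℂ, C2) ω X]

theorem trh_chart (h g : X → Matrix (Fin 2) (Fin 2) ℂ) {e : Ch X} (he : e ∈ atlas C2 X) {z : C2}
    (hz : z ∈ e.target) : trh h g (e.symm z) = ((loc11 e h z)⁻¹ * loc11 e g z).trace := by
  have hdet : (jac e (e.symm z)).det ≠ 0 := jac_det_ne_zero he (e.map_target hz)
  have hdetT : IsUnit (jac e (e.symm z))ᵀ.det := by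
    rw [Matrix.det_transpose]; exact hdet.isUnit
  have hdetc : IsUnit ((jac e (e.symm z)).map conj).det := by
    have : ((jac e (e.symm z)).map conj).det = conj (jac e (e.symm z)).det := by
      simp only [Matrix.det_fin_two, Matrix.map_apply, map_sub, map_mul]
    rw [this]
    exact ((map_ne_zero _).2 hdet).isUnit
  rw [loc11_mat, loc11_mat, Matrix.mul_inv_rev, Matrix.mul_inv_rev, trh]
  set J := (jac e (e.symm z))ᵀ
  set K := (jac e (e.symm z)).map conj
  have h1 : K⁻¹ * ((h (e.symm z))⁻¹ * J⁻¹) * (J * g (e.symm z) * K) =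
      K⁻¹ * (((h (e.symm z))⁻¹ * g (e.symm z)) * K) := by
    simp only [Matrix.mul_assoc]
    rw [← Matrix.mul_assoc J⁻¹ J, Matrix.nonsing_inv_mul _ hdetT, Matrix.one_mul]
  rw [h1, Matrix.trace_mul_comm K⁻¹, Matrix.mul_assoc, Matrix.mul_nonsing_inv _ hdetc,
    Matrix.mul_one]

theorem det_loc11_ne {h : X → Matrix (Fin 2) (Fin 2) ℂ} (hh : ∀ x, (h x).PosDef) {e : Ch X}
    (he : e ∈ atlas C2 X) {z : C2} (hz : z ∈ e.target) : (loc11 e h z).det ≠ 0 := by
  have hdet : (jac e (e.symm z)).det ≠ 0 := jac_det_ne_zero he (e.map_target hz)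
  have : ((jac e (e.symm z)).map conj).det = conj (jac e (e.symm z)).det := by
    simp only [Matrix.det_fin_two, Matrix.map_apply, map_sub, map_mul]
  rw [loc11_mat, Matrix.det_mul, Matrix.det_mul, Matrix.det_transpose, this]
  exact mul_ne_zero (mul_ne_zero hdet (hh _).det_pos.ne') ((map_ne_zero _).2 hdet)

theorem reg_trh {h : X → Matrix (Fin 2) (Fin 2) ℂ} (hh : IsHerm h)
    {g : X → Matrix (Fin 2) (Fin 2) ℂ} (hg : Reg11 ∞ g) : Reg0 ∞ 0 (trh h g) := by
  intro e he
  have h1 : ContDiffOn ℝ ∞ (fun z => ((loc11 e h z).det)⁻¹ *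
      (loc11 e h z 1 1 * loc11 e g z 0 0 - loc11 e h z 0 1 * loc11 e g z 1 0 -
        loc11 e h z 1 0 * loc11 e g z 0 1 + loc11 e h z 0 0 * loc11 e g z 1 1)) e.target := by
    have H := hh.smooth e he
    have G := hg e he
    have hd : ContDiffOn ℝ ∞ (fun z => (loc11 e h z).det) e.target := by
      simp only [Matrix.det_fin_two]
      exact ((H 0 0).mul (H 1 1)).sub ((H 0 1).mul (H 1 0))
    exact (hd.inv fun z hz => det_loc11_ne hh.posDef he hz).mul
      (((((H 1 1).mul (G 0 0)).sub ((H 0 1).mul (G 1 0))).sub ((H 1 0).mul (G 0 1))).add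
        ((H 0 0).mul (G 1 1)))
  refine h1.congr fun z hz => ?_
  rw [← trinv, ← trh_chart h g he hz]
  simp [loc0]

end Vale.Agent.P267.H469
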