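import Vale.Agent.P267.H469.IntX
import Vale.Agent.P267.H469.Tr

/-! P267 / H469: conjugation, projections, pairings on smooth forms on a compact surface. -/

set_option linter.unusedSectionVars false
set_option linter.unusedVariables false

open scoped Manifold ContDiff ComplexConjugate Topology
open MeasureTheory Set

noncomputable section

namespace Vale.Agent.P267.H469

open Vale.Agent.P267.FL

variable {X : Type*} [TopologicalSpace X] [ChartedSpace C2 X] [IsManifold 𝓘(ℂ, C2) ω X]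

/-- conjugation of functions -/
def C0L : S0 X →ₛₗ[starRingEnd ℂ] S0 X where
  toFun s := ⟨cj0 s, r0cj s.2⟩
  map_add' s t := Subtype.ext (cj0_add _ _)
  map_smul' c s := Subtype.ext (cj0_smul _ _)

/-- conjugation of one-forms -/
def C1L : Om1 X →ₛₗ[starRingEnd ℂ] Om1 X where
  toFun A := (⟨cj1 A.2, r1cj A.2.2⟩, ⟨cj1 A.1, r10cj A.1.2⟩)
  map_add' s t := Prod.ext (Subtype.ext (cj1_add _ _)) (Subtype.ext (cj1_add _ _))
  map_smul' c s := Prod.ext (Subtype.ext (cj1_smul _ _)) (Subtype.ext (cj1_smul _ _))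

/-- conjugation of two-forms -/
def C2L : Om2 X →ₛₗ[starRingEnd ℂ] Om2 X where
  toFun F := (⟨cj0 F.2.2, r2cj F.2.2.2⟩, ⟨cj11 F.2.1, r11cj F.2.1.2⟩, ⟨cj0 F.1, r0cj' F.1.2⟩)
  map_add' s t := Prod.ext (Subtype.ext (cj0_add _ _)) (Prod.ext (Subtype.ext (cj11_add _ _))
    (Subtype.ext (cj0_add _ _)))
  map_smul' c s := Prod.ext (Subtype.ext (cj0_smul _ _)) (Prod.ext (Subtype.ext (cj11_smul _ _))
    (Subtype.ext (cj0_smul _ _)))

theorem C0L_C0L (s : S0 X) : C0L (C0L s) = s := Subtype.ext (cj0_cj0 _)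
theorem C1L_C1L (s : Om1 X) : C1L (C1L s) = s :=
  Prod.ext (Subtype.ext (cj1_cj1 _)) (Subtype.ext (cj1_cj1 _))
theorem C2L_C2L (s : Om2 X) : C2L (C2L s) = s :=
  Prod.ext (Subtype.ext (cj0_cj0 _)) (Prod.ext (Subtype.ext (cj11_cj11 _))
    (Subtype.ext (cj0_cj0 _)))

theorem D0_C (s : S0 X) : D0 (C0L s) = C1L (D0 s) :=
  Prod.ext (Subtype.ext (del0_cj _)) (Subtype.ext (dbar0_cj _))

theorem D1_C (A : Om1 X) : D1 (C1L A) = C2L (D1 A) := by
  refine Prod.ext (Subtype.ext (del10_cj _)) (Prod.ext (Subtype.ext ?_) (Subtype.ext (dbar1_cj _)))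
  change del1 (cj1 (A.1 : X → Fin 2 → ℂ)) + dbar10 (cj1 (A.2 : X → Fin 2 → ℂ)) =
    cj11 (del1 (A.2 : X → Fin 2 → ℂ) + dbar10 (A.1 : X → Fin 2 → ℂ))
  rw [cj11_add, del1_cj, dbar10_cj, add_comm]

/-- the constant function `1` -/
def one0 : S0 X := ⟨fun _ => 1, fun e _ => contDiffOn_const.congr fun z _ => by
  change (jac e (e.symm z)).det ^ (0 : ℤ) • (1 : ℂ) = 1
  rw [zpow_zero, one_smul]⟩

theorem D0_one : D0 (one0 : S0 X) = 0 := by
  have h1 : dbar0 0 (fun _ : X => (1 : ℂ)) = 0 := by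
    funext x i
    unfold dbar0
    have h : loc0 0 (chartAt C2 x) (fun _ : X => (1 : ℂ)) = fun _ => 1 := by
      funext z; simp [loc0]
    rw [h, dzb_const]
    rfl
  have h2 : del0 (fun _ : X => (1 : ℂ)) = 0 := by
    funext x i
    unfold del0
    exact dz_const _ _
  exact Prod.ext (Subtype.ext h2) (Subtype.ext h1)

theorem C0L_one : C0L (one0 : S0 X) = one0 := by
  refine Subtype.ext ?_
  funext x
  change conj (1 : ℂ) = 1
  rw [map_one]

/-- the `(1,0)`-part -/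
def P10 : Om1 X →ₗ[ℂ] Om1 X := (LinearMap.inl ℂ _ _).comp (LinearMap.fst ℂ _ _)
/-- the `(0,1)`-part -/
def P01 : Om1 X →ₗ[ℂ] Om1 X := (LinearMap.inr ℂ _ _).comp (LinearMap.snd ℂ _ _)
/-- the `(2,0)`-part -/
def P20 : Om2 X →ₗ[ℂ] Om2 X := (LinearMap.inl ℂ _ _).comp (LinearMap.fst ℂ _ _)
/-- the `(1,1)`-part -/
def P11 : Om2 X →ₗ[ℂ] Om2 X := (LinearMap.inr ℂ _ _).comp ((LinearMap.inl ℂ _ _).comp
  ((LinearMap.fst ℂ _ _).comp (LinearMap.snd ℂ _ _)))
/-- the `(0,2)`-part -/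
def P02 : Om2 X →ₗ[ℂ] Om2 X := (LinearMap.inr ℂ _ _).comp ((LinearMap.inr ℂ _ _).comp
  ((LinearMap.snd ℂ _ _).comp (LinearMap.snd ℂ _ _)))
/-- the `(2,1)`-part -/
def Q21 : Om3 X →ₗ[ℂ] Om3 X := (LinearMap.inl ℂ _ _).comp (LinearMap.fst ℂ _ _)
/-- the `(1,2)`-part -/
def Q12 : Om3 X →ₗ[ℂ] Om3 X := (LinearMap.inr ℂ _ _).comp (LinearMap.snd ℂ _ _)

theorem P10_apply (A : Om1 X) : P10 A = (A.1, 0) := rfl
theorem P01_apply (A : Om1 X) : P01 A = (0, A.2) := rfl
theorem P20_apply (F : Om2 X) : P20 F = (F.1, 0, 0) := rfl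
theorem P11_apply (F : Om2 X) : P11 F = (0, F.2.1, 0) := rfl
theorem P02_apply (F : Om2 X) : P02 F = (0, 0, F.2.2) := rfl
theorem Q21_apply (T : Om3 X) : Q21 T = (T.1, 0) := rfl
theorem Q12_apply (T : Om3 X) : Q12 T = (0, T.2) := rfl

theorem C1L_P10 (A : Om1 X) : C1L (P10 A) = P01 (C1L A) := by
  rw [P10_apply, P01_apply]
  refine Prod.ext (Subtype.ext ?_) rfl
  change cj1 (0 : X → Fin 2 → ℂ) = 0
  funext x i; simp [cj1]

theorem cj0_zero : cj0 (0 : X → ℂ) = 0 := by funext x; simp [cj0]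
theorem cj11_zero : cj11 (0 : X → Matrix (Fin 2) (Fin 2) ℂ) = 0 := by
  funext x; ext i j; simp [cj11]

theorem C2L_P20 (F : Om2 X) : C2L (P20 F) = P02 (C2L F) := by
  rw [P20_apply, P02_apply]
  exact Prod.ext (Subtype.ext cj0_zero) (Prod.ext (Subtype.ext cj11_zero) rfl)

theorem C2L_P11 (F : Om2 X) : C2L (P11 F) = P11 (C2L F) := by
  rw [P11_apply, P11_apply]
  exact Prod.ext (Subtype.ext cj0_zero) (Prod.ext rfl (Subtype.ext cj0_zero))

theorem D1_P10 (A : Om1 X) : P02 (D1 (P10 A)) = 0 := by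
  rw [P10_apply, P02_apply]
  refine Prod.ext rfl (Prod.ext rfl ?_)
  change dbar1L (0 : S01 X) = 0
  exact map_zero _

/-- the wedge product of two-forms -/
def wedgeL : Om2 X →ₗ[ℂ] Om2 X →ₗ[ℂ] S22 X :=
  LinearMap.mk₂ ℂ (fun F G => ⟨(toF F).wedge (toF G), wedge_mem (toF_smooth F) (toF_smooth G)⟩)
    (fun F F' G => Subtype.ext (by
      funext x
      change TwoF.wedge (toF (F + F')) (toF G) x = TwoF.wedge (toF F) (toF G) x +
        TwoF.wedge (toF F') (toF G) x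
      simp only [TwoF.wedge, toF, Prod.fst_add, Prod.snd_add, Submodule.coe_add, Pi.add_apply,
        Matrix.add_apply]
      ring))
    (fun c F G => Subtype.ext (by
      funext x
      change TwoF.wedge (toF (c • F)) (toF G) x = c * TwoF.wedge (toF F) (toF G) x
      simp only [TwoF.wedge, toF, Prod.smul_fst, Prod.smul_snd, Submodule.coe_smul, Pi.smul_apply,
        Matrix.smul_apply, smul_eq_mul]
      ring))
    (fun F G G' => Subtype.ext (by
      funext x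
      change TwoF.wedge (toF F) (toF (G + G')) x = TwoF.wedge (toF F) (toF G) x +
        TwoF.wedge (toF F) (toF G') x
      simp only [TwoF.wedge, toF, Prod.fst_add, Prod.snd_add, Submodule.coe_add, Pi.add_apply,
        Matrix.add_apply]
      ring))
    (fun c F G => Subtype.ext (by
      funext x
      change TwoF.wedge (toF F) (toF (c • G)) x = c * TwoF.wedge (toF F) (toF G) x
      simp only [TwoF.wedge, toF, Prod.smul_fst, Prod.smul_snd, Submodule.coe_smul, Pi.smul_apply,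
        Matrix.smul_apply, smul_eq_mul]
      ring))

/-- the wedge product of a one-form and a three-form -/
def w13L : Om1 X →ₗ[ℂ] Om3 X →ₗ[ℂ] S22 X :=
  LinearMap.mk₂ ℂ (fun A T => ⟨w13 A.1 A.2 T.1 T.2, w13_mem A.1.2 A.2.2 T.1.2 T.2.2⟩)
    (fun A A' T => Subtype.ext (by
      funext x
      change w13 ((A.1 + A'.1 : S10 X) : X → Fin 2 → ℂ) ((A.2 + A'.2 : S01 X) : X → Fin 2 → ℂ)
        T.1 T.2 x = w13 A.1 A.2 T.1 T.2 x + w13 A'.1 A'.2 T.1 T.2 x
      simp only [w13, Submodule.coe_add, Pi.add_apply]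
      ring))
    (fun c A T => Subtype.ext (by
      funext x
      change w13 ((c • A.1 : S10 X) : X → Fin 2 → ℂ) ((c • A.2 : S01 X) : X → Fin 2 → ℂ)
        T.1 T.2 x = c * w13 A.1 A.2 T.1 T.2 x
      simp only [w13, Submodule.coe_smul, Pi.smul_apply, smul_eq_mul]
      ring))
    (fun A T T' => Subtype.ext (by
      funext x
      change w13 A.1 A.2 ((T.1 + T'.1 : S21 X) : X → Fin 2 → ℂ)
        ((T.2 + T'.2 : S12 X) : X → Fin 2 → ℂ) x = w13 A.1 A.2 T.1 T.2 x + w13 A.1 A.2 T'.1 T'.2 x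
      simp only [w13, Submodule.coe_add, Pi.add_apply]
      ring))
    (fun c A T => Subtype.ext (by
      funext x
      change w13 A.1 A.2 ((c • T.1 : S21 X) : X → Fin 2 → ℂ)
        ((c • T.2 : S12 X) : X → Fin 2 → ℂ) x = c * w13 A.1 A.2 T.1 T.2 x
      simp only [w13, Submodule.coe_smul, Pi.smul_apply, smul_eq_mul]
      ring))

theorem wedgeL_apply (F G : Om2 X) : ((wedgeL F G : S22 X) : X → ℂ) = (toF F).wedge (toF G) := rfl
theorem w13L_apply (A : Om1 X) (T : Om3 X) : ((w13L A T : S22 X) : X → ℂ) =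
    w13 A.1 A.2 T.1 T.2 := rfl

/-- the trace -/
def trL {h : X → Matrix (Fin 2) (Fin 2) ℂ} (hh : IsHerm h) : Om2 X →ₗ[ℂ] S0 X where
  toFun F := ⟨trh h F.2.1, reg_trh hh F.2.1.2⟩
  map_add' F G := Subtype.ext (trh_add _ _ _)
  map_smul' c G := Subtype.ext (trh_smul _ _ _)

end Vale.Agent.P267.H469
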