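import Vale.Agent.P267.H928.Int.FLStokes
import Vale.Agent.P267.H469.Maps
import Vale.Agent.P267.H469.Betti

/-! P267 / H469: the calculus of smooth forms on a compact connected complex surface is an
instance of the abstract calculus `Calc`. -/

set_option linter.unusedSectionVars false
set_option linter.unusedVariables false

open scoped Manifold ContDiff ComplexConjugate Topology
open MeasureTheory Set

noncomputable section

namespace Vale.Agent.P267.H469

open Vale.Agent.P267.FL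

variable {X : Type*} [TopologicalSpace X] [ChartedSpace C2 X] [IsManifold 𝓘(ℂ, C2) ω X]
variable [T2Space X] [CompactSpace X]

/-- Stokes' formula for `∂̄` of `(2,1)`-forms -/
theorem stokesX {a : X → Fin 2 → ℂ} (ha : a ∈ S21 X) : intX (dbar1 1 a) = 0 :=
  intX_dbar1 (r1mono ha one_le_infty) (HasCompactSupport.of_compactSpace a)

/-- `∫ a ∧ b` -/
def I22L : Om2 X →ₗ[ℂ] Om2 X →ₗ[ℂ] ℂ := wedgeL.compr₂ intL
/-- `∫ a ∧ b` -/
def I13L : Om1 X →ₗ[ℂ] Om3 X →ₗ[ℂ] ℂ := w13L.compr₂ intL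

theorem I22L_apply (F G : Om2 X) : I22L F G = intX ((toF F).wedge (toF G)) := rfl
theorem I13L_apply (A : Om1 X) (T : Om3 X) : I13L A T =
    intX (w13 (A.1 : X → Fin 2 → ℂ) (A.2 : X → Fin 2 → ℂ) (T.1 : X → Fin 2 → ℂ)
      (T.2 : X → Fin 2 → ℂ)) := rfl

theorem I22L_symm (F G : Om2 X) : I22L F G = I22L G F := by
  rw [I22L_apply, I22L_apply]
  congr 1
  funext x
  simp only [TwoF.wedge]
  ring

theorem wedge_conj (F G : Om2 X) : (toF (C2L F)).wedge (toF (C2L G)) =
    fun x => conj ((toF F).wedge (toF G) x) := by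
  funext x
  change (cjF (toF F)).wedge (cjF (toF G)) x = _
  simp only [TwoF.wedge, cjF, cj0, cj11, Matrix.of_apply, map_sub, map_add, map_mul]
  ring

theorem I22L_conj (F G : Om2 X) : I22L (C2L F) (C2L G) = conj (I22L F G) := by
  rw [I22L_apply, I22L_apply, wedge_conj,
    intX_conj (wedge_mem (toF_smooth F) (toF_smooth G))]

theorem I22L_P20 (F G : Om2 X) : I22L (P20 F) G = I22L (P20 F) (P02 G) := by
  rw [I22L_apply, I22L_apply]
  congr 1
  funext x
  simp [TwoF.wedge, toF, P20_apply, P02_apply]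

theorem I22L_P11 (F G : Om2 X) : I22L (P11 F) G = I22L (P11 F) (P11 G) := by
  rw [I22L_apply, I22L_apply]
  congr 1
  funext x
  simp [TwoF.wedge, toF, P11_apply]

theorem I13L_P10 (A : Om1 X) (T : Om3 X) : I13L (P10 A) T = I13L (P10 A) (Q12 T) := by
  rw [I13L_apply, I13L_apply]
  congr 1
  funext x
  simp [w13, P10_apply, Q12_apply]

theorem stokesL (A : Om1 X) (F : Om2 X) : I22L (D1 A) F = I13L A (D2 F) := by
  have h21 : t21 (A.1 : X → Fin 2 → ℂ) A.2 (toF F) ∈ S21 X :=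
    t21_mem A.1.2 A.2.2 F.1.2 F.2.1.2
  have h12 : t12c (A.1 : X → Fin 2 → ℂ) A.2 (toF F) ∈ S21 X :=
    t21_mem (F := cjF (toF F)) (r1cj A.2.2) (r10cj A.1.2) (r2cj F.2.2.2) (r11cj F.2.1.2)
  have m1 : dbar1 1 (t21 (A.1 : X → Fin 2 → ℂ) A.2 (toF F)) ∈ S22 X := reg_dbar1 h21
  have m2 : dbar1 1 (t12c (A.1 : X → Fin 2 → ℂ) A.2 (toF F)) ∈ S22 X := reg_dbar1 h12
  have e : ((wedgeL (D1 A) F : S22 X) : X → ℂ) = ((w13L A (D2 F) : S22 X) : X → ℂ) +
      (dbar1 1 (t21 (A.1 : X → Fin 2 → ℂ) A.2 (toF F)) +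
        fun x => conj (dbar1 1 (t12c (A.1 : X → Fin 2 → ℂ) A.2 (toF F)) x)) := by
    funext x
    have h := leibniz A.1.2 A.2.2 (toF_smooth F) x
    have hd21 : (toF F).d21 = ((D2 F).1 : X → Fin 2 → ℂ) := rfl
    have hd12 : (toF F).d12 = ((D2 F).2 : X → Fin 2 → ℂ) := d12_eq (toF F)
    rw [hd21, hd12] at h
    rw [Pi.add_apply, Pi.add_apply, ← h, wedgeL_apply, w13L_apply]
    have h1 : toF (D1 A) = OneF.d ⟨A.1, A.2⟩ := rfl
    rw [h1]
    ring
  have h1 : I22L (D1 A) F = intX ((wedgeL (D1 A) F : S22 X) : X → ℂ) := rfl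
  have h2 : I13L A (D2 F) = intX ((w13L A (D2 F) : S22 X) : X → ℂ) := rfl
  rw [h1, h2, e, intX_add (w13L A (D2 F)).2 ((S22 X).add_mem m1 (S22_conj m2)),
    intX_add m1 (S22_conj m2), intX_conj m2, stokesX h21, stokesX h12, map_zero, add_zero, add_zero]

theorem pos20L (F : Om2 X) (hF : P20 F = F) (h : (I22L F (C2L F)).re ≤ 0) : F = 0 := by
  have hm := wedge_mem (toF_smooth F) (toF_smooth (C2L F))
  have hmn := (S22 X).neg_mem hm
  have hint : intX (-((toF F).wedge (toF (C2L F)))) = - I22L F (C2L F) := by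
    have := intX_smul (-1) hm
    rw [neg_one_smul, neg_one_mul] at this
    exact this
  have hpt : ∀ x, (toF F).wedge (toF (C2L F)) x = (Complex.normSq ((F.1 : X → ℂ) x) : ℂ) := by
    intro x
    rw [← hF]
    simp only [TwoF.wedge, toF, P20_apply, C2L, LinearMap.coe_mk, AddHom.coe_mk,
      Submodule.coe_zero, Pi.zero_apply, Matrix.zero_apply, cj0, cj11, map_zero, neg_zero,
      mul_zero, zero_mul, sub_zero, add_zero, Matrix.of_apply]
    rw [Complex.mul_conj]
  have h1 := intX_neg hmn (fun x => by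
    rw [Pi.neg_apply, hpt, Complex.neg_re, Complex.ofReal_re]
    exact neg_nonpos.2 (Complex.normSq_nonneg _))
  have h2 := h1.2 (by rw [hint, Complex.neg_re]; linarith)
  have h3 : F.1 = 0 := by
    refine Subtype.ext ?_
    funext x
    have h4 := h2 x
    rw [Pi.neg_apply, hpt, Complex.neg_re, Complex.ofReal_re, neg_eq_zero,
      Complex.normSq_eq_zero] at h4
    exact h4
  rw [← hF, P20_apply, h3]
  rfl

theorem neg11L {h : X → Matrix (Fin 2) (Fin 2) ℂ} (hh : IsHerm h) (F : Om2 X) (hF : P11 F = F)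
    (ht : trL hh F = 0) : (I22L F (C2L F)).re ≤ 0 ∧ (0 ≤ (I22L F (C2L F)).re → F = 0) := by
  have hm := wedge_mem (toF_smooth F) (toF_smooth (C2L F))
  have ht' : ∀ x, ((h x)⁻¹ * (F.2.1 : X → Matrix (Fin 2) (Fin 2) ℂ) x).trace = 0 := by
    intro x
    have := congrArg (fun s : S0 X => (s : X → ℂ) x) ht
    exact this
  have hpt : ∀ x, ((toF F).wedge (toF (C2L F)) x).re =
      2 * ((F.2.1 : X → Matrix (Fin 2) (Fin 2) ℂ) x 0 0 *
        conj ((F.2.1 : X → Matrix (Fin 2) (Fin 2) ℂ) x 1 1)).re -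
      Complex.normSq ((F.2.1 : X → Matrix (Fin 2) (Fin 2) ℂ) x 0 1) -
      Complex.normSq ((F.2.1 : X → Matrix (Fin 2) (Fin 2) ℂ) x 1 0) := by
    intro x
    conv_lhs => rw [← hF]
    simp only [TwoF.wedge, toF, P11_apply, C2L, LinearMap.coe_mk, AddHom.coe_mk,
      Submodule.coe_zero, Pi.zero_apply, cj0, cj11, map_zero,
      mul_zero, zero_mul, add_zero, Matrix.of_apply, zero_sub]
    simp only [Complex.normSq_apply, Complex.neg_re, Complex.sub_re, Complex.add_re, Complex.mul_re,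
      Complex.neg_im, Complex.conj_re, Complex.conj_im]
    ring
  have h1 := intX_neg hm fun x => by
    rw [hpt]; exact (neg_pt (hh.posDef x) (ht' x)).1
  refine ⟨h1.1, fun h2 => ?_⟩
  have h3 := h1.2 h2
  have h4 : F.2.1 = 0 := by
    refine Subtype.ext ?_
    funext x
    refine (neg_pt (hh.posDef x) (ht' x)).2 ?_
    rw [← hpt, h3]
  rw [← hF, P11_apply, h4]
  rfl

/-- **The calculus of smooth forms** on a compact connected complex surface with the Hermitian
metric `h`. -/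
def calcX {h : X → Matrix (Fin 2) (Fin 2) ℂ} (hh : IsHerm h) [Nonempty X]
    (hconst : ∀ s : X → ℂ, Reg0 ∞ 0 s → ddb s = 0 → ∃ c : ℂ, s = fun _ => c) :
    Calc (S0 X) (Om1 X) (Om2 X) (Om3 X) where
  d0 := D0
  d1 := D1
  d2 := D2
  d1d0 := D1_D0
  d2d1 := D2_D1
  one := one0
  d0one := D0_one
  c0 := C0L
  c1 := C1L
  c2 := C2L
  c0c0 := C0L_C0L
  c1c1 := C1L_C1L
  c2c2 := C2L_C2L
  c0one := C0L_one
  d0c := D0_C
  d1c := D1_C
  p10 := P10
  p01 := P01
  p1_add A := Prod.ext (add_zero _) (zero_add _)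
  p10_p01 A := rfl
  p01_p10 A := rfl
  c1_p10 := C1L_P10
  p20 := P20
  p11 := P11
  p02 := P02
  p2_add F := by
    rw [P20_apply, P11_apply, P02_apply]
    exact Prod.ext (by simp) (Prod.ext (by simp) (by simp))
  p20_p11 F := rfl
  p20_p02 F := rfl
  p11_p20 F := rfl
  p11_p02 F := rfl
  p02_p20 F := rfl
  p02_p11 F := rfl
  c2_p20 := C2L_P20
  c2_p11 := C2L_P11
  integ := D1_P10
  I22 := I22L
  I13 := I13L
  I22_symm := I22L_symm
  I22_conj := I22L_conj
  I22_p20 := I22L_P20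
  I22_p11 := I22L_P11
  stokes := stokesL
  pos20 := pos20L
  tr := trL hh
  tr_p11 F := rfl
  tr_conj F := by
    refine Subtype.ext ?_
    exact trh_cj (fun x => (hh.posDef x).1) _
  neg11 F hF ht := (neg11L hh F hF ht).1
  neg11' F hF ht := (neg11L hh F hF ht).2
  ddc_const u hu := by
    obtain ⟨c, hc⟩ := hconst u u.2 (by
      have h1 : (D1 (P01 (D0 u))).2.1 = 0 := by rw [hu]; rfl
      have h2 : del1 (dbar0 0 (u : X → ℂ)) + dbar10 ((0 : S10 X) : X → Fin 2 → ℂ) = 0 :=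
        congrArg (fun s : S11 X => (s : X → Matrix (Fin 2) (Fin 2) ℂ)) h1
      have h3 : dbar10 ((0 : S10 X) : X → Fin 2 → ℂ) = 0 := by
        have : dbar10L (0 : S10 X) = 0 := map_zero _
        exact congrArg (fun s : S11 X => (s : X → Matrix (Fin 2) (Fin 2) ℂ)) this
      rw [h3, add_zero] at h2
      exact h2)
    refine ⟨c, Subtype.ext ?_⟩
    rw [hc]
    funext x
    change c = c * 1
    rw [mul_one]
  one_ne h := by
    obtain ⟨x⟩ := ‹Nonempty X›
    have := congrArg (fun s : S0 X => (s : X → ℂ) x) h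
    exact one_ne_zero this
  q21 := Q21
  q12 := Q12
  q3_add T := Prod.ext (add_zero _) (zero_add _)
  q12_d2_p20 F := by
    rw [P20_apply, Q12_apply]
    refine Prod.ext rfl ?_
    change dbar11L (0 : S11 X) + del02L (0 : S02 X) = 0
    rw [map_zero, map_zero, add_zero]
  q21_d2_p02 F := by
    rw [P02_apply, Q21_apply]
    refine Prod.ext ?_ rfl
    change dbar20L (0 : S20 X) + del11L (0 : S11 X) = 0
    rw [map_zero, map_zero, add_zero]
  I13_p10 := I13L_P10

end Vale.Agent.P267.H469
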