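import Vale.Agent.P267.H469.Del2

/-! P267 / H469: spaces of smooth forms by types, the exterior derivative as linear maps,
wedge products, Leibniz. -/

set_option linter.unusedSectionVars false

open scoped Manifold ContDiff ComplexConjugate Topology
open MeasureTheory Set

noncomputable section

namespace Vale.Agent.P267.H469

open Vale.Agent.P267.FL

variable {X : Type*} [TopologicalSpace X] [ChartedSpace C2 X] [IsManifold 𝓘(ℂ, C2) ω X]

/-! ### smooth forms -/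

variable (X) in
/-- smooth functions -/
def S0 : Submodule ℂ (X → ℂ) where
  carrier := {s | Reg0 ∞ 0 s}
  zero_mem' := fun e _ => contDiffOn_const.congr fun z _ => by simp [loc0]; rfl
  add_mem' := fun h1 h2 e he => ((h1 e he).add (h2 e he)).congr fun z _ => loc0_add e z 0 _ _
  smul_mem' := fun c s h e he => ((h e he).const_smul c).congr fun z _ => loc0_smul e z c 0 s

variable (X) in
/-- smooth `(2,0)`-forms -/
def S20 : Submodule ℂ (X → ℂ) where
  carrier := {s | Reg0 ∞ 1 s}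
  zero_mem' := fun e _ => contDiffOn_const.congr fun z _ => by simp [loc0]; rfl
  add_mem' := fun h1 h2 e he => ((h1 e he).add (h2 e he)).congr fun z _ => loc0_add e z 1 _ _
  smul_mem' := fun c s h e he => ((h e he).const_smul c).congr fun z _ => loc0_smul e z c 1 s

variable (X) in
/-- smooth `(0,2)`-forms -/
def S02 : Submodule ℂ (X → ℂ) where
  carrier := {s | Reg2 ∞ 0 s}
  zero_mem' := fun e _ => contDiffOn_const.congr fun z _ => by simp [loc2]; rfl
  add_mem' := fun h1 h2 e he => ((h1 e he).add (h2 e he)).congr fun z _ => loc2_add e z 0 _ _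
  smul_mem' := fun c s h e he => ((h e he).const_smul c).congr fun z _ => loc2_smul e z c 0 s

variable (X) in
/-- smooth `(2,2)`-forms -/
def S22 : Submodule ℂ (X → ℂ) where
  carrier := {s | Reg2 ∞ 1 s}
  zero_mem' := fun e _ => contDiffOn_const.congr fun z _ => by simp [loc2]; rfl
  add_mem' := fun h1 h2 e he => ((h1 e he).add (h2 e he)).congr fun z _ => loc2_add e z 1 _ _
  smul_mem' := fun c s h e he => ((h e he).const_smul c).congr fun z _ => loc2_smul e z c 1 s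

variable (X) in
/-- smooth `(1,0)`-forms -/
def S10 : Submodule ℂ (X → Fin 2 → ℂ) where
  carrier := {s | Reg10 ∞ s}
  zero_mem' := fun e _ => contDiffOn_const.congr fun z _ => by funext i; simp [loc10]; rfl
  add_mem' := fun h1 h2 e he => ((h1 e he).add (h2 e he)).congr fun z _ => by
    funext i; exact loc10_add e z _ _ i
  smul_mem' := fun c s h e he => ((h e he).const_smul c).congr fun z _ => by
    funext i; exact loc10_smul e z c s i

variable (X) in
/-- smooth `(0,1)`-forms -/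
def S01 : Submodule ℂ (X → Fin 2 → ℂ) where
  carrier := {s | Reg1 ∞ 0 s}
  zero_mem' := fun e _ => contDiffOn_const.congr fun z _ => by funext i; simp [loc1]; rfl
  add_mem' := fun h1 h2 e he => ((h1 e he).add (h2 e he)).congr fun z _ => by
    funext i; exact loc1_add e z 0 _ _ i
  smul_mem' := fun c s h e he => ((h e he).const_smul c).congr fun z _ => by
    funext i; exact loc1_smul e z c 0 s i

variable (X) in
/-- smooth `(2,1)`-forms -/
def S21 : Submodule ℂ (X → Fin 2 → ℂ) where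
  carrier := {s | Reg1 ∞ 1 s}
  zero_mem' := fun e _ => contDiffOn_const.congr fun z _ => by funext i; simp [loc1]; rfl
  add_mem' := fun h1 h2 e he => ((h1 e he).add (h2 e he)).congr fun z _ => by
    funext i; exact loc1_add e z 1 _ _ i
  smul_mem' := fun c s h e he => ((h e he).const_smul c).congr fun z _ => by
    funext i; exact loc1_smul e z c 1 s i

/-- conjugation as a semilinear map -/
def cj1L : (X → Fin 2 → ℂ) →ₛₗ[starRingEnd ℂ] (X → Fin 2 → ℂ) where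
  toFun := cj1
  map_add' a b := by funext x i; simp [cj1]
  map_smul' c a := by funext x i; simp [cj1]

/-- conjugation as a semilinear map -/
def cj0L : (X → ℂ) →ₛₗ[starRingEnd ℂ] (X → ℂ) where
  toFun := cj0
  map_add' a b := by funext x; simp [cj0]
  map_smul' c a := by funext x; simp [cj0]

variable (X) in
/-- smooth `(1,2)`-forms -/
def S12 : Submodule ℂ (X → Fin 2 → ℂ) := (S21 X).comap (cj1L (X := X))

theorem mem_S12 {t : X → Fin 2 → ℂ} : t ∈ S12 X ↔ Reg1 ∞ 1 (cj1 t) := Iff.rfl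

variable (X) in
/-- smooth `(1,1)`-forms -/
def S11 : Submodule ℂ (X → Matrix (Fin 2) (Fin 2) ℂ) where
  carrier := {s | Reg11 ∞ s}
  zero_mem' := fun e _ i j => contDiffOn_const.congr fun z _ => by simp [loc11]; rfl
  add_mem' := fun h1 h2 e he i j => ((h1 e he i j).add (h2 e he i j)).congr fun z _ =>
    loc11_add e z _ _ i j
  smul_mem' := fun c s h e he i j => ((h e he i j).const_smul c).congr fun z _ =>
    loc11_smul e z c s i j

/-! ### linearity of the operators -/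

theorem d0at {s : X → ℂ} {κ : ℤ} (h : Reg0 ∞ κ s) (x : X) :
    DifferentiableAt ℝ (loc0 κ (chartAt C2 x) s) (chartAt C2 x x) :=
  diffAt_of ((r0mono h one_le_infty) _ (chart_mem_atlas C2 x)) (chart_mem x)

theorem d1at {s : X → Fin 2 → ℂ} {κ : ℤ} (h : Reg1 ∞ κ s) (x : X) (i : Fin 2) :
    DifferentiableAt ℝ (fun z => loc1 κ (chartAt C2 x) s z i) (chartAt C2 x x) :=
  diffAt_of ((contDiffOn_pi.1 ((r1mono h one_le_infty) _ (chart_mem_atlas C2 x))) i) (chart_mem x)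

theorem d10at {s : X → Fin 2 → ℂ} (h : Reg10 ∞ s) (x : X) (i : Fin 2) :
    DifferentiableAt ℝ (fun z => loc10 (chartAt C2 x) s z i) (chartAt C2 x x) :=
  diffAt_of ((contDiffOn_pi.1 ((r10mono h one_le_infty) _ (chart_mem_atlas C2 x))) i) (chart_mem x)

theorem d2at {s : X → ℂ} {κ : ℤ} (h : Reg2 ∞ κ s) (x : X) :
    DifferentiableAt ℝ (loc2 κ (chartAt C2 x) s) (chartAt C2 x x) :=
  diffAt_of ((r2mono h one_le_infty) _ (chart_mem_atlas C2 x)) (chart_mem x)

theorem d11at {s : X → Matrix (Fin 2) (Fin 2) ℂ} (h : Reg11 ∞ s) (x : X) (i j : Fin 2) :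
    DifferentiableAt ℝ (fun z => loc11 (chartAt C2 x) s z i j) (chartAt C2 x x) :=
  diffAt_of ((r11mono h one_le_infty) _ (chart_mem_atlas C2 x) i j) (chart_mem x)

theorem dbar0_add {κ : ℤ} {s t : X → ℂ} (hs : Reg0 ∞ κ s) (ht : Reg0 ∞ κ t) :
    dbar0 κ (s + t) = dbar0 κ s + dbar0 κ t := by
  funext x i
  have h : loc0 κ (chartAt C2 x) (s + t) = fun z => loc0 κ (chartAt C2 x) s z +
      loc0 κ (chartAt C2 x) t z := by funext z; exact loc0_add _ z κ s t
  unfold dbar0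
  rw [h, dzb_add i (d0at hs x) (d0at ht x)]
  rfl

theorem dbar0_smul {κ : ℤ} {s : X → ℂ} (hs : Reg0 ∞ κ s) (c : ℂ) :
    dbar0 κ (c • s) = c • dbar0 κ s := by
  funext x i
  have h : loc0 κ (chartAt C2 x) (c • s) = fun z => c • loc0 κ (chartAt C2 x) s z := by
    funext z; exact loc0_smul _ z c κ s
  unfold dbar0
  rw [h, dzb_const_smul i c (d0at hs x)]
  rfl

theorem dbar1_add {κ : ℤ} {s t : X → Fin 2 → ℂ} (hs : Reg1 ∞ κ s) (ht : Reg1 ∞ κ t) :
    dbar1 κ (s + t) = dbar1 κ s + dbar1 κ t := by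
  funext x
  have h : ∀ i, (fun z => loc1 κ (chartAt C2 x) (s + t) z i) = fun z =>
      loc1 κ (chartAt C2 x) s z i + loc1 κ (chartAt C2 x) t z i := by
    intro i; funext z; exact loc1_add _ z κ s t i
  rw [Pi.add_apply]
  unfold dbar1
  rw [h, h, dzb_add _ (d1at hs x 1) (d1at ht x 1), dzb_add _ (d1at hs x 0) (d1at ht x 0)]
  ring

theorem dbar1_smul {κ : ℤ} {s : X → Fin 2 → ℂ} (hs : Reg1 ∞ κ s) (c : ℂ) :
    dbar1 κ (c • s) = c • dbar1 κ s := by
  funext x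
  have h : ∀ i, (fun z => loc1 κ (chartAt C2 x) (c • s) z i) = fun z =>
      c • loc1 κ (chartAt C2 x) s z i := by
    intro i; funext z; exact loc1_smul _ z c κ s i
  rw [Pi.smul_apply]
  unfold dbar1
  rw [h, h, dzb_const_smul _ c (d1at hs x 1), dzb_const_smul _ c (d1at hs x 0), smul_sub]

theorem cj1_add (a b : X → Fin 2 → ℂ) : cj1 (a + b) = cj1 a + cj1 b := cj1L.map_add a b
theorem cj0_add (a b : X → ℂ) : cj0 (a + b) = cj0 a + cj0 b := cj0L.map_add a b
theorem cj1_smul (c : ℂ) (b : X → Fin 2 → ℂ) : cj1 (c • b) = conj c • cj1 b :=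
  cj1L.map_smulₛₗ c b
theorem cj0_smul (c : ℂ) (b : X → ℂ) : cj0 (c • b) = conj c • cj0 b :=
  cj0L.map_smulₛₗ c b
theorem cj11_add (a b : X → Matrix (Fin 2) (Fin 2) ℂ) : cj11 (a + b) = cj11 a + cj11 b := by
  funext x; ext i j
  simp only [cj11, Pi.add_apply, Matrix.add_apply, Matrix.of_apply, map_add]
  ring
theorem cj11_smul (c : ℂ) (b : X → Matrix (Fin 2) (Fin 2) ℂ) :
    cj11 (c • b) = conj c • cj11 b := by
  funext x; ext i j
  simp only [cj11, Pi.smul_apply, Matrix.smul_apply, Matrix.of_apply, smul_eq_mul, map_mul]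
  ring

theorem del0_add {s t : X → ℂ} (hs : Reg0 ∞ 0 s) (ht : Reg0 ∞ 0 t) :
    del0 (s + t) = del0 s + del0 t := by
  have h : ∀ u : X → ℂ, del0 u = cj1 (dbar0 0 (cj0 u)) := by
    intro u; rw [← del0_cj, cj0_cj0]
  rw [h, h, h, cj0_add, dbar0_add (r0cj hs) (r0cj ht), cj1_add]

theorem del0_smul {s : X → ℂ} (hs : Reg0 ∞ 0 s) (c : ℂ) :
    del0 (c • s) = c • del0 s := by
  have h : ∀ u : X → ℂ, del0 u = cj1 (dbar0 0 (cj0 u)) := by
    intro u; rw [← del0_cj, cj0_cj0]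
  rw [h, h, cj0_smul, dbar0_smul (r0cj hs), cj1_smul, Complex.conj_conj]

theorem del10_add {s t : X → Fin 2 → ℂ} (hs : Reg10 ∞ s) (ht : Reg10 ∞ t) :
    del10 (s + t) = del10 s + del10 t := by
  have h : ∀ u : X → Fin 2 → ℂ, del10 u = cj0 (dbar1 0 (cj1 u)) := by
    intro u; rw [← del10_cj, cj1_cj1]
  rw [h, h, h, cj1_add, dbar1_add (r10cj hs) (r10cj ht), cj0_add]

theorem del10_smul {s : X → Fin 2 → ℂ} (hs : Reg10 ∞ s) (c : ℂ) :
    del10 (c • s) = c • del10 s := by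
  have h : ∀ u : X → Fin 2 → ℂ, del10 u = cj0 (dbar1 0 (cj1 u)) := by
    intro u; rw [← del10_cj, cj1_cj1]
  rw [h, h, cj1_smul, dbar1_smul (r10cj hs), cj0_smul, Complex.conj_conj]

theorem del1_add {s t : X → Fin 2 → ℂ} (hs : Reg1 ∞ 0 s) (ht : Reg1 ∞ 0 t) :
    del1 (s + t) = del1 s + del1 t := by
  funext x; ext i j
  have h : (fun z => loc1 0 (chartAt C2 x) (s + t) z j) = fun z =>
      loc1 0 (chartAt C2 x) s z j + loc1 0 (chartAt C2 x) t z j := by
    funext z; exact loc1_add _ z 0 s t j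
  rw [Pi.add_apply, Matrix.add_apply]
  unfold del1
  simp only [Matrix.of_apply]
  rw [h, dz_add _ (d1at hs x j) (d1at ht x j)]

theorem del1_smul {s : X → Fin 2 → ℂ} (hs : Reg1 ∞ 0 s) (c : ℂ) :
    del1 (c • s) = c • del1 s := by
  funext x; ext i j
  have h : (fun z => loc1 0 (chartAt C2 x) (c • s) z j) = fun z =>
      c • loc1 0 (chartAt C2 x) s z j := by
    funext z; exact loc1_smul _ z c 0 s j
  rw [Pi.smul_apply, Matrix.smul_apply]
  unfold del1
  simp only [Matrix.of_apply]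
  rw [h, dz_const_smul _ c (d1at hs x j)]

theorem dbar10_add {s t : X → Fin 2 → ℂ} (hs : Reg10 ∞ s) (ht : Reg10 ∞ t) :
    dbar10 (s + t) = dbar10 s + dbar10 t := by
  have h : ∀ u : X → Fin 2 → ℂ, dbar10 u = cj11 (del1 (cj1 u)) := by
    intro u; rw [← dbar10_cj, cj1_cj1]
  rw [h, h, h, cj1_add, del1_add (r10cj hs) (r10cj ht), cj11_add]

theorem dbar10_smul {s : X → Fin 2 → ℂ} (hs : Reg10 ∞ s) (c : ℂ) :
    dbar10 (c • s) = c • dbar10 s := by
  have h : ∀ u : X → Fin 2 → ℂ, dbar10 u = cj11 (del1 (cj1 u)) := by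
    intro u; rw [← dbar10_cj, cj1_cj1]
  rw [h, h, cj1_smul, del1_smul (r10cj hs), cj11_smul, Complex.conj_conj]

theorem del11_add {s t : X → Matrix (Fin 2) (Fin 2) ℂ} (hs : Reg11 ∞ s) (ht : Reg11 ∞ t) :
    del11 (s + t) = del11 s + del11 t := by
  funext x j
  have h : ∀ i, (fun z => loc11 (chartAt C2 x) (s + t) z i j) = fun z =>
      loc11 (chartAt C2 x) s z i j + loc11 (chartAt C2 x) t z i j := by
    intro i; funext z; exact loc11_add _ z s t i j
  rw [Pi.add_apply, Pi.add_apply]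
  unfold del11
  rw [h, h, dz_add _ (d11at hs x 1 j) (d11at ht x 1 j), dz_add _ (d11at hs x 0 j) (d11at ht x 0 j)]
  ring

theorem del11_smul {s : X → Matrix (Fin 2) (Fin 2) ℂ} (hs : Reg11 ∞ s) (c : ℂ) :
    del11 (c • s) = c • del11 s := by
  funext x j
  have h : ∀ i, (fun z => loc11 (chartAt C2 x) (c • s) z i j) = fun z =>
      c • loc11 (chartAt C2 x) s z i j := by
    intro i; funext z; exact loc11_smul _ z c s i j
  rw [Pi.smul_apply, Pi.smul_apply]
  unfold del11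
  rw [h, h, dz_const_smul _ c (d11at hs x 1 j), dz_const_smul _ c (d11at hs x 0 j), smul_sub]

/-- `∂` on functions -/
def del0L : S0 X →ₗ[ℂ] S10 X where
  toFun s := ⟨del0 s, reg_del0 s.2⟩
  map_add' s t := Subtype.ext (del0_add s.2 t.2)
  map_smul' c s := Subtype.ext (del0_smul s.2 c)

/-- `∂̄` on functions -/
def dbar0L : S0 X →ₗ[ℂ] S01 X where
  toFun s := ⟨dbar0 0 s, reg_dbar0 s.2⟩
  map_add' s t := Subtype.ext (dbar0_add s.2 t.2)
  map_smul' c s := Subtype.ext (dbar0_smul s.2 c)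

/-- `∂` on `(1,0)`-forms -/
def del10L : S10 X →ₗ[ℂ] S20 X where
  toFun s := ⟨del10 s, reg_del10 s.2⟩
  map_add' s t := Subtype.ext (del10_add s.2 t.2)
  map_smul' c s := Subtype.ext (del10_smul s.2 c)

/-- `∂̄` on `(1,0)`-forms -/
def dbar10L : S10 X →ₗ[ℂ] S11 X where
  toFun s := ⟨dbar10 s, reg_dbar10 s.2⟩
  map_add' s t := Subtype.ext (dbar10_add s.2 t.2)
  map_smul' c s := Subtype.ext (dbar10_smul s.2 c)

/-- `∂` on `(0,1)`-forms -/
def del1L : S01 X →ₗ[ℂ] S11 X where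
  toFun s := ⟨del1 s, reg_del1 s.2⟩
  map_add' s t := Subtype.ext (del1_add s.2 t.2)
  map_smul' c s := Subtype.ext (del1_smul s.2 c)

/-- `∂̄` on `(0,1)`-forms -/
def dbar1L : S01 X →ₗ[ℂ] S02 X where
  toFun s := ⟨dbar1 0 s, reg_dbar1 s.2⟩
  map_add' s t := Subtype.ext (dbar1_add s.2 t.2)
  map_smul' c s := Subtype.ext (dbar1_smul s.2 c)

/-- `∂̄` on `(2,0)`-forms -/
def dbar20L : S20 X →ₗ[ℂ] S21 X where
  toFun s := ⟨dbar0 1 s, reg_dbar0 s.2⟩
  map_add' s t := Subtype.ext (dbar0_add s.2 t.2)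
  map_smul' c s := Subtype.ext (dbar0_smul s.2 c)

/-- `∂` on `(1,1)`-forms -/
def del11L : S11 X →ₗ[ℂ] S21 X where
  toFun s := ⟨del11 s, reg_del11 s.2⟩
  map_add' s t := Subtype.ext (del11_add s.2 t.2)
  map_smul' c s := Subtype.ext (del11_smul s.2 c)

/-- `∂` of a `(0,2)`-form -/
def del02 (b : X → ℂ) : X → Fin 2 → ℂ := cj1 (dbar0 1 (cj0 b))
/-- `∂̄` of a `(1,1)`-form -/
def dbar11 (g : X → Matrix (Fin 2) (Fin 2) ℂ) : X → Fin 2 → ℂ := cj1 (del11 (cj11 g))

theorem del02_add {s t : X → ℂ} (hs : Reg2 ∞ 0 s) (ht : Reg2 ∞ 0 t) :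
    del02 (s + t) = del02 s + del02 t := by
  unfold del02
  rw [cj0_add, dbar0_add (r2cj hs) (r2cj ht), cj1_add]

theorem del02_smul {s : X → ℂ} (hs : Reg2 ∞ 0 s) (c : ℂ) :
    del02 (c • s) = c • del02 s := by
  unfold del02
  rw [cj0_smul, dbar0_smul (r2cj hs), cj1_smul, Complex.conj_conj]

theorem dbar11_add {s t : X → Matrix (Fin 2) (Fin 2) ℂ} (hs : Reg11 ∞ s) (ht : Reg11 ∞ t) :
    dbar11 (s + t) = dbar11 s + dbar11 t := by
  unfold dbar11
  rw [cj11_add, del11_add (r11cj hs) (r11cj ht), cj1_add]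

theorem dbar11_smul {s : X → Matrix (Fin 2) (Fin 2) ℂ} (hs : Reg11 ∞ s) (c : ℂ) :
    dbar11 (c • s) = c • dbar11 s := by
  unfold dbar11
  rw [cj11_smul, del11_smul (r11cj hs), cj1_smul, Complex.conj_conj]

theorem reg_del02 {s : X → ℂ} (hs : Reg2 ∞ 0 s) : del02 s ∈ S12 X := by
  rw [mem_S12, del02, cj1_cj1]; exact reg_dbar0 (r2cj hs)

theorem reg_dbar11 {s : X → Matrix (Fin 2) (Fin 2) ℂ} (hs : Reg11 ∞ s) : dbar11 s ∈ S12 X := by
  rw [mem_S12, dbar11, cj1_cj1]; exact reg_del11 (r11cj hs)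

/-- `∂` on `(0,2)`-forms -/
def del02L : S02 X →ₗ[ℂ] S12 X where
  toFun s := ⟨del02 s, reg_del02 s.2⟩
  map_add' s t := Subtype.ext (del02_add s.2 t.2)
  map_smul' c s := Subtype.ext (del02_smul s.2 c)

/-- `∂̄` on `(1,1)`-forms -/
def dbar11L : S11 X →ₗ[ℂ] S12 X where
  toFun s := ⟨dbar11 s, reg_dbar11 s.2⟩
  map_add' s t := Subtype.ext (dbar11_add s.2 t.2)
  map_smul' c s := Subtype.ext (dbar11_smul s.2 c)

theorem d12_eq (F : TwoF X) : F.d12 = dbar11 F.f11 + del02 F.f02 := by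
  have h := d21_cj F
  have h2 := congrArg cj1 h
  rw [cj1_cj1] at h2
  rw [← h2, dbar11, del02, ← cj1_add, add_comm]
  rfl

theorem d21_eq' (F : TwoF X) : F.d21 = dbar0 1 F.f20 + del11 F.f11 := rfl

variable (X) in
/-- smooth one-forms -/
abbrev Om1 : Type _ := S10 X × S01 X
variable (X) in
/-- smooth two-forms -/
abbrev Om2 : Type _ := S20 X × S11 X × S02 X
variable (X) in
/-- smooth three-forms -/
abbrev Om3 : Type _ := S21 X × S12 X

/-- exterior derivative of functions -/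
def D0 : S0 X →ₗ[ℂ] Om1 X := del0L.prod dbar0L

/-- exterior derivative of one-forms -/
def D1 : Om1 X →ₗ[ℂ] Om2 X :=
  (del10L.comp (LinearMap.fst ℂ _ _)).prod
    ((del1L.comp (LinearMap.snd ℂ _ _) + dbar10L.comp (LinearMap.fst ℂ _ _)).prod
      (dbar1L.comp (LinearMap.snd ℂ _ _)))

/-- exterior derivative of two-forms -/
def D2 : Om2 X →ₗ[ℂ] Om3 X :=
  (dbar20L.comp (LinearMap.fst ℂ _ _) +
      del11L.comp ((LinearMap.fst ℂ _ _).comp (LinearMap.snd ℂ _ _))).prod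
    (dbar11L.comp ((LinearMap.fst ℂ _ _).comp (LinearMap.snd ℂ _ _)) +
      del02L.comp ((LinearMap.snd ℂ _ _).comp (LinearMap.snd ℂ _ _)))

theorem D0_fst (s : S0 X) : ((D0 s).1 : X → Fin 2 → ℂ) = del0 s := rfl
theorem D0_snd (s : S0 X) : ((D0 s).2 : X → Fin 2 → ℂ) = dbar0 0 s := rfl
theorem D1_fst (A : Om1 X) : ((D1 A).1 : X → ℂ) = del10 A.1 := rfl
theorem D1_snd (A : Om1 X) : ((D1 A).2.1 : X → Matrix (Fin 2) (Fin 2) ℂ) =
    del1 A.2 + dbar10 A.1 := rfl
theorem D1_trd (A : Om1 X) : ((D1 A).2.2 : X → ℂ) = dbar1 0 A.2 := rfl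
theorem D2_fst (F : Om2 X) : ((D2 F).1 : X → Fin 2 → ℂ) = dbar0 1 F.1 + del11 F.2.1 := rfl
theorem D2_snd (F : Om2 X) : ((D2 F).2 : X → Fin 2 → ℂ) = dbar11 F.2.1 + del02 F.2.2 := rfl

theorem D1_D0 (s : S0 X) : D1 (D0 s) = 0 := by
  refine Prod.ext (Subtype.ext ?_) (Prod.ext (Subtype.ext ?_) (Subtype.ext ?_))
  · exact del10_del0 s.2
  · exact del1_dbar0 s.2
  · exact dbar1_dbar0 s.2

theorem d_aux {c a : X → Fin 2 → ℂ} (hc : Reg10 ∞ c) (ha : Reg1 ∞ 0 a) :
    dbar0 1 (del10 c) + del11 (del1 a + dbar10 c) = 0 := by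
  rw [del11_add (reg_del1 ha) (reg_dbar10 hc), del11_del1 ha, zero_add, dbar0_del10 hc]

theorem D2_D1 (A : Om1 X) : D2 (D1 A) = 0 := by
  refine Prod.ext (Subtype.ext ?_) (Subtype.ext ?_)
  · exact d_aux A.1.2 A.2.2
  · change dbar11 (del1 (A.2 : X → Fin 2 → ℂ) + dbar10 (A.1 : X → Fin 2 → ℂ)) +
      del02 (dbar1 0 (A.2 : X → Fin 2 → ℂ)) = 0
    unfold dbar11 del02
    rw [cj11_add, ← del10_cj, ← del1_cj, ← dbar10_cj, ← cj1_add, add_comm (dbar10 _),
      add_comm (del11 _), d_aux (r1cj A.2.2) (r10cj A.1.2)]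
    funext x i; simp [cj1]

/-! ### wedge products -/

/-- a triple as a `TwoF` -/
def toF (F : Om2 X) : TwoF X := ⟨F.1, F.2.1, F.2.2⟩

theorem toF_smooth (F : Om2 X) : (toF F).Smooth := ⟨F.1.2, F.2.1.2, F.2.2.2⟩

/-- components in a chart -/
theorem loc2_wedge (e : Ch X) (F G : TwoF X) (z : C2) : loc2 1 e (F.wedge G) z =
    loc0 1 e F.f20 z * loc2 0 e G.f02 z + loc2 0 e F.f02 z * loc0 1 e G.f20 z -
      (loc11 e F.f11 z 0 0 * loc11 e G.f11 z 1 1 + loc11 e F.f11 z 1 1 * loc11 e G.f11 z 0 0 -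
      loc11 e F.f11 z 0 1 * loc11 e G.f11 z 1 0 - loc11 e F.f11 z 1 0 * loc11 e G.f11 z 0 1) := by
  unfold loc2 loc0 loc11 TwoF.wedge
  simp only [Matrix.of_apply, Fin.sum_univ_two, smul_eq_mul, zpow_one, zpow_zero, one_mul,
    Matrix.det_fin_two, map_sub, map_mul]
  ring

theorem wedge_mem {F G : TwoF X} (hF : F.Smooth) (hG : G.Smooth) : F.wedge G ∈ S22 X := by
  intro e he
  refine ContDiffOn.congr ?_ fun z _ => loc2_wedge e F G z
  exact (((hF.s20 e he).mul (hG.s02 e he)).add ((hF.s02 e he).mul (hG.s20 e he))).sub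
    (((((hF.s11 e he 0 0).mul (hG.s11 e he 1 1)).add
      ((hF.s11 e he 1 1).mul (hG.s11 e he 0 0))).sub
      ((hF.s11 e he 0 1).mul (hG.s11 e he 1 0))).sub
      ((hF.s11 e he 1 0).mul (hG.s11 e he 0 1)))

/-- `A ∧ T` for a one-form `A = (c, a)` and a three-form `T = (t21, t12)` -/
def w13 (c a t21 t12 : X → Fin 2 → ℂ) (x : X) : ℂ :=
  c x 0 * t12 x 1 - c x 1 * t12 x 0 + (a x 0 * t21 x 1 - a x 1 * t21 x 0)

theorem loc2_w13 (e : Ch X) (c a t21 t12 : X → Fin 2 → ℂ) (z : C2) :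
    loc2 1 e (w13 c a t21 t12) z =
      loc10 e c z 0 * conj (loc1 1 e (cj1 t12) z 1) - loc10 e c z 1 * conj (loc1 1 e (cj1 t12) z 0) +
      (loc1 0 e a z 0 * loc1 1 e t21 z 1 - loc1 0 e a z 1 * loc1 1 e t21 z 0) := by
  unfold loc2 loc10 loc1 w13 cj1
  simp only [Fin.sum_univ_two, smul_eq_mul, zpow_one, zpow_zero, one_mul,
    Matrix.det_fin_two, map_sub, map_mul, map_add, Complex.conj_conj]
  ring

theorem w13_mem {c a t21 t12 : X → Fin 2 → ℂ} (hc : Reg10 ∞ c) (ha : Reg1 ∞ 0 a)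
    (h21 : Reg1 ∞ 1 t21) (h12 : Reg1 ∞ 1 (cj1 t12)) : w13 c a t21 t12 ∈ S22 X := by
  intro e he
  refine ContDiffOn.congr ?_ fun z _ => loc2_w13 e c a t21 t12 z
  have h1 := contDiffOn_pi.1 (hc e he)
  have h2 := contDiffOn_pi.1 (ha e he)
  have h3 := contDiffOn_pi.1 (h21 e he)
  have h4 := contDiffOn_pi.1 (h12 e he)
  exact (((h1 0).mul (conj_contDiffOn (h4 1))).sub ((h1 1).mul (conj_contDiffOn (h4 0)))).add
    (((h2 0).mul (h3 1)).sub ((h2 1).mul (h3 0)))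

/-! ### Leibniz -/

theorem dz_mul' {f g : C2 → ℂ} {z : C2} (j : Fin 2) (hf : DifferentiableAt ℝ f z)
    (hg : DifferentiableAt ℝ g z) :
    dz j (fun w => f w * g w) z = dz j f z * g z + f z * dz j g z := dz_smul j hf hg

theorem dzb_mul' {f g : C2 → ℂ} {z : C2} (j : Fin 2) (hf : DifferentiableAt ℝ f z)
    (hg : DifferentiableAt ℝ g z) :
    dzb j (fun w => f w * g w) z = dzb j f z * g z + f z * dzb j g z := dzb_smul j hf hg

/-- the `(2,1)`-part of `A ∧ F` -/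
def t21 (c a : X → Fin 2 → ℂ) (F : TwoF X) (x : X) (j : Fin 2) : ℂ :=
  c x 0 * F.f11 x 1 j - c x 1 * F.f11 x 0 j + a x j * F.f20 x
/-- the conjugate of the `(1,2)`-part of `A ∧ F` -/
def t12c (c a : X → Fin 2 → ℂ) (F : TwoF X) : X → Fin 2 → ℂ :=
  t21 (cj1 a) (cj1 c) (cjF F)

theorem loc1_t21 (e : Ch X) (c a : X → Fin 2 → ℂ) (F : TwoF X) (z : C2) (j : Fin 2) :
    loc1 1 e (t21 c a F) z j = loc10 e c z 0 * loc11 e F.f11 z 1 j -
      loc10 e c z 1 * loc11 e F.f11 z 0 j + loc1 0 e a z j * loc0 1 e F.f20 z := by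
  unfold loc1 loc10 loc11 loc0 t21
  simp only [Fin.sum_univ_two, smul_eq_mul, zpow_one, zpow_zero, one_mul,
    Matrix.det_fin_two, Matrix.of_apply]
  ring

theorem t21_mem {c a : X → Fin 2 → ℂ} {F : TwoF X} (hc : Reg10 ∞ c) (ha : Reg1 ∞ 0 a)
    (h20 : Reg0 ∞ 1 F.f20) (h11 : Reg11 ∞ F.f11) : Reg1 ∞ 1 (t21 c a F) := by
  intro e he
  rw [contDiffOn_pi]
  intro j
  refine ContDiffOn.congr ?_ fun z _ => loc1_t21 e c a F z j
  have h1 := contDiffOn_pi.1 (hc e he)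
  have h2 := contDiffOn_pi.1 (ha e he)
  exact (((h1 0).mul (h11 e he 1 j)).sub ((h1 1).mul (h11 e he 0 j))).add
    ((h2 j).mul (h20 e he))

/-- `∂̄` of the `(2,1)`-part of `A ∧ F` -/
theorem dbar1_t21 {c a : X → Fin 2 → ℂ} {F : TwoF X} (hc : Reg10 ∞ c) (ha : Reg1 ∞ 0 a)
    (h20 : Reg0 ∞ 1 F.f20) (h11 : Reg11 ∞ F.f11) (x : X) :
    dbar1 1 (t21 c a F) x =
      (dzb 0 (fun z => loc10 (chartAt C2 x) c z 0) (chartAt C2 x x) * F.f11 x 1 1 +
        c x 0 * dzb 0 (fun z => loc11 (chartAt C2 x) F.f11 z 1 1) (chartAt C2 x x) -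
      (dzb 0 (fun z => loc10 (chartAt C2 x) c z 1) (chartAt C2 x x) * F.f11 x 0 1 +
        c x 1 * dzb 0 (fun z => loc11 (chartAt C2 x) F.f11 z 0 1) (chartAt C2 x x)) +
      (dzb 0 (fun z => loc1 0 (chartAt C2 x) a z 1) (chartAt C2 x x) * F.f20 x +
        a x 1 * dzb 0 (loc0 1 (chartAt C2 x) F.f20) (chartAt C2 x x))) -
      (dzb 1 (fun z => loc10 (chartAt C2 x) c z 0) (chartAt C2 x x) * F.f11 x 1 0 +
        c x 0 * dzb 1 (fun z => loc11 (chartAt C2 x) F.f11 z 1 0) (chartAt C2 x x) -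
      (dzb 1 (fun z => loc10 (chartAt C2 x) c z 1) (chartAt C2 x x) * F.f11 x 0 0 +
        c x 1 * dzb 1 (fun z => loc11 (chartAt C2 x) F.f11 z 0 0) (chartAt C2 x x)) +
      (dzb 1 (fun z => loc1 0 (chartAt C2 x) a z 0) (chartAt C2 x x) * F.f20 x +
        a x 0 * dzb 1 (loc0 1 (chartAt C2 x) F.f20) (chartAt C2 x x))) := by
  have key : ∀ k j, dzb k (fun z => loc1 1 (chartAt C2 x) (t21 c a F) z j) (chartAt C2 x x) =
      dzb k (fun z => loc10 (chartAt C2 x) c z 0) (chartAt C2 x x) * F.f11 x 1 j +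
        c x 0 * dzb k (fun z => loc11 (chartAt C2 x) F.f11 z 1 j) (chartAt C2 x x) -
      (dzb k (fun z => loc10 (chartAt C2 x) c z 1) (chartAt C2 x x) * F.f11 x 0 j +
        c x 1 * dzb k (fun z => loc11 (chartAt C2 x) F.f11 z 0 j) (chartAt C2 x x)) +
      (dzb k (fun z => loc1 0 (chartAt C2 x) a z j) (chartAt C2 x x) * F.f20 x +
        a x j * dzb k (loc0 1 (chartAt C2 x) F.f20) (chartAt C2 x x)) := by
    intro k j
    have h : (fun z => loc1 1 (chartAt C2 x) (t21 c a F) z j) = fun z =>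
        loc10 (chartAt C2 x) c z 0 * loc11 (chartAt C2 x) F.f11 z 1 j -
        loc10 (chartAt C2 x) c z 1 * loc11 (chartAt C2 x) F.f11 z 0 j +
        loc1 0 (chartAt C2 x) a z j * loc0 1 (chartAt C2 x) F.f20 z := by
      funext z; exact loc1_t21 _ c a F z j
    have p1 : DifferentiableAt ℝ (fun z => loc10 (chartAt C2 x) c z 0 *
        loc11 (chartAt C2 x) F.f11 z 1 j) (chartAt C2 x x) := (d10at hc x 0).mul (d11at h11 x 1 j)
    have p2 : DifferentiableAt ℝ (fun z => loc10 (chartAt C2 x) c z 1 *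
        loc11 (chartAt C2 x) F.f11 z 0 j) (chartAt C2 x x) := (d10at hc x 1).mul (d11at h11 x 0 j)
    have p3 : DifferentiableAt ℝ (fun z => loc1 0 (chartAt C2 x) a z j *
        loc0 1 (chartAt C2 x) F.f20 z) (chartAt C2 x x) := (d1at ha x j).mul (d0at h20 x)
    have p12 : DifferentiableAt ℝ (fun z => loc10 (chartAt C2 x) c z 0 *
        loc11 (chartAt C2 x) F.f11 z 1 j - loc10 (chartAt C2 x) c z 1 *
        loc11 (chartAt C2 x) F.f11 z 0 j) (chartAt C2 x x) := p1.sub p2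
    rw [h, dzb_add k p12 p3, dzb_sub k p1 p2, dzb_mul' k (d10at hc x 0) (d11at h11 x 1 j),
      dzb_mul' k (d10at hc x 1) (d11at h11 x 0 j), dzb_mul' k (d1at ha x j) (d0at h20 x),
      loc10_at, loc10_at, loc11_at, loc11_at, loc1_at, loc0_at]
  unfold dbar1
  rw [key, key]

/-- Leibniz: `d(A ∧ F) = dA ∧ F - A ∧ dF` -/
theorem leibniz {c a : X → Fin 2 → ℂ} {F : TwoF X} (hc : Reg10 ∞ c) (ha : Reg1 ∞ 0 a)
    (hF : F.Smooth) (x : X) :
    TwoF.wedge (OneF.d ⟨c, a⟩) F x - w13 c a F.d21 F.d12 x =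
      dbar1 1 (t21 c a F) x + conj (dbar1 1 (t12c c a F) x) := by
  unfold t12c
  rw [dbar1_t21 hc ha hF.s20 hF.s11,
    dbar1_t21 (F := cjF F) (r1cj ha) (r10cj hc) (r2cj hF.s02) (r11cj hF.s11)]
  have e1 : ∀ k i, conj (dzb k (fun z => loc10 (chartAt C2 x) (cj1 a) z i) (chartAt C2 x x)) =
      dz k (fun z => loc1 0 (chartAt C2 x) a z i) (chartAt C2 x x) := by
    intro k i
    simp only [loc10_cj1]
    rw [dzb_conj, Complex.conj_conj]
  have e2 : ∀ k i, conj (dzb k (fun z => loc1 0 (chartAt C2 x) (cj1 c) z i) (chartAt C2 x x)) =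
      dz k (fun z => loc10 (chartAt C2 x) c z i) (chartAt C2 x x) := by
    intro k i
    simp only [loc1_cj1]
    rw [dzb_conj, Complex.conj_conj]
  have e3 : ∀ k i j, conj (dzb k (fun z => loc11 (chartAt C2 x) (cjF F).f11 z i j)
      (chartAt C2 x x)) = - dz k (fun z => loc11 (chartAt C2 x) F.f11 z j i) (chartAt C2 x x) := by
    intro k i j
    unfold cjF
    simp only [loc11_cj11]
    rw [dzb_neg, dzb_conj, map_neg, Complex.conj_conj]
  have e4 : ∀ k, conj (dzb k (loc0 1 (chartAt C2 x) (cjF F).f20) (chartAt C2 x x)) =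
      dz k (loc2 0 (chartAt C2 x) F.f02) (chartAt C2 x x) := by
    intro k
    have : loc0 1 (chartAt C2 x) (cjF F).f20 = fun z => conj (loc2 0 (chartAt C2 x) F.f02 z) := by
      funext z; exact loc0_cj0' _ _ _
    rw [this, dzb_conj, Complex.conj_conj]
  have e5 : ∀ i j, conj ((cjF F).f11 x i j) = - F.f11 x j i := by
    intro i j; simp [cjF, cj11]
  have e6 : conj ((cjF F).f20 x) = F.f02 x := by simp [cjF, cj0]
  have e7 : ∀ i, conj (cj1 a x i) = a x i := by intro i; simp [cj1]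
  have e8 : ∀ i, conj (cj1 c x i) = c x i := by intro i; simp [cj1]
  simp only [map_sub, map_add, map_mul, e1, e2, e3, e4, e5, e6, e7, e8]
  unfold TwoF.wedge OneF.d w13 TwoF.d21 TwoF.d12 del10 del1 dbar10 dbar1 dbar0
  simp only [Pi.add_apply, Matrix.add_apply, Matrix.of_apply]
  ring

end Vale.Agent.P267.H469
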