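import Vale.Agent.P267.H928.Int.FL
import Vale.Agent.P267.H469.Neg

/-! P267 / H469: the integral of smooth `(2,2)`-forms on a compact complex surface: linearity,
conjugation, strict positivity. -/

set_option linter.unusedSectionVars false

open scoped Manifold ContDiff ComplexConjugate Topology
open MeasureTheory Set

noncomputable section

namespace Vale.Agent.P267.H469

open Vale.Agent.P267.FL Vale.Agent.P267.H928
open Vale.Agent.P267.H928.Int (chg IsDens DCont DSupp Pou PosAtlas)

variable {X : Type*} [TopologicalSpace X] [ChartedSpace C2 X] [IsManifold 𝓘(ℂ, C2) ω X]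

section openpos

variable [T2Space X] [SigmaCompactSpace X] [MeasurableSpace X] [BorelSpace X]

theorem volX_pos {U : Set X} (hU : IsOpen U) (hne : U.Nonempty) : volX X U ≠ 0 := by
  haveI : IsManifold 𝓘(ℝ, C2) ∞ X := Int.isManifold_real
  haveI : PosAtlas C2 X := Int.posAtlas_complex
  obtain ⟨x, hx⟩ := hne
  intro h0
  have he := chart_mem_atlas C2 x
  set e := chartAt C2 x with hedef
  have h1 := (pou X).lintegral_meas_chart volume he (g := (U ∩ e.source).indicator fun _ => 1)
    (measurable_const.indicator (hU.measurableSet.inter e.open_source.measurableSet))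
    (fun x hx => indicator_of_notMem (fun h => hx h.2) _)
  rw [lintegral_indicator_const (hU.measurableSet.inter e.open_source.measurableSet),
    one_mul] at h1
  have h2 : (pou X).meas volume (U ∩ e.source) = 0 :=
    measure_mono_null inter_subset_left h0
  rw [h2] at h1
  set W : Set C2 := e.target ∩ e.symm ⁻¹' U with hW
  have hWo : IsOpen W := e.isOpen_inter_preimage_symm hU
  have hWne : W.Nonempty := ⟨e x, e.map_source (mem_chart_source C2 x), by
    simp only [mem_preimage]; rwa [e.left_inv (mem_chart_source C2 x)]⟩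
  have h3 : ∫⁻ z in W, ENNReal.ofReal ((pou X).w e z) = 0 := by
    refine le_antisymm ?_ zero_le
    have h4 : ∫⁻ z in W, ENNReal.ofReal ((pou X).w e z) ≤ ∫⁻ z in e.target,
        ENNReal.ofReal ((pou X).w e z) *
        (U ∩ e.source).indicator (fun _ => (1 : ENNReal)) (e.symm z) := by
      have h5 : ∫⁻ z in W, ENNReal.ofReal ((pou X).w e z) = ∫⁻ z in W,
          ENNReal.ofReal ((pou X).w e z) *
          (U ∩ e.source).indicator (fun _ => (1 : ENNReal)) (e.symm z) := by
        refine setLIntegral_congr_fun hWo.measurableSet fun z hz => ?_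
        have : e.symm z ∈ U ∩ e.source := ⟨hz.2, e.map_target hz.1⟩
        simp only [indicator_of_mem this, mul_one]
      rw [h5]
      exact lintegral_mono_set inter_subset_left
    exact h4.trans h1.symm.le
  have hm : AEMeasurable (fun z => ENNReal.ofReal ((pou X).w e z)) (volume.restrict W) :=
    ((pou X).aemeas_w volume he).mono_measure (Measure.restrict_mono inter_subset_left le_rfl)
  rw [setLIntegral_eq_zero_iff' hWo.measurableSet hm] at h3
  have h4 : (volume : Measure C2) W = 0 := by
    refine measure_mono_null (fun z hz => ?_) h3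
    simp only [mem_compl_iff, mem_setOf_eq, not_forall]
    refine ⟨hz, ?_⟩
    have := (pou X).w_pos he hz.1
    simpa [ENNReal.ofReal_eq_zero] using this
  exact (hWo.measure_pos volume hWne).ne' h4

instance : (volX X).IsOpenPosMeasure := ⟨fun _ hU hne => volX_pos hU hne⟩

end openpos

/-! ### compact surfaces -/

section cpt

variable [T2Space X] [CompactSpace X]

theorem integrable_S22 {b : X → ℂ} (h : b ∈ S22 X) : IntegrableX b :=
  integrableX_of_reg (fun e he => (h e he).of_le (by simp))
    (HasCompactSupport.of_compactSpace b)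

theorem intX_S22 {b : X → ℂ} (h : b ∈ S22 X) : intX b = intV b :=
  intX_eq_intV (integrable_S22 h) (HasCompactSupport.of_compactSpace b)

theorem intX_add {a b : X → ℂ} (ha : a ∈ S22 X) (hb : b ∈ S22 X) :
    intX (a + b) = intX a + intX b := by
  rw [intX_S22 ha, intX_S22 hb, intX_S22 ((S22 X).add_mem ha hb),
    intV_add (integrable_S22 ha) (integrable_S22 hb)]

theorem intX_smul (c : ℂ) {a : X → ℂ} (ha : a ∈ S22 X) :
    intX (c • a) = c * intX a := by
  rw [intX_S22 ha, intX_S22 ((S22 X).smul_mem c ha), intV_smul]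
  rfl

theorem S22_conj {a : X → ℂ} (ha : a ∈ S22 X) : (fun x => conj (a x)) ∈ S22 X := by
  intro e he
  have h : loc2 1 e (fun x => conj (a x)) = fun z => conj (loc2 1 e a z) := by
    funext z
    simp only [loc2, smul_eq_mul, zpow_one, map_mul, Complex.conj_conj]
    ring
  rw [h]
  exact conj_contDiffOn (ha e he)

theorem intX_conj {a : X → ℂ} (ha : a ∈ S22 X) :
    intX (fun x => conj (a x)) = conj (intX a) := by
  rw [intX_S22 ha, intX_S22 (S22_conj ha), intV_conj]

/-- integration of smooth `(2,2)`-forms -/
def intL : S22 X →ₗ[ℂ] ℂ where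
  toFun b := intX (b : X → ℂ)
  map_add' a b := intX_add a.2 b.2
  map_smul' c a := intX_smul c a.2

/-- strict positivity -/
theorem intX_neg {b : X → ℂ} (h : b ∈ S22 X) (hb : ∀ x, (b x).re ≤ 0) : (intX b).re ≤ 0 ∧
    (0 ≤ (intX b).re → ∀ x, (b x).re = 0) := by
  letI : MeasurableSpace X := borel X
  haveI : BorelSpace X := ⟨rfl⟩
  have hc : Continuous (quoX b) := continuous_quoX fun e he => (h e he).of_le (by simp)
  have hi : Integrable (quoX b) (volX X) := integrable_S22 h
  have h1 : (intX b).re = 4 * ∫ x, (quoX b x).re ∂(volX X) := by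
    have h2 : ∫ x, (quoX b x).re ∂(volX X) = (∫ x, quoX b x ∂(volX X)).re :=
      integral_re hi
    rw [intX_S22 h, h2]
    unfold intV
    rw [Complex.real_smul, Complex.re_ofReal_mul]
  have h3 : ∀ x, (quoX b x).re = (wX x)⁻¹ * (b x).re := by
    intro x
    rw [quoX_apply, Complex.real_smul, Complex.re_ofReal_mul]
  have h4 : ∀ x, (quoX b x).re ≤ 0 := by
    intro x
    rw [h3]
    exact mul_nonpos_of_nonneg_of_nonpos (inv_nonneg.2 (wX_pos x).le) (hb x)
  have h5 : ∫ x, (quoX b x).re ∂(volX X) ≤ 0 := integral_nonpos h4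
  refine ⟨by rw [h1]; linarith, fun h6 x => ?_⟩
  rw [h1] at h6
  have h7 : ∫ x, -(quoX b x).re ∂(volX X) = 0 := by
    rw [integral_neg]; linarith
  have h8 := (integral_eq_zero_iff_of_nonneg (μ := volX X) (f := fun x => -(quoX b x).re)
    (fun x => by simpa using h4 x) hi.re.neg).1 h7
  have h9 : (fun x => -(quoX b x).re) = fun _ => (0 : ℝ) :=
    (Continuous.ae_eq_iff_eq (volX X) (Complex.continuous_re.comp hc).neg continuous_const).1 h8
  have h10 := congrFun h9 x
  simp only [h3, neg_eq_zero, mul_eq_zero, inv_eq_zero] at h10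
  exact h10.resolve_left (wX_pos x).ne'

end cpt

end Vale.Agent.P267.H469
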