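import Vale.Agent.P267.H469.Wirt2

/-! P267 / H469: transformation laws of the components of forms and of the operators
`∂, ∂̄` (definitions of H399.Defs). -/

set_option linter.unusedSectionVars false

open scoped Manifold ContDiff ComplexConjugate Topology
open MeasureTheory Set

noncomputable section

namespace Vale.Agent.P267.H469

open Vale.Agent.P267.FL

variable {X : Type*} [TopologicalSpace X] [ChartedSpace C2 X] [IsManifold 𝓘(ℂ, C2) ω X]
variable {V : Type*} [NormedAddCommGroup V] [NormedSpace ℂ V]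

/-- the Jacobian matrix of the change of charts -/
def JM (e e' : Ch X) (w : C2) : Matrix (Fin 2) (Fin 2) ℂ := Matrix.of fun p i => J e e' p i w

theorem JM_apply (e e' : Ch X) (w : C2) (p i : Fin 2) : JM e e' w p i = J e e' p i w := rfl

theorem jacM_eq_JM {e e' : Ch X} {w : C2} (hw : w ∈ e.target) :
    jacM e e' (e.symm w) = JM e e' w := by
  ext p i; exact jacM_eq hw p i

theorem JM_self {e : Ch X} {w : C2} (hw : w ∈ e.target) : JM e e w = 1 := by
  ext p i
  rw [JM_apply]
  unfold J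
  have h : (fun v => tr e e v p) =ᶠ[𝓝 w] fun v => v p := by
    filter_upwards [e.open_target.mem_nhds hw] with v hv
    unfold tr
    rw [e.right_inv hv]
  rw [dz_congr h]
  have hd : DifferentiableAt ℂ (fun v : C2 => v p) w := differentiableAt_apply _ _
  rw [dz_hol hd]
  have h2 : fderiv ℂ (fun v : C2 => v p) w = ContinuousLinearMap.proj p :=
    (ContinuousLinearMap.proj (R := ℂ) (φ := fun _ : Fin 2 => ℂ) p).fderiv
  rw [h2, ContinuousLinearMap.proj_apply, Matrix.one_apply]
  by_cases h3 : p = i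
  · subst h3; simp [ev]
  · rw [if_neg h3]; unfold ev; rw [Pi.single_eq_of_ne h3]

theorem jac_trans {e e' : Ch X} (he : e ∈ atlas C2 X) (he' : e' ∈ atlas C2 X) {w : C2}
    (hw : w ∈ ov e e') : jac e (e.symm w) = jac e' (e.symm w) * JM e e' w := by
  unfold jac
  rw [jacM_cocycle he he' (chart_mem_atlas C2 _) hw (mem_chart_source C2 _), jacM_eq_JM hw.1]

theorem jac_chartAt (x : X) : jac (chartAt C2 x) x = 1 := by
  have h := jacM_eq_JM (e := chartAt C2 x) (e' := chartAt C2 x)
    ((chartAt C2 x).map_source (mem_chart_source C2 x))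
  rw [(chartAt C2 x).left_inv (mem_chart_source C2 x),
    JM_self ((chartAt C2 x).map_source (mem_chart_source C2 x))] at h
  exact h

theorem symm_tr {e e' : Ch X} {w : C2} (hw : w ∈ ov e e') : e'.symm (tr e e' w) = e.symm w :=
  e'.left_inv hw.2

theorem tr_mem {e e' : Ch X} {w : C2} (hw : w ∈ ov e e') : tr e e' w ∈ e'.target :=
  e'.map_source hw.2

theorem tr_ov {e e' : Ch X} {w : C2} (hw : w ∈ ov e e') : tr e e' w ∈ ov e' e :=
  ⟨tr_mem hw, by change e'.symm (tr e e' w) ∈ e.source; rw [symm_tr hw]; exact e.map_target hw.1⟩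

theorem JM_inv {e e' : Ch X} (he : e ∈ atlas C2 X) (he' : e' ∈ atlas C2 X) {w : C2}
    (hw : w ∈ ov e e') : JM e' e (tr e e' w) * JM e e' w = 1 := by
  have h := JM_self (e := e) hw.1
  rw [← h]
  ext p i
  rw [Matrix.mul_apply]
  exact (J_cocycle he he' he hw (tr_ov hw) p i).symm

theorem det_JM_ne {e e' : Ch X} (he : e ∈ atlas C2 X) (he' : e' ∈ atlas C2 X) {w : C2}
    (hw : w ∈ ov e e') : (JM e e' w).det ≠ 0 := by
  intro h
  have h2 := congrArg Matrix.det (JM_inv he he' hw)
  rw [Matrix.det_mul, h, mul_zero, Matrix.det_one] at h2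
  exact zero_ne_one h2

/-! ### laws for components -/

theorem loc0_tr {e e' : Ch X} (he : e ∈ atlas C2 X) (he' : e' ∈ atlas C2 X) {w : C2}
    (hw : w ∈ ov e e') (κ : ℤ) (s : X → V) :
    loc0 κ e s w = (JM e e' w).det ^ κ • loc0 κ e' s (tr e e' w) := by
  unfold loc0
  rw [symm_tr hw, jac_trans he he' hw, Matrix.det_mul, mul_zpow, smul_smul, mul_comm]

theorem loc2_tr {e e' : Ch X} (he : e ∈ atlas C2 X) (he' : e' ∈ atlas C2 X) {w : C2}
    (hw : w ∈ ov e e') (κ : ℤ) (s : X → V) :
    loc2 κ e s w = ((JM e e' w).det ^ κ * conj (JM e e' w).det) • loc2 κ e' s (tr e e' w) := by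
  unfold loc2
  rw [symm_tr hw, jac_trans he he' hw, Matrix.det_mul, mul_zpow, map_mul]
  simp only [smul_smul]
  congr 1
  ring

theorem loc1_tr {e e' : Ch X} (he : e ∈ atlas C2 X) (he' : e' ∈ atlas C2 X) {w : C2}
    (hw : w ∈ ov e e') (κ : ℤ) (a : X → Fin 2 → V) (i : Fin 2) :
    loc1 κ e a w i = (JM e e' w).det ^ κ •
      ∑ p, conj (J e e' p i w) • loc1 κ e' a (tr e e' w) p := by
  unfold loc1
  rw [symm_tr hw, jac_trans he he' hw, Matrix.det_mul, mul_zpow]
  simp only [Matrix.mul_apply, Fin.sum_univ_two, JM_apply, map_add, map_mul]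
  module

theorem loc10_tr {e e' : Ch X} (he : e ∈ atlas C2 X) (he' : e' ∈ atlas C2 X) {w : C2}
    (hw : w ∈ ov e e') (c : X → Fin 2 → V) (i : Fin 2) :
    loc10 e c w i = ∑ p, J e e' p i w • loc10 e' c (tr e e' w) p := by
  unfold loc10
  rw [symm_tr hw, jac_trans he he' hw]
  simp only [Matrix.mul_apply, Fin.sum_univ_two, JM_apply]
  module

theorem loc11_tr {e e' : Ch X} (he : e ∈ atlas C2 X) (he' : e' ∈ atlas C2 X) {w : C2}
    (hw : w ∈ ov e e') (g : X → Matrix (Fin 2) (Fin 2) V) (i j : Fin 2) :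
    loc11 e g w i j = ∑ p, ∑ q, (J e e' p i w * conj (J e e' q j w)) •
      loc11 e' g (tr e e' w) p q := by
  unfold loc11
  simp only [Matrix.of_apply]
  rw [symm_tr hw, jac_trans he he' hw]
  simp only [Matrix.mul_apply, Fin.sum_univ_two, JM_apply, map_add, map_mul]
  module

/-! ### components at the centre of the preferred chart -/

theorem loc0_at (κ : ℤ) (s : X → V) (x : X) :
    loc0 κ (chartAt C2 x) s (chartAt C2 x x) = s x := by
  unfold loc0
  rw [(chartAt C2 x).left_inv (mem_chart_source C2 x), jac_chartAt, Matrix.det_one, one_zpow,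
    one_smul]

theorem loc2_at (κ : ℤ) (s : X → V) (x : X) :
    loc2 κ (chartAt C2 x) s (chartAt C2 x x) = s x := by
  unfold loc2
  rw [(chartAt C2 x).left_inv (mem_chart_source C2 x), jac_chartAt, Matrix.det_one, one_zpow,
    one_smul, map_one, one_smul]

theorem loc1_at (κ : ℤ) (a : X → Fin 2 → V) (x : X) (i : Fin 2) :
    loc1 κ (chartAt C2 x) a (chartAt C2 x x) i = a x i := by
  unfold loc1
  rw [(chartAt C2 x).left_inv (mem_chart_source C2 x), jac_chartAt, Matrix.det_one, one_zpow,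
    one_smul]
  simp [Matrix.one_apply]

theorem loc10_at (c : X → Fin 2 → V) (x : X) (i : Fin 2) :
    loc10 (chartAt C2 x) c (chartAt C2 x x) i = c x i := by
  unfold loc10
  rw [(chartAt C2 x).left_inv (mem_chart_source C2 x), jac_chartAt]
  simp [Matrix.one_apply]

theorem loc11_at (g : X → Matrix (Fin 2) (Fin 2) V) (x : X) (i j : Fin 2) :
    loc11 (chartAt C2 x) g (chartAt C2 x x) i j = g x i j := by
  unfold loc11
  rw [(chartAt C2 x).left_inv (mem_chart_source C2 x), jac_chartAt]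
  simp [Matrix.one_apply]

/-! ### laws for operators -/

/-- the point `x` of the chart domain seen in its preferred chart -/
theorem mem_ov_chartAt {e : Ch X} {w : C2} (hw : w ∈ e.target) :
    w ∈ ov e (chartAt C2 (e.symm w)) := ⟨hw, mem_chart_source C2 _⟩

theorem real_tr {e e' : Ch X} (he : e ∈ atlas C2 X) (he' : e' ∈ atlas C2 X) {w : C2}
    (hw : w ∈ ov e e') : DifferentiableAt ℝ (tr e e') w := (tr_diff he he' hw).restrictScalars ℝ

/-- derivative of a product `c(v) • G(tr v)`, `c` holomorphic -/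
theorem dz_hol_smul_comp {e e' : Ch X} (he : e ∈ atlas C2 X) (he' : e' ∈ atlas C2 X) {w : C2}
    (hw : w ∈ ov e e') {c : C2 → ℂ} (hc : DifferentiableAt ℝ c w) {G : C2 → V}
    (hG : DifferentiableAt ℝ G (tr e e' w)) (j : Fin 2) :
    dz j (fun v => c v • G (tr e e' v)) w =
      dz j c w • G (tr e e' w) + c w • ∑ q, J e e' q j w • dz q G (tr e e' w) := by
  have h1 : DifferentiableAt ℝ (fun v => G (tr e e' v)) w := hG.comp w (real_tr he he' hw)
  rw [dz_smul j hc h1, dz_comp hG (tr_diff he he' hw)]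
  rfl

theorem dzb_hol_smul_comp {e e' : Ch X} (he : e ∈ atlas C2 X) (he' : e' ∈ atlas C2 X) {w : C2}
    (hw : w ∈ ov e e') {c : C2 → ℂ} (hc : DifferentiableAt ℝ c w) {G : C2 → V}
    (hG : DifferentiableAt ℝ G (tr e e' w)) (j : Fin 2) :
    dzb j (fun v => c v • G (tr e e' v)) w =
      dzb j c w • G (tr e e' w) + c w • ∑ q, conj (J e e' q j w) • dzb q G (tr e e' w) := by
  have h1 : DifferentiableAt ℝ (fun v => G (tr e e' v)) w := hG.comp w (real_tr he he' hw)
  rw [dzb_smul j hc h1, dzb_comp hG (tr_diff he he' hw)]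
  rfl

theorem diff_smul_comp {e e' : Ch X} (he : e ∈ atlas C2 X) (he' : e' ∈ atlas C2 X) {w : C2}
    (hw : w ∈ ov e e') {c : C2 → ℂ} (hc : DifferentiableAt ℝ c w) {G : C2 → V}
    (hG : DifferentiableAt ℝ G (tr e e' w)) :
    DifferentiableAt ℝ (fun v => c v • G (tr e e' v)) w :=
  hc.smul (hG.comp w (real_tr he he' hw))

theorem J_diffR {e e' : Ch X} (he : e ∈ atlas C2 X) (he' : e' ∈ atlas C2 X) {w : C2}
    (hw : w ∈ ov e e') (p i : Fin 2) : DifferentiableAt ℝ (J e e' p i) w :=
  (J_diff he he' hw p i).restrictScalars ℝ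

theorem conj_diff {c : C2 → ℂ} {w : C2} (hc : DifferentiableAt ℝ c w) :
    DifferentiableAt ℝ (fun v => conj (c v)) w :=
  Complex.conjCLE.differentiableAt.comp w hc

/-- differentiability of components on the target of a chart -/
theorem diffAt_of {e : Ch X} {f : C2 → V} {w : C2} (hf : ContDiffOn ℝ 1 f e.target)
    (hw : w ∈ e.target) : DifferentiableAt ℝ f w :=
  (hf.contDiffAt (e.open_target.mem_nhds hw)).differentiableAt (by simp)

theorem del0_law {s : X → V} (hs : Reg0 1 0 s) {e : Ch X} (he : e ∈ atlas C2 X) {w : C2}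
    (hw : w ∈ e.target) (i : Fin 2) :
    loc10 e (del0 s) w i = dz i (fun v => s (e.symm v)) w := by
  set e' := chartAt C2 (e.symm w) with he'd
  have he' : e' ∈ atlas C2 X := chart_mem_atlas C2 _
  have hov : w ∈ ov e e' := mem_ov_chartAt hw
  have h1 : (fun v => s (e.symm v)) =ᶠ[𝓝 w] fun v => s (e'.symm (tr e e' v)) := by
    filter_upwards [ov_nhds hov] with v hv
    rw [symm_tr hv]
  have hG : DifferentiableAt ℝ (fun v => s (e'.symm v)) (tr e e' w) := by
    have := hs e' he'
    unfold loc0 at this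
    simp only [zpow_zero, one_smul] at this
    exact diffAt_of this (tr_mem hov)
  rw [dz_congr h1, dz_comp hG (tr_diff he he' hov)]
  unfold loc10 del0
  refine Finset.sum_congr rfl fun p _ => ?_
  rw [← he'd]
  unfold jac
  rw [← he'd, jacM_eq hw]
  rfl

theorem loc10_near {e e' : Ch X} (he : e ∈ atlas C2 X) (he' : e' ∈ atlas C2 X) {w : C2}
    (hw : w ∈ ov e e') (c : X → Fin 2 → V) (i : Fin 2) :
    (fun v => loc10 e c v i) =ᶠ[𝓝 w]
      fun v => ∑ p, J e e' p i v • (fun u => loc10 e' c u p) (tr e e' v) := by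
  filter_upwards [ov_nhds hw] with v hv
  exact loc10_tr he he' hv c i

theorem del10_law {c : X → Fin 2 → ℂ} (hc : Reg10 1 c) {e : Ch X} (he : e ∈ atlas C2 X) {w : C2}
    (hw : w ∈ e.target) :
    loc0 1 e (del10 c) w = dz 0 (fun v => loc10 e c v 1) w - dz 1 (fun v => loc10 e c v 0) w := by
  set e' := chartAt C2 (e.symm w) with he'd
  have he' : e' ∈ atlas C2 X := chart_mem_atlas C2 _
  have hov : w ∈ ov e e' := mem_ov_chartAt hw
  have hG : ∀ p, DifferentiableAt ℝ (fun u => loc10 e' c u p) (tr e e' w) := fun p =>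
    diffAt_of ((contDiffOn_pi.1 (hc e' he')) p) (tr_mem hov)
  have key : ∀ j i, dz j (fun v => loc10 e c v i) w = ∑ p, (dz j (J e e' p i) w •
      loc10 e' c (tr e e' w) p + J e e' p i w • ∑ q, J e e' q j w •
        dz q (fun u => loc10 e' c u p) (tr e e' w)) := by
    intro j i
    rw [dz_congr (loc10_near he he' hov c i), dz_sum j _ (fun p _ =>
      diff_smul_comp he he' hov (J_diffR he he' hov p i) (hG p))]
    refine Finset.sum_congr rfl fun p _ => ?_
    rw [dz_hol_smul_comp he he' hov (J_diffR he he' hov p i) (hG p)]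
  rw [key, key]
  unfold loc0 del10
  rw [← he'd]
  unfold jac
  rw [← he'd, jacM_eq_JM hw]
  have htr : e' (e.symm w) = tr e e' w := rfl
  rw [htr, zpow_one, Matrix.det_fin_two]
  simp only [JM_apply, Fin.sum_univ_two, smul_eq_mul]
  rw [dz_J_symm he he' hov 0 1 0, dz_J_symm he he' hov 1 1 0]
  ring

theorem loc1_near {e e' : Ch X} (he : e ∈ atlas C2 X) (he' : e' ∈ atlas C2 X) {w : C2}
    (hw : w ∈ ov e e') (a : X → Fin 2 → V) (i : Fin 2) :
    (fun v => loc1 0 e a v i) =ᶠ[𝓝 w]
      fun v => ∑ p, (conj (J e e' p i v)) • (fun u => loc1 0 e' a u p) (tr e e' v) := by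
  filter_upwards [ov_nhds hw] with v hv
  have := loc1_tr he he' hv 0 a i
  rw [zpow_zero, one_smul] at this
  exact this

theorem del1_law {a : X → Fin 2 → V} (ha : Reg1 1 0 a) {e : Ch X} (he : e ∈ atlas C2 X) {w : C2}
    (hw : w ∈ e.target) (i j : Fin 2) :
    loc11 e (del1 a) w i j = dz i (fun v => loc1 0 e a v j) w := by
  set e' := chartAt C2 (e.symm w) with he'd
  have he' : e' ∈ atlas C2 X := chart_mem_atlas C2 _
  have hov : w ∈ ov e e' := mem_ov_chartAt hw
  have hG : ∀ p, DifferentiableAt ℝ (fun u => loc1 0 e' a u p) (tr e e' w) := fun p =>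
    diffAt_of ((contDiffOn_pi.1 (ha e' he')) p) (tr_mem hov)
  rw [dz_congr (loc1_near he he' hov a j), dz_sum i _ (fun p _ =>
      diff_smul_comp he he' hov (conj_diff (J_diffR he he' hov p j)) (hG p))]
  have key : ∀ p, dz i (fun v => (conj (J e e' p j v)) • (fun u => loc1 0 e' a u p) (tr e e' v)) w
      = conj (J e e' p j w) • ∑ q, J e e' q i w • dz q (fun u => loc1 0 e' a u p) (tr e e' w) := by
    intro p
    rw [dz_hol_smul_comp he he' hov (conj_diff (J_diffR he he' hov p j)) (hG p),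
      dz_conj_J he he' hov, zero_smul, zero_add]
  simp only [key]
  unfold loc11 del1
  simp only [Matrix.of_apply]
  rw [← he'd]
  unfold jac
  rw [← he'd, jacM_eq_JM hw]
  have htr : e' (e.symm w) = tr e e' w := rfl
  rw [htr]
  simp only [JM_apply, Fin.sum_univ_two]
  module

theorem dbar10_law {c : X → Fin 2 → V} (hc : Reg10 1 c) {e : Ch X} (he : e ∈ atlas C2 X) {w : C2}
    (hw : w ∈ e.target) (i j : Fin 2) :
    loc11 e (dbar10 c) w i j = - dzb j (fun v => loc10 e c v i) w := by
  set e' := chartAt C2 (e.symm w) with he'd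
  have he' : e' ∈ atlas C2 X := chart_mem_atlas C2 _
  have hov : w ∈ ov e e' := mem_ov_chartAt hw
  have hG : ∀ p, DifferentiableAt ℝ (fun u => loc10 e' c u p) (tr e e' w) := fun p =>
    diffAt_of ((contDiffOn_pi.1 (hc e' he')) p) (tr_mem hov)
  rw [dzb_congr (loc10_near he he' hov c i), dzb_sum j _ (fun p _ =>
      diff_smul_comp he he' hov (J_diffR he he' hov p i) (hG p))]
  have key : ∀ p, dzb j (fun v => J e e' p i v • (fun u => loc10 e' c u p) (tr e e' v)) w
      = J e e' p i w • ∑ q, conj (J e e' q j w) •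
        dzb q (fun u => loc10 e' c u p) (tr e e' w) := by
    intro p
    rw [dzb_hol_smul_comp he he' hov (J_diffR he he' hov p i) (hG p),
      dzb_J he he' hov, zero_smul, zero_add]
  simp only [key]
  unfold loc11 dbar10
  simp only [Matrix.of_apply]
  rw [← he'd]
  unfold jac
  rw [← he'd, jacM_eq_JM hw]
  have htr : e' (e.symm w) = tr e e' w := rfl
  rw [htr]
  simp only [JM_apply, Fin.sum_univ_two]
  module

theorem det_JM_hol {e e' : Ch X} (he : e ∈ atlas C2 X) (he' : e' ∈ atlas C2 X) {w : C2}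
    (hw : w ∈ ov e e') (κ : ℤ) : DifferentiableAt ℂ (fun v => (JM e e' v).det ^ κ) w := by
  have h1 : DifferentiableAt ℂ (fun v => (JM e e' v).det) w := by
    simp only [Matrix.det_fin_two, JM_apply]
    exact ((J_diff he he' hw 0 0).mul (J_diff he he' hw 1 1)).sub
      ((J_diff he he' hw 0 1).mul (J_diff he he' hw 1 0))
  exact h1.zpow (Or.inl (det_JM_ne he he' hw))

theorem dbar0_law {κ : ℤ} {s : X → V} (hs : Reg0 1 κ s) {e : Ch X} (he : e ∈ atlas C2 X) {w : C2}
    (hw : w ∈ e.target) (i : Fin 2) :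
    loc1 κ e (dbar0 κ s) w i = dzb i (loc0 κ e s) w := by
  set e' := chartAt C2 (e.symm w) with he'd
  have he' : e' ∈ atlas C2 X := chart_mem_atlas C2 _
  have hov : w ∈ ov e e' := mem_ov_chartAt hw
  have hG : DifferentiableAt ℝ (loc0 κ e' s) (tr e e' w) := diffAt_of (hs e' he') (tr_mem hov)
  have h1 : loc0 κ e s =ᶠ[𝓝 w] fun v => (JM e e' v).det ^ κ • loc0 κ e' s (tr e e' v) := by
    filter_upwards [ov_nhds hov] with v hv
    exact loc0_tr he he' hv κ s
  rw [dzb_congr h1, dzb_hol_smul_comp he he' hov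
    ((det_JM_hol he he' hov κ).restrictScalars ℝ) hG, dzb_hol (det_JM_hol he he' hov κ),
    zero_smul, zero_add]
  unfold loc1 dbar0
  rw [← he'd]
  unfold jac
  rw [← he'd, jacM_eq_JM hw]
  rfl

theorem dbar1_law {κ : ℤ} {a : X → Fin 2 → V} (ha : Reg1 1 κ a) {e : Ch X} (he : e ∈ atlas C2 X)
    {w : C2} (hw : w ∈ e.target) :
    loc2 κ e (dbar1 κ a) w =
      dzb 0 (fun v => loc1 κ e a v 1) w - dzb 1 (fun v => loc1 κ e a v 0) w := by
  set e' := chartAt C2 (e.symm w) with he'd
  have he' : e' ∈ atlas C2 X := chart_mem_atlas C2 _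
  have hov : w ∈ ov e e' := mem_ov_chartAt hw
  have hG : ∀ p, DifferentiableAt ℝ (fun u => loc1 κ e' a u p) (tr e e' w) := fun p =>
    diffAt_of ((contDiffOn_pi.1 (ha e' he')) p) (tr_mem hov)
  have hD := (det_JM_hol he he' hov κ).restrictScalars ℝ
  have hc : ∀ p i, DifferentiableAt ℝ
      (fun v => (JM e e' v).det ^ κ * conj (J e e' p i v)) w := fun p i =>
    hD.mul (conj_diff (J_diffR he he' hov p i))
  have h1 : ∀ i, (fun v => loc1 κ e a v i) =ᶠ[𝓝 w] fun v =>
      ∑ p, ((JM e e' v).det ^ κ * conj (J e e' p i v)) • (fun u => loc1 κ e' a u p) (tr e e' v) := by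
    intro i
    filter_upwards [ov_nhds hov] with v hv
    rw [loc1_tr he he' hv κ a i, Finset.smul_sum]
    simp only [smul_smul]
  have hdc : ∀ p i j, dzb j (fun v => (JM e e' v).det ^ κ * conj (J e e' p i v)) w =
      (JM e e' w).det ^ κ * dzb j (fun v => conj (J e e' p i v)) w := by
    intro p i j
    have := dzb_smul (f := fun v => conj (J e e' p i v)) j hD
      (conj_diff (J_diffR he he' hov p i))
    simp only [smul_eq_mul] at this
    rw [this, dzb_hol (det_JM_hol he he' hov κ), zero_mul, zero_add]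
  have key : ∀ j i, dzb j (fun v => loc1 κ e a v i) w = ∑ p, (((JM e e' w).det ^ κ *
      dzb j (fun v => conj (J e e' p i v)) w) •
      loc1 κ e' a (tr e e' w) p + ((JM e e' w).det ^ κ * conj (J e e' p i w)) •
        ∑ q, conj (J e e' q j w) • dzb q (fun u => loc1 κ e' a u p) (tr e e' w)) := by
    intro j i
    rw [dzb_congr (h1 i), dzb_sum j _ (fun p _ => diff_smul_comp he he' hov (hc p i) (hG p))]
    refine Finset.sum_congr rfl fun p _ => ?_
    rw [dzb_hol_smul_comp he he' hov (hc p i) (hG p), hdc]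
  rw [key, key]
  unfold loc2 dbar1
  rw [← he'd]
  unfold jac
  rw [← he'd, jacM_eq_JM hw]
  have htr : e' (e.symm w) = tr e e' w := rfl
  rw [htr]
  have hdet : conj (JM e e' w).det = conj (J e e' 0 0 w) * conj (J e e' 1 1 w) -
      conj (J e e' 0 1 w) * conj (J e e' 1 0 w) := by
    rw [Matrix.det_fin_two]
    simp only [JM_apply, map_sub, map_mul]
  rw [hdet]
  simp only [Fin.sum_univ_two]
  rw [dzb_conj_J_symm he he' hov 0 1 0, dzb_conj_J_symm he he' hov 1 1 0]
  module

end Vale.Agent.P267.H469
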