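import Vale.Agent.P267.H399.Defs

/-! P267 / H469: calculus of `∂/∂z_j`, `∂/∂z̄_j` (`dz`, `dzb` of H399.Defs). -/

open scoped Manifold ContDiff ComplexConjugate Topology
open MeasureTheory Set

noncomputable section

namespace Vale.Agent.P267.H469

open Vale.Agent.P267.FL

variable {V : Type*} [NormedAddCommGroup V] [NormedSpace ℂ V]

/-- basis vector -/
abbrev ev (j : Fin 2) : C2 := Pi.single j 1
/-- `i` times the basis vector -/
abbrev evI (j : Fin 2) : C2 := Pi.single j Complex.I

theorem vec_eq (v : C2) : v = ∑ j, ((v j).re • ev j + (v j).im • evI j) := by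
  funext k
  rw [Finset.sum_apply, Fin.sum_univ_two]
  fin_cases k
  · simp [ev, evI]
  · simp [ev, evI]

theorem dz_add_dzb (j : Fin 2) (f : C2 → V) (z : C2) :
    dz j f z + dzb j f z = fderiv ℝ f z (ev j) := by
  unfold dz dzb
  rw [← smul_add, sub_add_add_cancel, ← two_smul ℂ, smul_smul]
  norm_num

theorem I_dz_sub_dzb (j : Fin 2) (f : C2 → V) (z : C2) :
    Complex.I • (dz j f z - dzb j f z) = fderiv ℝ f z (evI j) := by
  have h : ∀ x y : V, Complex.I • ((1 / 2 : ℂ) • (x - Complex.I • y) -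
      (1 / 2 : ℂ) • (x + Complex.I • y)) = (-(Complex.I * Complex.I)) • y := by
    intro x y; module
  unfold dz dzb
  rw [h, Complex.I_mul_I, neg_neg, one_smul]

theorem fderiv_eq (f : C2 → V) (z v : C2) :
    fderiv ℝ f z v = ∑ j, (v j • dz j f z + conj (v j) • dzb j f z) := by
  conv_lhs => rw [vec_eq v]
  rw [map_sum]
  refine Finset.sum_congr rfl fun j _ => ?_
  rw [map_add, map_smul, map_smul, ← dz_add_dzb, ← I_dz_sub_dzb]
  have e1 : v j = ((v j).re : ℂ) + ((v j).im : ℂ) * Complex.I := (Complex.re_add_im _).symm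
  have e2 : conj (v j) = ((v j).re : ℂ) - ((v j).im : ℂ) * Complex.I := by
    apply Complex.ext <;> simp
  rw [e2]
  conv_rhs => rw [e1]
  have h1 : ∀ x : V, (v j).re • x = ((v j).re : ℂ) • x := fun x => (Complex.coe_smul _ _).symm
  have h2 : ∀ x : V, (v j).im • x = ((v j).im : ℂ) • x := fun x => (Complex.coe_smul _ _).symm
  rw [h1, h2]
  simp only [Complex.add_re, Complex.ofReal_re, Complex.mul_re, Complex.I_re, mul_zero,
    Complex.ofReal_im, Complex.I_im, mul_one, sub_zero, add_zero, Complex.add_im, Complex.mul_im,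
    zero_add, zero_mul]
  module

/-- `ℂ`-differentiable functions -/
theorem dzb_hol {f : C2 → V} {z : C2} (hf : DifferentiableAt ℂ f z) (j : Fin 2) :
    dzb j f z = 0 := by
  unfold dzb
  rw [hf.fderiv_restrictScalars ℝ]
  have h : (Pi.single j Complex.I : C2) = Complex.I • (Pi.single j (1 : ℂ)) := by
    rw [← Pi.single_smul, smul_eq_mul, mul_one]
  rw [h, ContinuousLinearMap.coe_restrictScalars', map_smul, smul_smul, Complex.I_mul_I]
  simp

theorem dz_hol {f : C2 → V} {z : C2} (hf : DifferentiableAt ℂ f z) (j : Fin 2) :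
    dz j f z = fderiv ℂ f z (ev j) := by
  unfold dz
  rw [hf.fderiv_restrictScalars ℝ]
  have h : (Pi.single j Complex.I : C2) = Complex.I • (Pi.single j (1 : ℂ)) := by
    rw [← Pi.single_smul, smul_eq_mul, mul_one]
  rw [h, ContinuousLinearMap.coe_restrictScalars', map_smul, smul_smul, Complex.I_mul_I,
    neg_one_smul, sub_neg_eq_add, ← two_smul ℂ, smul_smul]
  norm_num

theorem dz_congr {f g : C2 → V} {z : C2} (h : f =ᶠ[𝓝 z] g) (j : Fin 2) : dz j f z = dz j g z := by
  unfold dz; rw [h.fderiv_eq]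

theorem dzb_congr {f g : C2 → V} {z : C2} (h : f =ᶠ[𝓝 z] g) (j : Fin 2) :
    dzb j f z = dzb j g z := by
  unfold dzb; rw [h.fderiv_eq]

section algebra

variable {f g : C2 → V} {z : C2} (j : Fin 2)

theorem dz_add (hf : DifferentiableAt ℝ f z) (hg : DifferentiableAt ℝ g z) :
    dz j (fun w => f w + g w) z = dz j f z + dz j g z := by
  unfold dz; rw [fderiv_fun_add hf hg]; simp only [add_apply]; module

theorem dzb_add (hf : DifferentiableAt ℝ f z) (hg : DifferentiableAt ℝ g z) :
    dzb j (fun w => f w + g w) z = dzb j f z + dzb j g z := by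
  unfold dzb; rw [fderiv_fun_add hf hg]; simp only [add_apply]; module

theorem dz_sub (hf : DifferentiableAt ℝ f z) (hg : DifferentiableAt ℝ g z) :
    dz j (fun w => f w - g w) z = dz j f z - dz j g z := by
  unfold dz; rw [fderiv_fun_sub hf hg]; simp only [sub_apply]; module

theorem dzb_sub (hf : DifferentiableAt ℝ f z) (hg : DifferentiableAt ℝ g z) :
    dzb j (fun w => f w - g w) z = dzb j f z - dzb j g z := by
  unfold dzb; rw [fderiv_fun_sub hf hg]; simp only [sub_apply]; module

theorem dz_neg : dz j (fun w => - f w) z = - dz j f z := by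
  unfold dz; rw [fderiv_fun_neg]; simp only [neg_apply]; module

theorem dzb_neg : dzb j (fun w => - f w) z = - dzb j f z := by
  unfold dzb; rw [fderiv_fun_neg]; simp only [neg_apply]; module

theorem dz_const (c : V) : dz j (fun _ => c) z = 0 := by
  unfold dz; rw [fderiv_fun_const]; simp

theorem dzb_const (c : V) : dzb j (fun _ => c) z = 0 := by
  unfold dzb; rw [fderiv_fun_const]; simp

theorem dz_const_smul (c : ℂ) (hf : DifferentiableAt ℝ f z) :
    dz j (fun w => c • f w) z = c • dz j f z := by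
  unfold dz; rw [fderiv_fun_const_smul hf]; simp only [smul_apply]; module

theorem dzb_const_smul (c : ℂ) (hf : DifferentiableAt ℝ f z) :
    dzb j (fun w => c • f w) z = c • dzb j f z := by
  unfold dzb; rw [fderiv_fun_const_smul hf]; simp only [smul_apply]; module

theorem dz_sum {ι : Type*} (s : Finset ι) {F : ι → C2 → V}
    (hF : ∀ i ∈ s, DifferentiableAt ℝ (F i) z) :
    dz j (fun w => ∑ i ∈ s, F i w) z = ∑ i ∈ s, dz j (F i) z := by
  unfold dz; rw [fderiv_fun_sum hF]
  simp only [sum_apply, Finset.smul_sum, ← Finset.sum_sub_distrib]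

theorem dzb_sum {ι : Type*} (s : Finset ι) {F : ι → C2 → V}
    (hF : ∀ i ∈ s, DifferentiableAt ℝ (F i) z) :
    dzb j (fun w => ∑ i ∈ s, F i w) z = ∑ i ∈ s, dzb j (F i) z := by
  unfold dzb; rw [fderiv_fun_sum hF]
  simp only [sum_apply, Finset.smul_sum, ← Finset.sum_add_distrib]

theorem dz_smul {c : C2 → ℂ} (hc : DifferentiableAt ℝ c z) (hf : DifferentiableAt ℝ f z) :
    dz j (fun w => c w • f w) z = dz j c z • f z + c z • dz j f z := by
  unfold dz; rw [fderiv_fun_smul hc hf]
  simp only [add_apply, smul_apply,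
    ContinuousLinearMap.smulRight_apply, smul_eq_mul]
  module

theorem dzb_smul {c : C2 → ℂ} (hc : DifferentiableAt ℝ c z) (hf : DifferentiableAt ℝ f z) :
    dzb j (fun w => c w • f w) z = dzb j c z • f z + c z • dzb j f z := by
  unfold dzb; rw [fderiv_fun_smul hc hf]
  simp only [add_apply, smul_apply,
    ContinuousLinearMap.smulRight_apply, smul_eq_mul]
  module

end algebra

theorem dz_conj (g : C2 → ℂ) (z : C2) (j : Fin 2) :
    dz j (fun w => conj (g w)) z = conj (dzb j g z) := by
  have h : fderiv ℝ (fun w => conj (g w)) z =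
      (Complex.conjCLE : ℂ →L[ℝ] ℂ).comp (fderiv ℝ g z) := by
    have := Complex.conjCLE.comp_fderiv (f := g) (x := z)
    exact this
  unfold dz dzb
  rw [h]
  simp only [ContinuousLinearMap.comp_apply, smul_eq_mul, map_mul, map_add, map_sub, map_div₀,
    map_one, map_ofNat, Complex.conj_I]
  change _ * (conj _ - Complex.I * conj _) = _
  ring

theorem dzb_conj (g : C2 → ℂ) (z : C2) (j : Fin 2) :
    dzb j (fun w => conj (g w)) z = conj (dz j g z) := by
  have h := dz_conj (fun w => conj (g w)) z j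
  simp only [Complex.conj_conj] at h
  rw [h, Complex.conj_conj]

/-- chain rule for holomorphic maps -/
theorem dz_comp {f : C2 → V} {φ : C2 → C2} {z : C2} (hf : DifferentiableAt ℝ f (φ z))
    (hφ : DifferentiableAt ℂ φ z) (i : Fin 2) :
    dz i (fun w => f (φ w)) z = ∑ p, dz i (fun w => φ w p) z • dz p f (φ z) := by
  have hφr : DifferentiableAt ℝ φ z := hφ.restrictScalars ℝ
  have h : fderiv ℝ (fun w => f (φ w)) z = (fderiv ℝ f (φ z)).comp (fderiv ℝ φ z) :=
    fderiv_comp z hf hφr
  have hI : (Pi.single i Complex.I : C2) = Complex.I • (Pi.single i (1 : ℂ)) := by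
    rw [← Pi.single_smul, smul_eq_mul, mul_one]
  have hp : ∀ p, dz i (fun w => φ w p) z = fderiv ℂ φ z (ev i) p := by
    intro p
    have hd : DifferentiableAt ℂ (fun w => φ w p) z := (differentiableAt_pi.1 hφ) p
    rw [dz_hol hd]
    have := fderiv_pi (𝕜 := ℂ) (φ := fun p w => φ w p) (x := z) (differentiableAt_pi.1 hφ)
    have h2 : fderiv ℂ φ z = ContinuousLinearMap.pi fun p => fderiv ℂ (fun w => φ w p) z := this
    rw [h2]; rfl
  conv_lhs => unfold dz
  rw [h, ContinuousLinearMap.comp_apply, ContinuousLinearMap.comp_apply,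
    hφ.fderiv_restrictScalars ℝ, ContinuousLinearMap.coe_restrictScalars', hI, map_smul,
    fderiv_eq, fderiv_eq, Finset.smul_sum, ← Finset.sum_sub_distrib, Finset.smul_sum]
  refine Finset.sum_congr rfl fun p _ => ?_
  rw [hp p]
  simp only [Pi.smul_apply, smul_eq_mul, map_mul, Complex.conj_I, smul_add, smul_smul]
  have e1 : Complex.I * (Complex.I * (fderiv ℂ φ z) (ev i) p) = - (fderiv ℂ φ z) (ev i) p := by
    rw [← mul_assoc, Complex.I_mul_I, neg_one_mul]
  have e2 : Complex.I * (-Complex.I * conj ((fderiv ℂ φ z) (ev i) p)) =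
      conj ((fderiv ℂ φ z) (ev i) p) := by
    rw [← mul_assoc, mul_neg, Complex.I_mul_I, neg_neg, one_mul]
  rw [e1, e2]
  module

theorem dzb_comp {f : C2 → V} {φ : C2 → C2} {z : C2} (hf : DifferentiableAt ℝ f (φ z))
    (hφ : DifferentiableAt ℂ φ z) (i : Fin 2) :
    dzb i (fun w => f (φ w)) z = ∑ p, conj (dz i (fun w => φ w p) z) • dzb p f (φ z) := by
  have hφr : DifferentiableAt ℝ φ z := hφ.restrictScalars ℝ
  have h : fderiv ℝ (fun w => f (φ w)) z = (fderiv ℝ f (φ z)).comp (fderiv ℝ φ z) :=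
    fderiv_comp z hf hφr
  have hI : (Pi.single i Complex.I : C2) = Complex.I • (Pi.single i (1 : ℂ)) := by
    rw [← Pi.single_smul, smul_eq_mul, mul_one]
  have hp : ∀ p, dz i (fun w => φ w p) z = fderiv ℂ φ z (ev i) p := by
    intro p
    have hd : DifferentiableAt ℂ (fun w => φ w p) z := (differentiableAt_pi.1 hφ) p
    rw [dz_hol hd]
    have := fderiv_pi (𝕜 := ℂ) (φ := fun p w => φ w p) (x := z) (differentiableAt_pi.1 hφ)
    have h2 : fderiv ℂ φ z = ContinuousLinearMap.pi fun p => fderiv ℂ (fun w => φ w p) z := this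
    rw [h2]; rfl
  conv_lhs => unfold dzb
  rw [h, ContinuousLinearMap.comp_apply, ContinuousLinearMap.comp_apply,
    hφ.fderiv_restrictScalars ℝ, ContinuousLinearMap.coe_restrictScalars', hI, map_smul,
    fderiv_eq, fderiv_eq, Finset.smul_sum, ← Finset.sum_add_distrib, Finset.smul_sum]
  refine Finset.sum_congr rfl fun p _ => ?_
  rw [hp p]
  simp only [Pi.smul_apply, smul_eq_mul, map_mul, Complex.conj_I, smul_add, smul_smul]
  have e1 : Complex.I * (Complex.I * (fderiv ℂ φ z) (ev i) p) = - (fderiv ℂ φ z) (ev i) p := by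
    rw [← mul_assoc, Complex.I_mul_I, neg_one_mul]
  have e2 : Complex.I * (-Complex.I * conj ((fderiv ℂ φ z) (ev i) p)) =
      conj ((fderiv ℂ φ z) (ev i) p) := by
    rw [← mul_assoc, mul_neg, Complex.I_mul_I, neg_neg, one_mul]
  rw [e1, e2]
  module

end Vale.Agent.P267.H469
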