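import Vale.Agent.P267.H469.Wirt

/-! P267 / H469: second derivatives, smoothness, changes of charts. -/

set_option linter.unusedSectionVars false

open scoped Manifold ContDiff ComplexConjugate Topology
open MeasureTheory Set

noncomputable section

namespace Vale.Agent.P267.H469

open Vale.Agent.P267.FL

variable {V : Type*} [NormedAddCommGroup V] [NormedSpace ℂ V]

/-! ### smoothness -/

theorem fderiv_apply_contDiffOn {f : C2 → V} {U : Set C2} (hU : IsOpen U) {m n : WithTop ℕ∞}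
    (hf : ContDiffOn ℝ n f U) (hmn : m + 1 ≤ n) (v : C2) :
    ContDiffOn ℝ m (fun z => fderiv ℝ f z v) U :=
  (hf.fderiv_of_isOpen hU hmn).clm_apply contDiffOn_const

theorem dz_contDiffOn {f : C2 → V} {U : Set C2} (hU : IsOpen U) {m n : WithTop ℕ∞}
    (hf : ContDiffOn ℝ n f U) (hmn : m + 1 ≤ n) (j : Fin 2) : ContDiffOn ℝ m (dz j f) U := by
  unfold dz
  exact ((fderiv_apply_contDiffOn hU hf hmn _).sub
    ((fderiv_apply_contDiffOn hU hf hmn _).const_smul Complex.I)).const_smul (1 / 2 : ℂ)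

theorem dzb_contDiffOn {f : C2 → V} {U : Set C2} (hU : IsOpen U) {m n : WithTop ℕ∞}
    (hf : ContDiffOn ℝ n f U) (hmn : m + 1 ≤ n) (j : Fin 2) : ContDiffOn ℝ m (dzb j f) U := by
  unfold dzb
  exact ((fderiv_apply_contDiffOn hU hf hmn _).add
    ((fderiv_apply_contDiffOn hU hf hmn _).const_smul Complex.I)).const_smul (1 / 2 : ℂ)

/-! ### symmetry of second derivatives -/

theorem fderiv2_symm {f : C2 → V} {z : C2} (hf : ContDiffAt ℝ 2 f z) (u v : C2) :
    fderiv ℝ (fun w => fderiv ℝ f w u) z v = fderiv ℝ (fun w => fderiv ℝ f w v) z u := by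
  have hs : IsSymmSndFDerivAt ℝ f z := hf.isSymmSndFDerivAt (by simp)
  have hd : DifferentiableAt ℝ (fderiv ℝ f) z :=
    (hf.fderiv_right (m := 1) (by norm_num)).differentiableAt (by simp)
  have h1 : ∀ a b : C2, fderiv ℝ (fun w => fderiv ℝ f w a) z b = fderiv ℝ (fderiv ℝ f) z b a := by
    intro a b
    rw [fderiv_clm_apply hd (differentiableAt_const a)]
    simp
  rw [h1, h1]
  exact (hs v u)

theorem diff_fderiv_apply {f : C2 → V} {z : C2} (hf : ContDiffAt ℝ 2 f z) (u : C2) :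
    DifferentiableAt ℝ (fun w => fderiv ℝ f w u) z := by
  have hd : DifferentiableAt ℝ (fderiv ℝ f) z :=
    (hf.fderiv_right (m := 1) (by norm_num)).differentiableAt (by simp)
  exact hd.clm_apply (differentiableAt_const u)

theorem dz_diff {f : C2 → V} {z : C2} (hf : ContDiffAt ℝ 2 f z) (j : Fin 2) :
    DifferentiableAt ℝ (dz j f) z := by
  unfold dz
  exact ((diff_fderiv_apply hf _).sub ((diff_fderiv_apply hf _).const_smul Complex.I)).const_smul
    (1 / 2 : ℂ)

theorem dzb_diff {f : C2 → V} {z : C2} (hf : ContDiffAt ℝ 2 f z) (j : Fin 2) :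
    DifferentiableAt ℝ (dzb j f) z := by
  unfold dzb
  exact ((diff_fderiv_apply hf _).add ((diff_fderiv_apply hf _).const_smul Complex.I)).const_smul
    (1 / 2 : ℂ)

theorem fderiv_dz {f : C2 → V} {z : C2} (hf : ContDiffAt ℝ 2 f z) (j : Fin 2) (v : C2) :
    fderiv ℝ (dz j f) z v = (1 / 2 : ℂ) • (fderiv ℝ (fun w => fderiv ℝ f w (ev j)) z v -
      Complex.I • fderiv ℝ (fun w => fderiv ℝ f w (evI j)) z v) := by
  have h1 := diff_fderiv_apply hf (ev j)
  have h2 := diff_fderiv_apply hf (evI j)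
  have e : dz j f = fun w => (1 / 2 : ℂ) • (fderiv ℝ f w (ev j) -
      Complex.I • fderiv ℝ f w (evI j)) := rfl
  have h4 : DifferentiableAt ℝ (fun w => Complex.I • fderiv ℝ f w (evI j)) z := h2.const_smul _
  have h3 : DifferentiableAt ℝ (fun w => fderiv ℝ f w (ev j) -
      Complex.I • fderiv ℝ f w (evI j)) z := h1.sub h4
  rw [e, fderiv_fun_const_smul h3, fderiv_fun_sub h1 h4, fderiv_fun_const_smul h2]
  rfl

theorem fderiv_dzb {f : C2 → V} {z : C2} (hf : ContDiffAt ℝ 2 f z) (j : Fin 2) (v : C2) :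
    fderiv ℝ (dzb j f) z v = (1 / 2 : ℂ) • (fderiv ℝ (fun w => fderiv ℝ f w (ev j)) z v +
      Complex.I • fderiv ℝ (fun w => fderiv ℝ f w (evI j)) z v) := by
  have h1 := diff_fderiv_apply hf (ev j)
  have h2 := diff_fderiv_apply hf (evI j)
  have e : dzb j f = fun w => (1 / 2 : ℂ) • (fderiv ℝ f w (ev j) +
      Complex.I • fderiv ℝ f w (evI j)) := rfl
  have h4 : DifferentiableAt ℝ (fun w => Complex.I • fderiv ℝ f w (evI j)) z := h2.const_smul _
  have h3 : DifferentiableAt ℝ (fun w => fderiv ℝ f w (ev j) +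
      Complex.I • fderiv ℝ f w (evI j)) z := h1.add h4
  rw [e, fderiv_fun_const_smul h3, fderiv_fun_add h1 h4, fderiv_fun_const_smul h2]
  rfl

theorem dz_dz_comm {f : C2 → V} {z : C2} (hf : ContDiffAt ℝ 2 f z) (i j : Fin 2) :
    dz i (dz j f) z = dz j (dz i f) z := by
  conv_lhs => unfold dz
  conv_rhs => unfold dz
  change (1 / 2 : ℂ) • (fderiv ℝ (dz j f) z (ev i) - Complex.I • fderiv ℝ (dz j f) z (evI i)) =
    (1 / 2 : ℂ) • (fderiv ℝ (dz i f) z (ev j) - Complex.I • fderiv ℝ (dz i f) z (evI j))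
  simp only [fderiv_dz hf]
  rw [fderiv2_symm hf (ev j) (ev i), fderiv2_symm hf (ev j) (evI i),
    fderiv2_symm hf (evI j) (ev i), fderiv2_symm hf (evI j) (evI i)]
  module

theorem dzb_dzb_comm {f : C2 → V} {z : C2} (hf : ContDiffAt ℝ 2 f z) (i j : Fin 2) :
    dzb i (dzb j f) z = dzb j (dzb i f) z := by
  conv_lhs => unfold dzb
  conv_rhs => unfold dzb
  change (1 / 2 : ℂ) • (fderiv ℝ (dzb j f) z (ev i) + Complex.I • fderiv ℝ (dzb j f) z (evI i)) =
    (1 / 2 : ℂ) • (fderiv ℝ (dzb i f) z (ev j) + Complex.I • fderiv ℝ (dzb i f) z (evI j))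
  simp only [fderiv_dzb hf]
  rw [fderiv2_symm hf (ev j) (ev i), fderiv2_symm hf (ev j) (evI i),
    fderiv2_symm hf (evI j) (ev i), fderiv2_symm hf (evI j) (evI i)]
  module

theorem dz_dzb_comm {f : C2 → V} {z : C2} (hf : ContDiffAt ℝ 2 f z) (i j : Fin 2) :
    dz i (dzb j f) z = dzb j (dz i f) z := by
  conv_lhs => unfold dz
  conv_rhs => unfold dzb
  change (1 / 2 : ℂ) • (fderiv ℝ (dzb j f) z (ev i) - Complex.I • fderiv ℝ (dzb j f) z (evI i)) =
    (1 / 2 : ℂ) • (fderiv ℝ (dz i f) z (ev j) + Complex.I • fderiv ℝ (dz i f) z (evI j))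
  simp only [fderiv_dzb hf, fderiv_dz hf]
  rw [fderiv2_symm hf (ev j) (ev i), fderiv2_symm hf (ev j) (evI i),
    fderiv2_symm hf (evI j) (ev i), fderiv2_symm hf (evI j) (evI i)]
  module

/-! ### changes of charts -/

variable {X : Type*} [TopologicalSpace X] [ChartedSpace C2 X]

/-- the domain of the change of charts -/
def ov (e e' : Ch X) : Set C2 := e.target ∩ e.symm ⁻¹' e'.source

theorem isOpen_ov (e e' : Ch X) : IsOpen (ov e e') :=
  e.symm.isOpen_inter_preimage e'.open_source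

/-- the change of charts -/
def tr (e e' : Ch X) (w : C2) : C2 := e' (e.symm w)

theorem ov_nhds {e e' : Ch X} {w : C2} (hw : w ∈ ov e e') : ov e e' ∈ 𝓝 w :=
  (isOpen_ov e e').mem_nhds hw

variable [IsManifold 𝓘(ℂ, C2) ω X]

theorem tr_contDiffOn {e e' : Ch X} (he : e ∈ atlas C2 X) (he' : e' ∈ atlas C2 X) :
    ContDiffOn ℂ ω (tr e e') (ov e e') := by
  have h := HasGroupoid.compatible (G := contDiffGroupoid ω 𝓘(ℂ, C2)) he he'
  have h1 := (contDiffGroupoid ω 𝓘(ℂ, C2)).mem_of_eqOnSource h (Setoid.refl _)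
  rw [contDiffGroupoid, mem_groupoid_of_pregroupoid] at h
  have h2 := h.1
  simp only [contDiffPregroupoid, modelWithCornersSelf_coe, modelWithCornersSelf_coe_symm,
    Function.comp_id, Function.id_comp, preimage_id, range_id, inter_univ] at h2
  have h3 : (e.symm ≫ₕ e').source = ov e e' := by
    rw [OpenPartialHomeomorph.trans_source, OpenPartialHomeomorph.symm_source]; rfl
  rw [h3] at h2
  exact h2

theorem tr_diff {e e' : Ch X} (he : e ∈ atlas C2 X) (he' : e' ∈ atlas C2 X) {w : C2}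
    (hw : w ∈ ov e e') : DifferentiableAt ℂ (tr e e') w :=
  ((tr_contDiffOn he he').contDiffAt (ov_nhds hw)).differentiableAt (by simp)

/-- entries of the Jacobian matrix as functions on the chart -/
def J (e e' : Ch X) (p i : Fin 2) (w : C2) : ℂ := dz i (fun v => tr e e' v p) w

theorem jacM_eq {e e' : Ch X} {w : C2} (hw : w ∈ e.target) (p i : Fin 2) :
    jacM e e' (e.symm w) p i = J e e' p i w := by
  unfold jacM J
  rw [Matrix.of_apply, e.right_inv hw]
  rfl

theorem J_eq {e e' : Ch X} (he : e ∈ atlas C2 X) (he' : e' ∈ atlas C2 X) {w : C2}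
    (hw : w ∈ ov e e') (p i : Fin 2) :
    J e e' p i w = fderiv ℂ (fun v => tr e e' v p) w (ev i) := by
  unfold J
  exact dz_hol ((differentiableAt_pi.1 (tr_diff he he' hw)) p) i

theorem J_contDiffOn {e e' : Ch X} (he : e ∈ atlas C2 X) (he' : e' ∈ atlas C2 X) (p i : Fin 2) :
    ContDiffOn ℂ ω (J e e' p i) (ov e e') := by
  have h1 : ContDiffOn ℂ ω (fun v => tr e e' v p) (ov e e') :=
    (contDiffOn_pi.1 (tr_contDiffOn he he')) p
  have h2 : ContDiffOn ℂ ω (fun w => fderiv ℂ (fun v => tr e e' v p) w (ev i)) (ov e e') :=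
    (h1.fderiv_of_isOpen (isOpen_ov e e') le_top).clm_apply contDiffOn_const
  exact h2.congr fun w hw => J_eq he he' hw p i

theorem J_diff {e e' : Ch X} (he : e ∈ atlas C2 X) (he' : e' ∈ atlas C2 X) {w : C2}
    (hw : w ∈ ov e e') (p i : Fin 2) : DifferentiableAt ℂ (J e e' p i) w :=
  ((J_contDiffOn he he' p i).contDiffAt (ov_nhds hw)).differentiableAt (by simp)

theorem J_real {e e' : Ch X} (he : e ∈ atlas C2 X) (he' : e' ∈ atlas C2 X) (p i : Fin 2)
    {n : WithTop ℕ∞} : ContDiffOn ℝ n (J e e' p i) (ov e e') :=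
  ((J_contDiffOn he he' p i).restrict_scalars ℝ).of_le le_top

theorem tr_real {e e' : Ch X} (he : e ∈ atlas C2 X) (he' : e' ∈ atlas C2 X)
    {n : WithTop ℕ∞} : ContDiffOn ℝ n (tr e e') (ov e e') :=
  ((tr_contDiffOn he he').restrict_scalars ℝ).of_le le_top

/-- symmetry of the derivative of the Jacobian -/
theorem dz_J_symm {e e' : Ch X} (he : e ∈ atlas C2 X) (he' : e' ∈ atlas C2 X) {w : C2}
    (hw : w ∈ ov e e') (p i j : Fin 2) : dz j (J e e' p i) w = dz i (J e e' p j) w := by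
  have h1 : ContDiffAt ℝ 2 (fun v => tr e e' v p) w :=
    ((contDiffOn_pi.1 (tr_real he he' (n := 2))) p).contDiffAt (ov_nhds hw)
  exact dz_dz_comm h1 j i

theorem dzb_J {e e' : Ch X} (he : e ∈ atlas C2 X) (he' : e' ∈ atlas C2 X) {w : C2}
    (hw : w ∈ ov e e') (p i j : Fin 2) : dzb j (J e e' p i) w = 0 :=
  dzb_hol (J_diff he he' hw p i) j

theorem dz_conj_J {e e' : Ch X} (he : e ∈ atlas C2 X) (he' : e' ∈ atlas C2 X) {w : C2}
    (hw : w ∈ ov e e') (p i j : Fin 2) : dz j (fun v => conj (J e e' p i v)) w = 0 := by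
  rw [dz_conj, dzb_J he he' hw, map_zero]

theorem dzb_conj_J_symm {e e' : Ch X} (he : e ∈ atlas C2 X) (he' : e' ∈ atlas C2 X) {w : C2}
    (hw : w ∈ ov e e') (p i j : Fin 2) : dzb j (fun v => conj (J e e' p i v)) w =
      dzb i (fun v => conj (J e e' p j v)) w := by
  rw [dzb_conj, dzb_conj, dz_J_symm he he' hw]

/-- cocycle identity -/
theorem J_cocycle {e e' e'' : Ch X} (he : e ∈ atlas C2 X) (he' : e' ∈ atlas C2 X)
    (he'' : e'' ∈ atlas C2 X) {w : C2} (hw : w ∈ ov e e') (hw' : tr e e' w ∈ ov e' e'')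
    (p i : Fin 2) : J e e'' p i w = ∑ q, J e' e'' p q (tr e e' w) * J e e' q i w := by
  have h1 : (fun v => tr e e'' v p) =ᶠ[𝓝 w] fun v => tr e' e'' (tr e e' v) p := by
    filter_upwards [ov_nhds hw] with v hv
    unfold tr
    rw [e'.left_inv hv.2]
  have h2 : DifferentiableAt ℝ (fun v => tr e' e'' v p) (tr e e' w) :=
    ((differentiableAt_pi.1 (tr_diff he' he'' hw')) p).restrictScalars ℝ
  unfold J
  rw [dz_congr h1, dz_comp (f := fun v => tr e' e'' v p) h2 (tr_diff he he' hw)]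
  refine Finset.sum_congr rfl fun q _ => ?_
  rw [smul_eq_mul, mul_comm]

theorem jacM_cocycle {e e' e'' : Ch X} (he : e ∈ atlas C2 X) (he' : e' ∈ atlas C2 X)
    (he'' : e'' ∈ atlas C2 X) {w : C2} (hw : w ∈ ov e e') (hw2 : e.symm w ∈ e''.source) :
    jacM e e'' (e.symm w) = jacM e' e'' (e.symm w) * jacM e e' (e.symm w) := by
  ext p i
  have h3 : e'.symm (tr e e' w) = e.symm w := e'.left_inv hw.2
  have hw' : tr e e' w ∈ ov e' e'' := ⟨e'.map_source hw.2, by
    change e'.symm (tr e e' w) ∈ e''.source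
    rw [h3]; exact hw2⟩
  rw [Matrix.mul_apply, jacM_eq hw.1, J_cocycle he he' he'' hw hw']
  refine Finset.sum_congr rfl fun q _ => ?_
  have := jacM_eq (e' := e'') hw'.1 p q
  rw [h3] at this
  rw [jacM_eq hw.1, this]

end Vale.Agent.P267.H469
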